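import Vale.Agent.P161.Defs

/-!
# P161 : existence of a Brownian motion at dyadic times
-/

namespace P161

open MeasureTheory ProbabilityTheory
open scoped ENNReal NNReal

namespace BM

/-- i.i.d. standard Gaussian sequence -/
noncomputable def gam : Measure (ℕ → ℝ) := Measure.infinitePi fun _ => gaussianReal 0 1

instance : IsProbabilityMeasure gam := by unfold gam; infer_instance

/-- i.i.d. standard Gaussian array -/
noncomputable def rho : Measure (ℕ → ℕ → ℝ) := Measure.infinitePi fun _ => gam

instance : IsProbabilityMeasure rho := by unfold rho; infer_instance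

/-- the increments of level `j` -/
noncomputable def inc : ℕ → ℕ → (ℕ → ℕ → ℝ) → ℝ
  | 0, k, ξ => ξ 0 k
  | j + 1, k, ξ => (inc j (k / 2) ξ +
      (if k % 2 = 0 then 1 else -1) * √((1 / 2) ^ j) * ξ (j + 1) (k / 2)) / 2

theorem measurable_inc (j k : ℕ) : Measurable (inc j k) := by
  induction j generalizing k with
  | zero =>
    have h : inc 0 k = fun ξ : ℕ → ℕ → ℝ => ξ 0 k := by ext ξ; rw [inc]
    rw [h]
    fun_prop
  | succ j ih =>
    have h : inc (j + 1) k = fun ξ : ℕ → ℕ → ℝ => (inc j (k / 2) ξ +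
      (if k % 2 = 0 then 1 else -1) * √((1 / 2) ^ j) * ξ (j + 1) (k / 2)) / 2 := by
      ext ξ; rw [inc]
    rw [h]
    have := ih (k / 2)
    fun_prop

theorem inc_congr {j k : ℕ} {ξ ξ' : ℕ → ℕ → ℝ} (h : ∀ i ≤ j, ξ i = ξ' i) :
    inc j k ξ = inc j k ξ' := by
  induction j generalizing k with
  | zero =>
    simp only [inc]
    rw [h 0 le_rfl]
  | succ j ih =>
    simp only [inc]
    rw [ih (fun i hi => h i (by omega)), h (j + 1) le_rfl]

theorem inc_even (j k : ℕ) (ξ : ℕ → ℕ → ℝ) :
    inc (j + 1) (2 * k) ξ = (inc j k ξ + √((1 / 2) ^ j) * ξ (j + 1) k) / 2 := by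
  simp only [inc]
  rw [show 2 * k / 2 = k by omega, if_pos (by omega), one_mul]

theorem inc_odd (j k : ℕ) (ξ : ℕ → ℕ → ℝ) :
    inc (j + 1) (2 * k + 1) ξ = (inc j k ξ - √((1 / 2) ^ j) * ξ (j + 1) k) / 2 := by
  simp only [inc]
  rw [show (2 * k + 1) / 2 = k by omega, if_neg (by omega)]
  ring

/-- the sum of independent Gaussians, indexed by a range -/
theorem law_gam (u : ℕ → ℝ) (n : ℕ) :
    gam.map (fun x => ∑ i ∈ Finset.range n, u i * x i) =
      gaussianReal 0 (∑ i ∈ Finset.range n, u i ^ 2).toNNReal := by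
  have hind : iIndepFun (fun (i : ℕ) (x : ℕ → ℝ) => u i * x i) gam :=
    iIndepFun_infinitePi (X := fun i y => u i * y) (fun i => by fun_prop)
  have hone : ∀ i, gam.map (fun x => u i * x i) = gaussianReal 0 (u i ^ 2).toNNReal := by
    intro i
    have h1 : gam.map (fun x => u i * x i) = (gam.map fun x => x i).map (fun y => u i * y) := by
      rw [Measure.map_map (by fun_prop) (by fun_prop)]
      rfl
    have h2 : gam.map (fun x => x i) = gaussianReal 0 1 :=
      (measurePreserving_eval_infinitePi (fun _ : ℕ => gaussianReal 0 1) i).map_eq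
    rw [h1, h2, gaussianReal_map_const_mul]
    simp only [mul_zero, mul_one]
    congr 1
    rw [Real.toNNReal_of_nonneg (sq_nonneg _)]
  induction n with
  | zero =>
    simp only [Finset.range_zero, Finset.sum_empty, Real.toNNReal_zero, gaussianReal_zero_var]
    rw [Measure.map_const]
    simp
  | succ n ih =>
    have h3 := hind.indepFun_sum_range_succ (fun i => by fun_prop) n
    have h4 : (∑ i ∈ Finset.range n, fun x : ℕ → ℝ => u i * x i) =
        fun x => ∑ i ∈ Finset.range n, u i * x i := by
      ext x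
      simp
    rw [h4] at h3
    have h5 := gaussianReal_add_gaussianReal_of_indepFun h3 ih (hone n)
    rw [add_zero, ← Real.toNNReal_add (Finset.sum_nonneg fun i _ => sq_nonneg _) (sq_nonneg _)] at h5
    rw [Finset.sum_range_succ, ← h5]
    congr 1
    ext x
    simp [Finset.sum_range_succ]

theorem map_row (j : ℕ) : rho.map (fun ξ => ξ j) = gam :=
  (measurePreserving_eval_infinitePi (fun _ : ℕ => gam) j).map_eq

theorem law_row (j : ℕ) (u : ℕ → ℝ) (n : ℕ) :
    rho.map (fun ξ => ∑ i ∈ Finset.range n, u i * ξ j i) =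
      gaussianReal 0 (∑ i ∈ Finset.range n, u i ^ 2).toNNReal := by
  rw [← law_gam, ← map_row j, Measure.map_map (by fun_prop) (by fun_prop)]
  rfl

/-- the increments of level `j` are independent of the next row -/
theorem indep (j : ℕ) (s u : ℕ → ℝ) (n : ℕ) :
    IndepFun (fun ξ => ∑ i ∈ Finset.range n, s i * inc j i ξ)
      (fun ξ => ∑ i ∈ Finset.range n, u i * ξ (j + 1) i) rho := by
  have hind : iIndepFun (fun (i : ℕ) (ξ : ℕ → ℕ → ℝ) => ξ i) rho :=
    iIndepFun_infinitePi (X := fun _ y => y) (fun i => by fun_prop)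
  have h1 := hind.indepFun_finset (Finset.range (j + 1)) {j + 1}
    (by simp) (fun i => by fun_prop)
  have hF : Measurable fun (x : Finset.range (j + 1) → ℕ → ℝ) =>
      ∑ i ∈ Finset.range n, s i * inc j i (fun a => if h : a ∈ Finset.range (j + 1) then
        x ⟨a, h⟩ else 0) := by
    refine Finset.measurable_sum _ fun i _ => ?_
    refine Measurable.const_mul ?_ _
    refine (measurable_inc j i).comp ?_
    refine measurable_pi_lambda _ fun a => ?_
    by_cases h : a ∈ Finset.range (j + 1)
    · simp only [h, dif_pos]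
      fun_prop
    · simp only [h, dif_neg, not_false_eq_true]
      fun_prop
  have hG : Measurable fun (x : ({j + 1} : Finset ℕ) → ℕ → ℝ) =>
      ∑ i ∈ Finset.range n, u i * x ⟨j + 1, by simp⟩ i := by fun_prop
  have h2 := h1.comp hF hG
  refine h2.congr (Filter.Eventually.of_forall fun ξ => ?_) (Filter.Eventually.of_forall fun ξ => ?_)
  · simp only [Function.comp_apply]
    refine Finset.sum_congr rfl fun i _ => ?_
    congr 1
    refine inc_congr fun a ha => ?_
    rw [dif_pos (Finset.mem_range.2 (by omega))]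
  · rfl

/-- linear combinations of the increments of level `j` -/
theorem law_comb (j : ℕ) (t : ℕ → ℝ) (n : ℕ) :
    rho.map (fun ξ => ∑ i ∈ Finset.range n, t i * inc j i ξ) =
      gaussianReal 0 ((1 / 2) ^ j * ∑ i ∈ Finset.range n, t i ^ 2).toNNReal := by
  induction j generalizing t n with
  | zero =>
    simp only [pow_zero, one_mul, inc]
    exact law_row 0 t n
  | succ j ih =>
    -- extend `t` by zero to `range (2 n)`
    let t' : ℕ → ℝ := fun i => if i < n then t i else 0
    have hext : ∀ f : ℕ → ℝ, ∑ i ∈ Finset.range n, t i * f i =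
        ∑ i ∈ Finset.range n, (t' (2 * i) * f (2 * i) + t' (2 * i + 1) * f (2 * i + 1)) := by
      intro f
      have h1 : ∑ i ∈ Finset.range n, t i * f i = ∑ i ∈ Finset.range (2 * n), t' i * f i := by
        rw [← Finset.sum_subset (Finset.range_mono (show n ≤ 2 * n by omega))
          (f := fun i => t' i * f i)]
        · refine Finset.sum_congr rfl fun i hi => ?_
          simp [t', Finset.mem_range.1 hi]
        · intro i _ hi
          simp [t', Finset.mem_range.not.1 hi]
      rw [h1]
      clear h1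
      generalize n = m
      induction m with
      | zero => simp
      | succ m ihm =>
        rw [show 2 * (m + 1) = 2 * m + 1 + 1 by ring, Finset.sum_range_succ,
          Finset.sum_range_succ, ihm, Finset.sum_range_succ (n := m)]
        ring
    set c : ℝ := √((1 / 2) ^ j) with hc
    have hc2 : c ^ 2 = (1 / 2) ^ j := Real.sq_sqrt (by positivity)
    have hsplit : (fun ξ => ∑ i ∈ Finset.range n, t i * inc (j + 1) i ξ) =
        (fun ξ => ∑ i ∈ Finset.range n, ((t' (2 * i) + t' (2 * i + 1)) / 2) * inc j i ξ) +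
        (fun ξ => ∑ i ∈ Finset.range n, (c * (t' (2 * i) - t' (2 * i + 1)) / 2) *
          ξ (j + 1) i) := by
      ext ξ
      rw [Pi.add_apply, hext (fun i => inc (j + 1) i ξ), ← Finset.sum_add_distrib]
      refine Finset.sum_congr rfl fun i _ => ?_
      rw [inc_even, inc_odd]
      ring
    rw [hsplit, gaussianReal_add_gaussianReal_of_indepFun (indep j _ _ n) (ih _ n)
      (law_row (j + 1) _ n), add_zero, ← Real.toNNReal_add (by positivity) (by positivity)]
    congr 2
    have h2 : ∑ i ∈ Finset.range n, t i ^ 2 =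
        ∑ i ∈ Finset.range n, (t' (2 * i) ^ 2 + t' (2 * i + 1) ^ 2) := by
      have h3 := hext t'
      rw [show ∑ i ∈ Finset.range n, t i ^ 2 = ∑ i ∈ Finset.range n, t i * t' i from
        Finset.sum_congr rfl fun i hi => by simp [t', Finset.mem_range.1 hi, sq], h3]
      refine Finset.sum_congr rfl fun i _ => by ring
    rw [h2, Finset.mul_sum, Finset.mul_sum, ← Finset.sum_add_distrib]
    refine Finset.sum_congr rfl fun i _ => ?_
    linear_combination ((t' (2 * i) - t' (2 * i + 1)) ^ 2 / 4) * hc2

/-- the joint law of the increments of level `j` -/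
theorem law_inc (j n : ℕ) : rho.map (fun ξ (k : Fin n) => inc j k ξ) =
    Measure.pi fun _ => gaussianReal 0 ((1 / 2) ^ j) := by
  have hm : Measurable fun ξ (k : Fin n) => inc j k ξ :=
    measurable_pi_lambda _ fun k => measurable_inc j k
  have : IsProbabilityMeasure (rho.map (fun ξ (k : Fin n) => inc j k ξ)) :=
    Measure.isProbabilityMeasure_map hm.aemeasurable
  refine (charFun_eq_pi_iff (E := fun _ : Fin n => ℝ)).1 fun t => ?_
  -- the linear combination
  let t' : ℕ → ℝ := fun i => if h : i < n then t ⟨i, h⟩ else 0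
  have hlin : ∀ f : ℕ → ℝ, ∑ i ∈ Finset.range n, t' i * f i = ∑ k : Fin n, t k * f k := by
    intro f
    rw [← Fin.sum_univ_eq_sum_range (fun i => t' i * f i)]
    refine Finset.sum_congr rfl fun k _ => ?_
    simp [t']
  have h1 : charFun ((rho.map (fun ξ (k : Fin n) => inc j k ξ)).map (WithLp.toLp 2)) t =
      charFun (rho.map (fun ξ => ∑ i ∈ Finset.range n, t' i * inc j i ξ)) 1 := by
    rw [charFun_apply, charFun_apply, integral_map (by fun_prop) (by fun_prop),
      integral_map hm.aemeasurable (by fun_prop),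
      integral_map (Finset.measurable_sum _ fun i _ =>
        (measurable_inc j i).const_mul _).aemeasurable (by fun_prop)]
    refine integral_congr_ae (Filter.Eventually.of_forall fun ξ => ?_)
    simp only
    rw [hlin (fun i => inc j i ξ)]
    simp [PiLp.inner_apply]
  rw [h1, law_comb, charFun_gaussianReal]
  simp_rw [charFun_gaussianReal]
  rw [← Complex.exp_sum]
  congr 1
  have h2 : ∑ i ∈ Finset.range n, t' i ^ 2 = ∑ k : Fin n, t k ^ 2 := by
    rw [← Fin.sum_univ_eq_sum_range (fun i => t' i ^ 2)]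
    refine Finset.sum_congr rfl fun k _ => ?_
    simp [t']
  rw [h2]
  have h3 : (((1 / 2) ^ j * ∑ k : Fin n, t k ^ 2).toNNReal : ℝ) =
      (1 / 2) ^ j * ∑ k : Fin n, t k ^ 2 := Real.coe_toNNReal _ (by positivity)
  simp only [Complex.ofReal_zero, mul_zero, zero_mul, zero_sub, Complex.ofReal_one, one_pow,
    mul_one]
  rw [show ((((1 / 2) ^ j * ∑ k : Fin n, t k ^ 2).toNNReal : ℝ) : ℂ) =
    (((1 / 2) ^ j * ∑ k : Fin n, t k ^ 2 : ℝ) : ℂ) by rw [h3]]
  push_cast
  rw [Finset.mul_sum, Finset.sum_div, ← Finset.sum_neg_distrib]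

end BM

theorem exists_bm : ∃ (ρ : Measure (ℕ → ℕ → ℝ)) (w : ℕ → ℕ → (ℕ → ℕ → ℝ) → ℝ),
    IsDyadicBM ρ w := by
  refine ⟨BM.rho, fun j k ξ => ∑ i ∈ Finset.range k, BM.inc j i ξ, ?_⟩
  refine ⟨inferInstance, fun j k => Finset.measurable_sum _ fun i _ => BM.measurable_inc j i,
    fun j e => by simp, fun j k e => ?_, fun j n => ?_⟩
  · induction k with
    | zero => simp
    | succ k ih =>
      rw [show 2 * (k + 1) = 2 * k + 1 + 1 by ring, Finset.sum_range_succ, Finset.sum_range_succ,
        ih, Finset.sum_range_succ, BM.inc_even, BM.inc_odd]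
      ring
  · rw [← BM.law_inc j n]
    congr 1
    ext ξ k
    simp [Finset.sum_range_succ]

end P161
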