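import Vale.Agent.P161.Defs

/-!
# P161, module Basic : measurability, bounds, moments
-/

namespace P161

open MeasureTheory ProbabilityTheory
open scoped ENNReal

theorem measurable_spin : Measurable spin := measurable_from_top

theorem abs_spin (b : Bool) : |spin b| = 1 := by cases b <;> simp [spin]

theorem spin_sq (b : Bool) : spin b * spin b = 1 := by cases b <;> simp [spin]

section

variable {V : Type*}

theorem field_pos (D : Finset V) (x : V → ℝ) (σ : V → Bool) : 0 < field D x σ := Real.exp_pos _

theorem field_le (D : Finset V) (x : V → ℝ) (σ : V → Bool) :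
    field D x σ ≤ Real.exp (∑ u ∈ D, |x u|) := by
  refine Real.exp_le_exp.mpr (Finset.sum_le_sum fun u _ => ?_)
  calc x u * spin (σ u) ≤ |x u * spin (σ u)| := le_abs_self _
    _ = |x u| := by rw [abs_mul, abs_spin, mul_one]

theorem measurable_field_uncurry (D : Finset V) :
    Measurable fun p : (V → ℝ) × (V → Bool) => field D p.1 p.2 := by
  unfold field
  refine Real.measurable_exp.comp (Finset.measurable_sum _ fun u _ => ?_)
  exact ((measurable_pi_apply u).comp measurable_fst).mul
    (measurable_spin.comp ((measurable_pi_apply u).comp measurable_snd))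

theorem measurable_field (D : Finset V) (x : V → ℝ) : Measurable (field D x) := by
  unfold field
  refine Real.measurable_exp.comp (Finset.measurable_sum _ fun u _ => ?_)
  exact measurable_const.mul (measurable_spin.comp (measurable_pi_apply u))

theorem measurable_spin_eval (v : V) : Measurable fun σ : V → Bool => spin (σ v) :=
  measurable_spin.comp (measurable_pi_apply v)

theorem integrable_field (μ : Measure (V → Bool)) [IsFiniteMeasure μ] (D : Finset V)
    (x : V → ℝ) : Integrable (field D x) μ := by
  refine Integrable.of_bound (measurable_field D x).aestronglyMeasurable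
    (Real.exp (∑ u ∈ D, |x u|)) (Filter.Eventually.of_forall fun σ => ?_)
  rw [Real.norm_of_nonneg (field_pos D x σ).le]
  exact field_le D x σ

theorem integrable_spin_field (μ : Measure (V → Bool)) [IsFiniteMeasure μ] (D : Finset V)
    (v : V) (x : V → ℝ) : Integrable (fun σ => spin (σ v) * field D x σ) μ := by
  refine Integrable.of_bound
    ((measurable_spin_eval v).mul (measurable_field D x)).aestronglyMeasurable
    (Real.exp (∑ u ∈ D, |x u|)) (Filter.Eventually.of_forall fun σ => ?_)
  rw [norm_mul, Real.norm_eq_abs, abs_spin, one_mul, Real.norm_of_nonneg (field_pos D x σ).le]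
  exact field_le D x σ

theorem integral_field_pos (μ : Measure (V → Bool)) [IsProbabilityMeasure μ] (D : Finset V)
    (x : V → ℝ) : 0 < ∫ σ, field D x σ ∂μ :=
  integral_exp_pos (integrable_field μ D x)

theorem abs_mag_le_one (μ : Measure (V → Bool)) [IsProbabilityMeasure μ] (D : Finset V) (v : V)
    (x : V → ℝ) : |mag μ D v x| ≤ 1 := by
  unfold mag
  rw [abs_div, div_le_one (abs_pos.mpr (integral_field_pos μ D x).ne'),
    abs_of_pos (integral_field_pos μ D x)]
  refine (abs_integral_le_integral_abs).trans (integral_mono (integrable_spin_field μ D v x).abs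
    (integrable_field μ D x) fun σ => ?_)
  show |spin (σ v) * field D x σ| ≤ field D x σ
  rw [abs_mul, abs_spin, one_mul, abs_of_pos (field_pos D x σ)]

theorem measurable_mag (μ : Measure (V → Bool)) [IsFiniteMeasure μ] (D : Finset V) (v : V) :
    Measurable (mag μ D v) := by
  unfold mag
  have h1 : Measurable fun p : (V → ℝ) × (V → Bool) => spin (p.2 v) * field D p.1 p.2 :=
    (measurable_spin.comp ((measurable_pi_apply v).comp measurable_snd)).mul
      (measurable_field_uncurry D)
  have h2 := measurable_field_uncurry D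
  exact (h1.stronglyMeasurable.integral_prod_right (ν := μ)).measurable.div
    (h2.stronglyMeasurable.integral_prod_right (ν := μ)).measurable

theorem field_congr {D : Finset V} {x y : V → ℝ} (h : ∀ u ∈ D, x u = y u) (σ : V → Bool) :
    field D x σ = field D y σ := by
  unfold field
  congr 1
  exact Finset.sum_congr rfl fun u hu => by rw [h u hu]

theorem mag_congr (μ : Measure (V → Bool)) {D : Finset V} (v : V) {x y : V → ℝ}
    (h : ∀ u ∈ D, x u = y u) : mag μ D v x = mag μ D v y := by
  unfold mag
  simp_rw [field_congr h]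

end

section Process

variable {V E : Type*} [MeasurableSpace E] {μ : Measure (V → Bool)} {ρ : Measure E}
  {w : ℕ → ℕ → E → ℝ}

theorem isProbabilityMeasure_PP [IsProbabilityMeasure μ] [IsProbabilityMeasure ρ] :
    IsProbabilityMeasure (PP μ ρ) := by
  unfold PP; infer_instance

theorem measurable_X (hw : ∀ j k, Measurable (w j k)) (v : V) (j k : ℕ) :
    Measurable (X w v j k : Om V E → ℝ) := by
  unfold X
  exact ((measurable_spin.comp ((measurable_pi_apply v).comp measurable_fst)).const_mul _).add
    ((hw j k).comp ((measurable_pi_apply v).comp measurable_snd))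

theorem X_zero (hw : IsDyadicBM ρ w) (v : V) (j : ℕ) (ω : Om V E) : X w v j 0 ω = 0 := by
  unfold X
  rw [hw.zero]
  simp

theorem X_cons (hw : IsDyadicBM ρ w) (v : V) (j k : ℕ) (ω : Om V E) :
    X w v (j + 1) (2 * k) ω = X w v j k ω := by
  unfold X
  rw [hw.cons]
  congr 1
  congr 1
  push_cast
  rw [pow_succ]
  ring

theorem w_cons_pow (hw : IsDyadicBM ρ w) (j k i : ℕ) (e : E) :
    w (j + i) (k * 2 ^ i) e = w j k e := by
  induction i with
  | zero => simp
  | succ i ih =>
    have : k * 2 ^ (i + 1) = 2 * (k * 2 ^ i) := by ring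
    rw [this, ← add_assoc, hw.cons, ih]

theorem X_cons_pow (hw : IsDyadicBM ρ w) (v : V) (j k i : ℕ) (ω : Om V E) :
    X w v (j + i) (k * 2 ^ i) ω = X w v j k ω := by
  induction i with
  | zero => simp
  | succ i ih =>
    have : k * 2 ^ (i + 1) = 2 * (k * 2 ^ i) := by ring
    rw [this, ← add_assoc, X_cons hw, ih]

theorem measurable_M [IsFiniteMeasure μ] (hw : ∀ j k, Measurable (w j k)) (D : Finset V) (v : V)
    (j k : ℕ) : Measurable (M μ w D v j k : Om V E → ℝ) := by
  unfold M
  exact (measurable_mag μ D v).comp (measurable_pi_lambda _ fun u => measurable_X hw u j k)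

omit [MeasurableSpace E] in
theorem abs_M_le_one [IsProbabilityMeasure μ] (D : Finset V) (v : V) (j k : ℕ) (ω : Om V E) :
    |M μ w D v j k ω| ≤ 1 := abs_mag_le_one μ D v _

theorem M_cons (hw : IsDyadicBM ρ w) (D : Finset V) (v : V) (j k : ℕ) (ω : Om V E) :
    M μ w D v (j + 1) (2 * k) ω = M μ w D v j k ω := by
  unfold M
  exact mag_congr μ v fun u _ => X_cons hw u j k ω

theorem M_cons_pow (hw : IsDyadicBM ρ w) (D : Finset V) (v : V) (j k i : ℕ) (ω : Om V E) :
    M μ w D v (j + i) (k * 2 ^ i) ω = M μ w D v j k ω := by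
  unfold M
  exact mag_congr μ v fun u _ => X_cons_pow hw u j k i ω

/-- `w j k` is the sum of its increments -/
theorem w_eq_sum (hw : IsDyadicBM ρ w) (j k : ℕ) (e : E) :
    w j k e = ∑ l : Fin k, (w j (l + 1) e - w j l e) := by
  rw [Fin.sum_univ_eq_sum_range (fun l => w j (l + 1) e - w j l e) k,
    Finset.sum_range_sub (fun l => w j l e), hw.zero, sub_zero]

theorem measurable_incr (hw : IsDyadicBM ρ w) (j n : ℕ) :
    Measurable fun e (k : Fin n) => w j (k + 1) e - w j k e :=
  measurable_pi_lambda _ fun k => (hw.meas j (k + 1)).sub (hw.meas j k)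

theorem memLp_w (hw : IsDyadicBM ρ w) (j k : ℕ) : MemLp (w j k) 2 ρ := by
  have h := hw.law j k
  have h1 : MemLp (fun δ : Fin k → ℝ => ∑ l, δ l) 2
      (Measure.pi fun _ => gaussianReal 0 ((1 / 2) ^ j)) := by
    refine memLp_finsetSum (f := fun (l : Fin k) (δ : Fin k → ℝ) => δ l) _ fun l _ => ?_
    exact (memLp_id_gaussianReal 2).comp_measurePreserving
      (measurePreserving_eval (fun _ : Fin k => gaussianReal 0 ((1 / 2) ^ j)) l)
  rw [← h] at h1
  have h2 := h1.comp_measurePreserving
    ((measurable_incr hw j k).measurePreserving ρ)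
  refine (memLp_congr_ae (Filter.Eventually.of_forall fun e => ?_)).mp h2
  exact (w_eq_sum hw j k e).symm

theorem integral_w_sq (hw : IsDyadicBM ρ w) (j k : ℕ) :
    ∫ e, (w j k e) ^ 2 ∂ρ = k * (1 / 2) ^ j := by
  have h := hw.law j k
  have h0 : ∫ e, (w j k e) ^ 2 ∂ρ = ∫ δ : Fin k → ℝ, (∑ l, δ l) ^ 2
      ∂(Measure.pi fun _ => gaussianReal 0 ((1 / 2) ^ j)) := by
    rw [← h, integral_map (measurable_incr hw j k).aemeasurable
      ((Finset.measurable_sum _ fun l _ => measurable_pi_apply l).pow_const 2).aestronglyMeasurable]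
    exact integral_congr_ae (Filter.Eventually.of_forall fun e => by
      show (w j k e) ^ 2 = (∑ l : Fin k, (w j (l + 1) e - w j l e)) ^ 2
      rw [← w_eq_sum hw j k e])
  rw [h0]
  have hm : ∀ l : Fin k, MemLp (id : ℝ → ℝ) 2 (gaussianReal 0 ((1 / 2) ^ j)) := fun _ =>
    memLp_id_gaussianReal 2
  have h1 := variance_sum_pi (μ := fun _ : Fin k => gaussianReal 0 ((1 / 2) ^ j))
    (X := fun _ => id) hm
  have h2 : (∑ i : Fin k, fun ω : Fin k → ℝ => id (ω i)) = fun ω => ∑ i, ω i := by
    ext ω
    rw [Finset.sum_apply]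
    rfl
  rw [h2] at h1
  have h3 : ∫ ω : Fin k → ℝ, ∑ i, ω i ∂(Measure.pi fun _ => gaussianReal 0 ((1 / 2) ^ j)) = 0 := by
    rw [integral_finsetSum]
    · refine Finset.sum_eq_zero fun i _ => ?_
      have h4 := (measurePreserving_eval (fun _ : Fin k => gaussianReal 0 ((1 / 2) ^ j)) i)
      have h5 := integral_map (μ := Measure.pi fun _ : Fin k => gaussianReal 0 ((1 / 2) ^ j))
        (φ := Function.eval i) (measurable_pi_apply i).aemeasurable
        (f := fun x : ℝ => x) measurable_id.aestronglyMeasurable
      rw [h4.map_eq, integral_id_gaussianReal] at h5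
      exact h5.symm
    · intro i _
      exact ((memLp_id_gaussianReal 2).comp_measurePreserving
        (measurePreserving_eval (fun _ : Fin k => gaussianReal 0 ((1 / 2) ^ j)) i)).integrable
        (by norm_num)
  rw [variance_of_integral_eq_zero
    (Finset.measurable_sum _ fun l _ => measurable_pi_apply l).aemeasurable h3] at h1
  rw [h1]
  simp only [variance_id_gaussianReal]
  simp

end Process

end P161
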