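import Vale.Agent.P161.Basic

/-!
# P161, module Bayes : the posterior mean is `mag` (Gaussian shift)
-/

namespace P161

open MeasureTheory ProbabilityTheory
open scoped ENNReal NNReal

section General

/-- a product of densities is the density of the product -/
theorem pi_withDensity_ofReal {ι : Type*} [Fintype ι] {Y : ι → Type*} [∀ i, MeasurableSpace (Y i)]
    (ν : ∀ i, Measure (Y i)) [∀ i, IsProbabilityMeasure (ν i)] (f : ∀ i, Y i → ℝ)
    (h0 : ∀ i y, 0 ≤ f i y) (hi : ∀ i, Integrable (f i) (ν i)) :
    Measure.pi (fun i => (ν i).withDensity fun y => ENNReal.ofReal (f i y)) =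
      (Measure.pi ν).withDensity fun y => ENNReal.ofReal (∏ i, f i (y i)) := by
  classical
  have hfin : ∀ i, IsFiniteMeasure ((ν i).withDensity fun y => ENNReal.ofReal (f i y)) := by
    intro i
    refine isFiniteMeasure_withDensity_ofReal ?_
    exact (hi i).2
  refine Measure.pi_eq fun s hs => ?_
  have hms : MeasurableSet (Set.univ.pi s) := MeasurableSet.univ_pi hs
  rw [withDensity_apply _ hms]
  have hval : ∀ i, ((ν i).withDensity fun y => ENNReal.ofReal (f i y)) (s i) =
      ENNReal.ofReal (∫ y, (s i).indicator (f i) y ∂(ν i)) := by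
    intro i
    rw [withDensity_apply _ (hs i), integral_indicator (hs i),
      ofReal_integral_eq_lintegral_ofReal (hi i).integrableOn
        (Filter.Eventually.of_forall fun y => h0 i y)]
  simp_rw [hval]
  rw [← ENNReal.ofReal_prod_of_nonneg (fun i _ => integral_nonneg fun y =>
      Set.indicator_nonneg (fun y _ => h0 i y) y)]
  rw [← integral_fintype_prod_eq_prod (fun i => (s i).indicator (f i))]
  have hint : Integrable (fun y : ∀ i, Y i => ∏ i, (s i).indicator (f i) (y i)) (Measure.pi ν) :=
    Integrable.fintype_prod_dep fun i => (hi i).indicator (hs i)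
  rw [ofReal_integral_eq_lintegral_ofReal hint (Filter.Eventually.of_forall fun y =>
    Finset.prod_nonneg fun i _ => Set.indicator_nonneg (fun y _ => h0 i y) _)]
  rw [← lintegral_indicator hms]
  refine lintegral_congr fun y => ?_
  by_cases hy : y ∈ Set.univ.pi s
  · rw [Set.indicator_of_mem hy]
    congr 1
    refine Finset.prod_congr rfl fun i _ => ?_
    rw [Set.indicator_of_mem (hy i (Set.mem_univ i))]
  · rw [Set.indicator_of_notMem hy]
    have : ∃ i, y i ∉ s i := by
      by_contra hcon
      push Not at hcon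
      exact hy fun i _ => hcon i
    obtain ⟨i, hi'⟩ := this
    rw [Finset.prod_eq_zero (Finset.mem_univ i) (Set.indicator_of_notMem hi' _),
      ENNReal.ofReal_zero]

/-- Gaussian shift in one dimension -/
theorem gaussianReal_shift (η : ℝ) {v : ℝ≥0} (hv : v ≠ 0) :
    gaussianReal (v * η) v = (gaussianReal 0 v).withDensity
      fun y => ENNReal.ofReal (Real.exp (η * y - v * η ^ 2 / 2)) := by
  rw [gaussianReal_of_var_ne_zero _ hv, gaussianReal_of_var_ne_zero _ hv]
  rw [← withDensity_mul _ (measurable_gaussianPDF 0 v) (by fun_prop)]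
  congr 1
  ext y
  simp only [Pi.mul_apply, gaussianPDF]
  rw [← ENNReal.ofReal_mul (gaussianPDFReal_nonneg _ _ _)]
  congr 1
  unfold gaussianPDFReal
  have hv' : (v : ℝ) ≠ 0 := by exact_mod_cast hv
  have h1 : -(y - v * η) ^ 2 / (2 * v) = -(y - 0) ^ 2 / (2 * v) + (η * y - v * η ^ 2 / 2) := by
    field_simp
    ring
  rw [h1, Real.exp_add]
  ring

/-- integrability of the one-dimensional densities -/
theorem integrable_shift (η : ℝ) (v : ℝ≥0) (c : ℝ) :
    Integrable (fun y => Real.exp (η * y - c)) (gaussianReal 0 v) := by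
  have h := (integrable_exp_mul_gaussianReal (μ := 0) (v := v) η).mul_const (Real.exp (-c))
  refine h.congr (Filter.Eventually.of_forall fun y => ?_)
  show Real.exp (η * y) * Real.exp (-c) = Real.exp (η * y - c)
  rw [← Real.exp_add, sub_eq_add_neg]

theorem prod_exp_shift {k : ℕ} (η c : ℝ) (δ : Fin k → ℝ) :
    ∏ i, Real.exp (η * δ i - c) = Real.exp (η * (∑ i, δ i) - k * c) := by
  rw [← Real.exp_sum]
  congr 1
  rw [Finset.sum_sub_distrib, Finset.mul_sum]
  simp

theorem pi_gaussianReal_shift (η : ℝ) {v : ℝ≥0} (hv : v ≠ 0) (k : ℕ) :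
    (Measure.pi fun _ : Fin k => gaussianReal (v * η) v) =
      (Measure.pi fun _ : Fin k => gaussianReal 0 v).withDensity
        fun δ => ENNReal.ofReal (Real.exp (η * (∑ i, δ i) - k * (v * η ^ 2 / 2))) := by
  have h := pi_withDensity_ofReal (fun _ : Fin k => gaussianReal 0 v)
    (fun _ y => Real.exp (η * y - v * η ^ 2 / 2))
    (fun _ _ => (Real.exp_pos _).le) (fun _ => integrable_shift η v _)
  simp_rw [← gaussianReal_shift η hv] at h
  rw [h]
  simp_rw [prod_exp_shift]

theorem integrable_pi_shift (η : ℝ) (v : ℝ≥0) (c : ℝ) (k : ℕ) :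
    Integrable (fun δ : Fin k → ℝ => Real.exp (η * (∑ i, δ i) - k * c))
      (Measure.pi fun _ : Fin k => gaussianReal 0 v) := by
  have h : Integrable (fun δ : Fin k → ℝ => ∏ i, Real.exp (η * δ i - c))
      (Measure.pi fun _ : Fin k => gaussianReal 0 v) :=
    Integrable.fintype_prod_dep fun _ => integrable_shift η v c
  simp_rw [prod_exp_shift] at h
  exact h

end General

section Bayes

variable {V E : Type*} [MeasurableSpace E]

/-- the end point of the path with increments `δ` -/
noncomputable def endp (D : Finset V) (k : ℕ) (δ : D → Fin k → ℝ) (u : V) : ℝ :=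
  open Classical in if h : u ∈ D then ∑ i, δ ⟨u, h⟩ i else 0

/-- the path with increments `δ` -/
noncomputable def path (D : Finset V) (k : ℕ) (δ : D → Fin k → ℝ) (u : D) (l : Fin (k + 1)) : ℝ :=
  ∑ i : Fin k, if (i : ℕ) < l then δ u i else 0

theorem measurable_endp (D : Finset V) (k : ℕ) : Measurable (endp D k) := by
  refine measurable_pi_lambda _ fun u => ?_
  by_cases h : u ∈ D
  · simp only [endp, h, dite_true]
    fun_prop
  · simp only [endp, h, dite_false]
    fun_prop

theorem measurable_path (D : Finset V) (k : ℕ) : Measurable (path D k) := by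
  refine measurable_pi_lambda _ fun u => measurable_pi_lambda _ fun l => ?_
  unfold path
  refine Finset.measurable_sum _ fun i _ => ?_
  by_cases h : (i : ℕ) < l
  · simp only [h, if_true]
    fun_prop
  · simp only [h, if_false]
    fun_prop

/-- the likelihood of the increments `δ` given the spins -/
noncomputable def lik (D : Finset V) (k : ℕ) (v : ℝ≥0) (σ : V → Bool) (δ : D → Fin k → ℝ) : ℝ :=
  ∏ u : D, Real.exp (spin (σ u) * (∑ i, δ u i) - k * (v / 2))

theorem lik_eq (D : Finset V) (k : ℕ) (v : ℝ≥0) (σ : V → Bool) (δ : D → Fin k → ℝ) :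
    lik D k v σ δ = Real.exp (-(D.card * (k * (v / 2)))) * field D (endp D k δ) σ := by
  unfold lik field
  rw [← Real.exp_sum, ← Real.exp_add]
  congr 1
  rw [Finset.sum_sub_distrib, ← Finset.sum_coe_sort D]
  simp only [Finset.sum_const, Finset.card_univ, Fintype.card_coe, nsmul_eq_mul]
  rw [sub_eq_neg_add]
  congr 1
  refine Finset.sum_congr rfl fun u _ => ?_
  unfold endp
  rw [dif_pos u.2]
  ring

theorem lik_pos (D : Finset V) (k : ℕ) (v : ℝ≥0) (σ : V → Bool) (δ : D → Fin k → ℝ) :
    0 < lik D k v σ δ := Finset.prod_pos fun _ _ => Real.exp_pos _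

theorem integrable_lik (D : Finset V) (k : ℕ) (v : ℝ≥0) (σ : V → Bool) :
    Integrable (lik D k v σ)
      (Measure.pi fun _ : D => Measure.pi fun _ : Fin k => gaussianReal 0 v) := by
  have h : Integrable (fun δ : D → Fin k → ℝ =>
      ∏ u : D, (fun x : Fin k → ℝ => Real.exp (spin (σ u) * (∑ i, x i) - k * (v / 2))) (δ u))
      (Measure.pi fun _ : D => Measure.pi fun _ : Fin k => gaussianReal 0 v) :=
    Integrable.fintype_prod_dep
      (f := fun (u : D) (x : Fin k → ℝ) => Real.exp (spin (σ u) * (∑ i, x i) - k * (v / 2)))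
      fun u => integrable_pi_shift (spin (σ u)) v (v / 2) k
  exact h

theorem measurable_lik_uncurry (D : Finset V) (k : ℕ) (v : ℝ≥0) :
    Measurable fun p : (V → Bool) × (D → Fin k → ℝ) => lik D k v p.1 p.2 := by
  simp_rw [lik_eq]
  refine measurable_const.mul ((measurable_field_uncurry D).comp
    (((measurable_endp D k).comp measurable_snd).prodMk measurable_fst))

variable {μ : Measure (V → Bool)} [IsProbabilityMeasure μ] {ρ : Measure E} {w : ℕ → ℕ → E → ℝ}

/-- the increments of `X` in the directions of `D` -/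
noncomputable def incX (w : ℕ → ℕ → E → ℝ) (D : Finset V) (j k : ℕ) (σ : V → Bool) (N : V → E)
    (u : D) (i : Fin k) : ℝ :=
  ((1 / 2 : ℝ≥0) ^ j : ℝ≥0) * spin (σ u) + (w j (i + 1) (N u) - w j i (N u))

theorem path_incX (hw : IsDyadicBM ρ w) (D : Finset V) (j k : ℕ) (σ : V → Bool) (N : V → E)
    (u : D) (l : Fin (k + 1)) : path D k (incX w D j k σ N) u l = X w u.1 j l (σ, N) := by
  unfold path incX X
  have h1 := Fin.sum_univ_eq_sum_range (fun i => if i < (l : ℕ) then
    ((1 / 2 : ℝ≥0) ^ j : ℝ≥0) * spin (σ u) + (w j (i + 1) (N u) - w j i (N u)) else 0) k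
  rw [h1, ← Finset.sum_filter]
  have h2 : (Finset.range k).filter (fun i => i < (l : ℕ)) = Finset.range l := by
    ext i
    simp only [Finset.mem_filter, Finset.mem_range]
    have := l.2
    omega
  rw [h2, Finset.sum_add_distrib, Finset.sum_range_sub (fun i => w j i (N u)), hw.zero]
  simp only [Finset.sum_const, Finset.card_range, nsmul_eq_mul, sub_zero]
  push_cast
  ring

theorem endp_incX (hw : IsDyadicBM ρ w) (D : Finset V) (j k : ℕ) (σ : V → Bool) (N : V → E)
    {u : V} (hu : u ∈ D) : endp D k (incX w D j k σ N) u = X w u j k (σ, N) := by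
  have h := path_incX hw D j k σ N ⟨u, hu⟩ (Fin.last k)
  unfold endp
  rw [dif_pos hu]
  rw [Fin.val_last] at h
  rw [← h]
  unfold path
  refine Finset.sum_congr rfl fun i _ => ?_
  rw [if_pos]
  exact i.2

theorem measurable_incX (hw : ∀ j k, Measurable (w j k)) (D : Finset V) (j k : ℕ)
    (σ : V → Bool) : Measurable (incX w D j k σ) := by
  refine measurable_pi_lambda _ fun u => measurable_pi_lambda _ fun i => ?_
  unfold incX
  exact measurable_const.add (((hw j (i + 1)).comp (measurable_pi_apply u.1)).sub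
    ((hw j i).comp (measurable_pi_apply u.1)))

theorem map_incX (hw : IsDyadicBM ρ w) (D : Finset V) (j k : ℕ) (σ : V → Bool) :
    (Measure.infinitePi fun _ : V => ρ).map (incX w D j k σ) =
      (Measure.pi fun _ : D => Measure.pi fun _ : Fin k =>
        gaussianReal 0 ((1 / 2) ^ j)).withDensity
        fun δ => ENNReal.ofReal (lik D k ((1 / 2) ^ j) σ δ) := by
  have := hw.prob
  have hv : ((1 / 2 : ℝ≥0) ^ j) ≠ 0 := by positivity
  set v : ℝ≥0 := (1 / 2) ^ j with hvdef
  have hf : ∀ u : D, Measurable fun e (i : Fin k) =>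
      (v : ℝ) * spin (σ u) + (w j (i + 1) e - w j i e) := fun u =>
    measurable_pi_lambda _ fun i => measurable_const.add ((hw.meas _ _).sub (hw.meas _ _))
  have h1 : incX w D j k σ = (fun (x : D → E) (u : D) (i : Fin k) =>
      (v : ℝ) * spin (σ u) + (w j (i + 1) (x u) - w j i (x u))) ∘ D.restrict := by
    ext N u i
    rfl
  have hone : ∀ u : D, ρ.map (fun e (i : Fin k) =>
      (v : ℝ) * spin (σ u) + (w j (i + 1) e - w j i e)) =
      (Measure.pi fun _ : Fin k => gaussianReal 0 v).withDensity fun δ =>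
        ENNReal.ofReal (Real.exp (spin (σ u) * (∑ i, δ i) - k * (v / 2))) := by
    intro u
    have h2 : (fun e (i : Fin k) => (v : ℝ) * spin (σ u) + (w j (i + 1) e - w j i e)) =
        (fun (x : Fin k → ℝ) (i : Fin k) => (v : ℝ) * spin (σ u) + x i) ∘
          (fun e (i : Fin k) => w j (i + 1) e - w j i e) := rfl
    rw [h2, ← Measure.map_map (by fun_prop) (measurable_incr hw j k), hw.law j k]
    rw [Measure.pi_map_pi (f := fun _ x => (v : ℝ) * spin (σ u) + x)
      (fun i => by fun_prop)]
    simp_rw [gaussianReal_map_const_add, zero_add]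
    rw [pi_gaussianReal_shift _ hv]
    congr 1
    ext δ
    congr 3
    rw [sq, spin_sq]
    ring
  rw [h1, ← Measure.map_map]
  · have hres := Measure.infinitePi_map_restrict (μ := fun _ : V => ρ) (I := D)
    have hpr : ∀ u : D, IsProbabilityMeasure (ρ.map (fun e (i : Fin k) =>
        (v : ℝ) * spin (σ u) + (w j (i + 1) e - w j i e))) := fun u =>
      Measure.isProbabilityMeasure_map (hf u).aemeasurable
    have hpm := Measure.pi_map_pi (μ := fun _ : D => ρ) (f := fun (u : D) e (i : Fin k) =>
      (v : ℝ) * spin (σ u) + (w j (i + 1) e - w j i e)) (fun u => (hf u).aemeasurable)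
    rw [hres, hpm]
    simp_rw [hone]
    have hpd := pi_withDensity_ofReal (fun _ : D => Measure.pi fun _ : Fin k => gaussianReal 0 v)
      (fun (u : D) (δ : Fin k → ℝ) => Real.exp (spin (σ u) * (∑ i, δ i) - k * (v / 2)))
      (fun u x => (Real.exp_pos _).le) (fun u => integrable_pi_shift _ _ _ _)
    rw [hpd]
    rfl
  · exact measurable_pi_lambda _ fun u => (hf u).comp (measurable_pi_apply u)
  · exact Finset.measurable_restrict D

theorem integral_center (D : Finset V) (v : V) (x : V → ℝ) :
    ∫ σ, (spin (σ v) - mag μ D v x) * field D x σ ∂μ = 0 := by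
  have h : ∀ σ, (spin (σ v) - mag μ D v x) * field D x σ =
      spin (σ v) * field D x σ - mag μ D v x * field D x σ := fun σ => by ring
  simp_rw [h]
  rw [integral_sub (integrable_spin_field μ D v x) ((integrable_field μ D x).const_mul _),
    integral_const_mul]
  unfold mag
  rw [div_mul_cancel₀ _ (integral_field_pos μ D x).ne', sub_self]

theorem bayes (hw : IsDyadicBM ρ w) (D : Finset V) {v : V} (_hv : v ∈ D) (j k : ℕ)
    (g : (D → Fin (k + 1) → ℝ) → ℝ) (hg : Measurable g) {C : ℝ} (hC : ∀ x, |g x| ≤ C) :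
    ∫ ω : Om V E, g (fun (u : D) (l : Fin (k + 1)) => X w u.1 j l ω) *
      (spin (ω.1 v) - M μ w D v j k ω) ∂(PP μ ρ) = 0 := by
  classical
  have := hw.prob
  set s : ℝ≥0 := (1 / 2) ^ j with hs
  set Γ : Measure (D → Fin k → ℝ) := Measure.pi fun _ : D => Measure.pi fun _ : Fin k =>
    gaussianReal 0 s with hΓ
  set H : (V → Bool) → (D → Fin k → ℝ) → ℝ := fun σ δ =>
    g (path D k δ) * (spin (σ v) - mag μ D v (endp D k δ)) with hH
  have hHm : Measurable fun p : (V → Bool) × (D → Fin k → ℝ) => H p.1 p.2 := by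
    refine (hg.comp ((measurable_path D k).comp measurable_snd)).mul
      ((measurable_spin.comp ((measurable_pi_apply v).comp measurable_fst)).sub
      ((measurable_mag μ D v).comp ((measurable_endp D k).comp measurable_snd)))
  have hC0 : 0 ≤ C := (abs_nonneg _).trans (hC fun _ _ => 0)
  have hb : ∀ (σ : V → Bool) (x : V → ℝ), |spin (σ v) - mag μ D v x| ≤ 2 := by
    intro σ x
    have h1 := abs_spin (σ v)
    have h2 := abs_mag_le_one μ D v x
    calc |spin (σ v) - mag μ D v x| ≤ |spin (σ v)| + |mag μ D v x| := abs_sub _ _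
      _ ≤ 2 := by rw [h1]; linarith
  have hHb : ∀ σ δ, |H σ δ| ≤ C * 2 := by
    intro σ δ
    rw [hH]
    simp only
    rw [abs_mul]
    exact mul_le_mul (hC _) (hb _ _) (abs_nonneg _) hC0
  -- step 1 : Fubini
  have hF : ∀ ω : Om V E, g (fun (u : D) (l : Fin (k + 1)) => X w u.1 j l ω) *
      (spin (ω.1 v) - M μ w D v j k ω) = H ω.1 (incX w D j k ω.1 ω.2) := by
    intro ω
    rw [hH]
    simp only
    congr 1
    · congr 1
      ext u l
      exact (path_incX hw D j k ω.1 ω.2 u l).symm
    · congr 1
      unfold M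
      exact mag_congr μ v fun u hu => (endp_incX hw D j k ω.1 ω.2 hu).symm
  simp_rw [hF]
  have hincm : Measurable fun ω : Om V E => incX w D j k ω.1 ω.2 := by
    refine measurable_pi_lambda _ fun u => measurable_pi_lambda _ fun i => ?_
    unfold incX
    exact (measurable_const.mul (measurable_spin.comp
      ((measurable_pi_apply u.1).comp measurable_fst))).add
      (((hw.meas j (i + 1)).comp ((measurable_pi_apply u.1).comp measurable_snd)).sub
      ((hw.meas j i).comp ((measurable_pi_apply u.1).comp measurable_snd)))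
  have hint1 : Integrable (fun ω : Om V E => H ω.1 (incX w D j k ω.1 ω.2))
      (μ.prod (Measure.infinitePi fun _ => ρ)) := by
    refine Integrable.of_bound (hHm.comp (measurable_fst.prodMk hincm)).aestronglyMeasurable
      (C * 2) (Filter.Eventually.of_forall fun ω => ?_)
    rw [Real.norm_eq_abs]
    exact hHb _ _
  unfold PP
  rw [integral_prod _ hint1]
  -- step 2 : Gaussian shift
  have h2 : ∀ σ : V → Bool, ∫ N, H σ (incX w D j k σ N) ∂(Measure.infinitePi fun _ : V => ρ) =
      ∫ δ, lik D k s σ δ * H σ δ ∂Γ := by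
    intro σ
    have hHσ : Measurable (H σ) := hHm.comp (measurable_const.prodMk measurable_id)
    rw [← integral_map (μ := Measure.infinitePi fun _ : V => ρ) (φ := incX w D j k σ) (f := H σ)
      (measurable_incX hw.meas D j k σ).aemeasurable hHσ.aestronglyMeasurable]
    rw [map_incX hw D j k σ]
    rw [integral_withDensity_eq_integral_toReal_smul]
    · refine integral_congr_ae (Filter.Eventually.of_forall fun δ => ?_)
      show (ENNReal.ofReal (lik D k s σ δ)).toReal • H σ δ = lik D k s σ δ * H σ δ
      rw [ENNReal.toReal_ofReal (lik_pos D k s σ δ).le, smul_eq_mul]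
    · exact ((measurable_lik_uncurry D k s).comp
        (measurable_const.prodMk measurable_id)).ennreal_ofReal
    · exact Filter.Eventually.of_forall fun δ => ENNReal.ofReal_lt_top
  simp_rw [h2]
  -- step 3 : exchange
  have hdom : Integrable (fun p : (V → Bool) × (D → Fin k → ℝ) => lik D k s p.1 p.2 * H p.1 p.2)
      (μ.prod Γ) := by
    have hR : Integrable (fun δ : D → Fin k → ℝ => ∑ η : D → Bool,
        (∏ u : D, Real.exp (spin (η u) * (∑ i, δ u i) - k * (s / 2)))) Γ := by
      refine integrable_finsetSum _ fun η _ => ?_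
      exact Integrable.fintype_prod_dep
        (f := fun (u : D) (x : Fin k → ℝ) => Real.exp (spin (η u) * (∑ i, x i) - k * (s / 2)))
        fun u => integrable_pi_shift (spin (η u)) s (s / 2) k
    have hR2 : Integrable (fun p : (V → Bool) × (D → Fin k → ℝ) => ∑ η : D → Bool,
        (∏ u : D, Real.exp (spin (η u) * (∑ i, p.2 u i) - k * (s / 2)))) (μ.prod Γ) :=
      hR.comp_snd μ
    refine (hR2.mul_const (C * 2)).mono
      ((measurable_lik_uncurry D k s).mul hHm).aestronglyMeasurable
      (Filter.Eventually.of_forall fun p => ?_)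
    have hle : lik D k s p.1 p.2 ≤ ∑ η : D → Bool,
        (∏ u : D, Real.exp (spin (η u) * (∑ i, p.2 u i) - k * (s / 2))) :=
      Finset.single_le_sum (f := fun η : D → Bool =>
        ∏ u : D, Real.exp (spin (η u) * (∑ i, p.2 u i) - k * (s / 2)))
        (fun η _ => Finset.prod_nonneg fun u _ => (Real.exp_pos _).le)
        (Finset.mem_univ (fun u : D => p.1 u))
    have hpos := lik_pos D k s p.1 p.2
    calc ‖lik D k s p.1 p.2 * H p.1 p.2‖ = lik D k s p.1 p.2 * |H p.1 p.2| := by
          rw [Real.norm_eq_abs, abs_mul, abs_of_pos hpos]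
      _ ≤ (∑ η : D → Bool,
        (∏ u : D, Real.exp (spin (η u) * (∑ i, p.2 u i) - k * (s / 2)))) * (C * 2) :=
          mul_le_mul hle (hHb _ _) (abs_nonneg _) (hpos.le.trans hle)
      _ ≤ _ := le_abs_self _
  rw [integral_integral_swap hdom]
  refine integral_eq_zero_of_ae (Filter.Eventually.of_forall fun δ => ?_)
  have h3 : ∀ σ, lik D k s σ δ * H σ δ = (Real.exp (-(D.card * (k * (s / 2)))) *
      g (path D k δ)) * ((spin (σ v) - mag μ D v (endp D k δ)) * field D (endp D k δ) σ) := by
    intro σ
    rw [lik_eq, hH]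
    simp only
    ring
  show ∫ σ, lik D k s σ δ * H σ δ ∂μ = 0
  simp_rw [h3]
  rw [integral_const_mul, integral_center, mul_zero]

end Bayes

end P161
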