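import Vale.Agent.P161.Statement

/-!
# P161 : definitions

The planted process `X_v(t) = t τ_v + W_v(t)` at dyadic times.
-/

namespace P161

open MeasureTheory ProbabilityTheory
open scoped ENNReal

section Process

variable {V E : Type*} [MeasurableSpace E]

/-- `w j k` is the value at time `k / 2 ^ j` of a Brownian motion defined on `(E, ρ)` -/
structure IsDyadicBM (ρ : Measure E) (w : ℕ → ℕ → E → ℝ) : Prop where
  prob : IsProbabilityMeasure ρ
  meas : ∀ j k, Measurable (w j k)
  zero : ∀ j e, w j 0 e = 0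
  cons : ∀ j k e, w (j + 1) (2 * k) e = w j k e
  law : ∀ j n, ρ.map (fun e (k : Fin n) => w j (k + 1) e - w j k e) =
    Measure.pi fun _ => gaussianReal 0 ((1 / 2) ^ j)

/-- the exponential weight of the fields `x` on `D` -/
noncomputable def field (D : Finset V) (x : V → ℝ) (σ : V → Bool) : ℝ :=
  Real.exp (∑ u ∈ D, x u * spin (σ u))

/-- the magnetization at `v` under `μ` with the fields `x` on `D` -/
noncomputable def mag (μ : Measure (V → Bool)) (D : Finset V) (v : V) (x : V → ℝ) : ℝ :=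
  (∫ σ, spin (σ v) * field D x σ ∂μ) / ∫ σ, field D x σ ∂μ

/-- the sample space: spins and noises -/
abbrev Om (V E : Type*) := (V → Bool) × (V → E)

/-- the planted measure: spins with law `μ`, independent i.i.d. noises with law `ρ` -/
noncomputable def PP (μ : Measure (V → Bool)) (ρ : Measure E) : Measure (Om V E) :=
  μ.prod (Measure.infinitePi fun _ => ρ)

/-- `X_v(k / 2 ^ j) = (k / 2 ^ j) τ_v + W_v(k / 2 ^ j)` -/
noncomputable def X (w : ℕ → ℕ → E → ℝ) (v : V) (j k : ℕ) (ω : Om V E) : ℝ :=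
  k * (1 / 2) ^ j * spin (ω.1 v) + w j k (ω.2 v)

/-- the posterior mean of `τ_v` given `X_u(k / 2 ^ j)`, `u ∈ D` -/
noncomputable def M (μ : Measure (V → Bool)) (w : ℕ → ℕ → E → ℝ) (D : Finset V) (v : V)
    (j k : ℕ) (ω : Om V E) : ℝ :=
  mag μ D v fun u => X w u j k ω

/-- Euler scheme `x(k+1) = x(k) + ε m(x(k)) + b(k+1) - b(k)`, `x(0) = b(0)` -/
noncomputable def euler (m : V → (V → ℝ) → ℝ) (ε : ℝ) (b : ℕ → V → ℝ) : ℕ → V → ℝ
  | 0 => b 0
  | k + 1 => fun v => euler m ε b k v + ε * m v (euler m ε b k) + (b (k + 1) v - b k v)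

end Process

end P161
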