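import Vale.Agent.P161.Defs

/-!
# P161 : Efron-Stein inequality
-/

namespace P161

open MeasureTheory ProbabilityTheory
open scoped ENNReal

namespace ES

section Jensen

variable {α β : Type*} [MeasurableSpace α] [MeasurableSpace β] {μ : Measure α} {ν : Measure β}
  [IsProbabilityMeasure μ] [IsProbabilityMeasure ν]

theorem sq_integral_le {f : β → ℝ} (hf : MemLp f 2 ν) : (∫ b, f b ∂ν) ^ 2 ≤ ∫ b, f b ^ 2 ∂ν := by
  have h1 := variance_nonneg f ν
  rw [variance_eq_sub hf] at h1
  have h2 : ∫ b, (f ^ 2) b ∂ν = ∫ b, f b ^ 2 ∂ν := rfl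
  linarith

theorem jensen {f : α × β → ℝ} (hf : MemLp f 2 (μ.prod ν)) :
    MemLp (fun a => ∫ b, f (a, b) ∂ν) 2 μ ∧
      ∫ a, (∫ b, f (a, b) ∂ν) ^ 2 ∂μ ≤ ∫ p, f p ^ 2 ∂(μ.prod ν) := by
  have hsq : Integrable (fun p => f p ^ 2) (μ.prod ν) := hf.integrable_sq
  have hae : ∀ᵐ a ∂μ, (∫ b, f (a, b) ∂ν) ^ 2 ≤ ∫ b, f (a, b) ^ 2 ∂ν := by
    have h1 := hsq.prod_right_ae
    have h2 := hf.1.prodMk_left
    filter_upwards [h1, h2] with a h1 h2
    exact sq_integral_le ((memLp_two_iff_integrable_sq h2).2 h1)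
  have hint : Integrable (fun a => ∫ b, f (a, b) ^ 2 ∂ν) μ := hsq.integral_prod_left
  have hm : AEStronglyMeasurable (fun a => ∫ b, f (a, b) ∂ν) μ := hf.1.integral_prod_right'
  have hg : Integrable (fun a => (∫ b, f (a, b) ∂ν) ^ 2) μ := by
    refine hint.mono' (hm.pow 2) ?_
    filter_upwards [hae] with a ha
    rw [Real.norm_eq_abs, abs_of_nonneg (sq_nonneg _)]
    exact ha
  refine ⟨(memLp_two_iff_integrable_sq hm).2 hg, ?_⟩
  rw [integral_prod _ hsq]
  exact integral_mono_ae hg hint hae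

end Jensen

variable {V E : Type*}

open Classical in
/-- `N` on `B`, `N'` elsewhere -/
noncomputable def glue (B : Finset V) (N N' : V → E) : V → E :=
  fun v => if v ∈ B then N v else N' v

theorem glue_mem {B : Finset V} {v : V} (h : v ∈ B) (N N' : V → E) : glue B N N' v = N v := by
  simp [glue, h]

theorem glue_notMem {B : Finset V} {v : V} (h : v ∉ B) (N N' : V → E) :
    glue B N N' v = N' v := by
  simp [glue, h]

variable [MeasurableSpace E]

theorem measurable_glue (B : Finset V) :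
    Measurable fun p : (V → E) × (V → E) => glue B p.1 p.2 := by
  refine measurable_pi_lambda _ fun v => ?_
  by_cases h : v ∈ B
  · simp only [glue_mem h]
    fun_prop
  · simp only [glue_notMem h]
    fun_prop

variable (ρ : Measure E) [IsProbabilityMeasure ρ]

/-- the product measure -/
noncomputable abbrev P (V : Type*) (ρ : Measure E) [IsProbabilityMeasure ρ] : Measure (V → E) :=
  Measure.infinitePi fun _ : V => ρ

theorem mp_glue (B : Finset V) :
    MeasurePreserving (fun p : (V → E) × (V → E) => glue B p.1 p.2)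
      ((P V ρ).prod (P V ρ)) (P V ρ) := by
  classical
  refine ⟨measurable_glue B, Measure.eq_infinitePi _ fun s t ht => ?_⟩
  rw [Measure.map_apply (measurable_glue B)
    (MeasurableSet.pi s.countable_toSet fun i _ => ht i)]
  have h : (fun p : (V → E) × (V → E) => glue B p.1 p.2) ⁻¹' (Set.pi s t) =
      (Set.pi ((s.filter fun v => v ∈ B : Finset V) : Set V) t) ×ˢ
        (Set.pi ((s.filter fun v => v ∉ B : Finset V) : Set V) t) := by
    ext p
    simp only [Set.mem_preimage, Set.mem_pi, Set.mem_prod, Finset.coe_filter, Finset.mem_coe,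
      Set.mem_ofPred_eq]
    constructor
    · intro hp
      refine ⟨fun v hv => ?_, fun v hv => ?_⟩
      · have := hp v hv.1
        rwa [glue_mem hv.2] at this
      · have := hp v hv.1
        rwa [glue_notMem hv.2] at this
    · rintro ⟨h1, h2⟩ v hv
      by_cases hB : v ∈ B
      · rw [glue_mem hB]
        exact h1 v ⟨hv, hB⟩
      · rw [glue_notMem hB]
        exact h2 v ⟨hv, hB⟩
  rw [h, Measure.prod_prod, P, Measure.infinitePi_pi (fun _ : V => ρ) (fun i _ => ht i),
    Measure.infinitePi_pi (fun _ : V => ρ) (fun i _ => ht i),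
    Finset.prod_filter_mul_prod_filter_not]

/-- the function averaged over the coordinates outside `B` -/
noncomputable def avg (F : (V → E) → ℝ) (B : Finset V) (N : V → E) : ℝ :=
  ∫ N', F (glue B N N') ∂(P V ρ)

variable {ρ} {F : (V → E) → ℝ}

theorem memLp_comp (hF2 : MemLp F 2 (P V ρ)) (B : Finset V) :
    MemLp (fun p : (V → E) × (V → E) => F (glue B p.1 p.2)) 2 ((P V ρ).prod (P V ρ)) :=
  hF2.comp_measurePreserving (mp_glue ρ B)

theorem memLp_avg (hF2 : MemLp F 2 (P V ρ)) (B : Finset V) : MemLp (avg ρ F B) 2 (P V ρ) :=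
  (jensen (memLp_comp hF2 B)).1

omit [MeasurableSpace E] in
theorem glue_glue {B B' : Finset V} (h : B ⊆ B') (N N' N'' : V → E) :
    glue B (glue B' N N') N'' = glue B N N'' := by
  ext v
  by_cases hv : v ∈ B
  · rw [glue_mem hv, glue_mem hv, glue_mem (h hv)]
  · rw [glue_notMem hv, glue_notMem hv]

theorem avg_glue {B B' : Finset V} (h : B ⊆ B') (N N' : V → E) :
    avg ρ F B (glue B' N N') = avg ρ F B N := by
  simp only [avg, glue_glue h]

theorem inner_avg (hF2 : MemLp F 2 (P V ρ)) {B B' : Finset V} (h : B ⊆ B') :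
    ∫ N, avg ρ F B' N * avg ρ F B N ∂(P V ρ) = ∫ N, F N * avg ρ F B N ∂(P V ρ) := by
  have hint : Integrable (fun N => F N * avg ρ F B N) (P V ρ) :=
    hF2.integrable_mul (memLp_avg hF2 B)
  have h1 : ∫ N, F N * avg ρ F B N ∂(P V ρ) =
      ∫ p : (V → E) × (V → E), F (glue B' p.1 p.2) * avg ρ F B (glue B' p.1 p.2)
        ∂((P V ρ).prod (P V ρ)) := by
    conv_lhs => rw [← (mp_glue ρ B').map_eq]
    rw [integral_map (measurable_glue B').aemeasurable]
    rw [(mp_glue ρ B').map_eq]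
    exact hint.1
  have h2 : Integrable (fun p : (V → E) × (V → E) =>
      F (glue B' p.1 p.2) * avg ρ F B (glue B' p.1 p.2)) ((P V ρ).prod (P V ρ)) :=
    (mp_glue ρ B').integrable_comp_of_integrable hint
  rw [h1, integral_prod _ h2]
  refine integral_congr_ae (Filter.Eventually.of_forall fun N => ?_)
  simp only [avg_glue h]
  rw [integral_mul_const]
  rfl

theorem sq_sub (hF2 : MemLp F 2 (P V ρ)) {B B' : Finset V} (h : B ⊆ B') :
    ∫ N, (avg ρ F B' N - avg ρ F B N) ^ 2 ∂(P V ρ) =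
      ∫ N, avg ρ F B' N ^ 2 ∂(P V ρ) - ∫ N, avg ρ F B N ^ 2 ∂(P V ρ) := by
  have h1 := inner_avg hF2 h
  have h2 := inner_avg hF2 (subset_refl B)
  have i1 : Integrable (fun N => avg ρ F B' N ^ 2) (P V ρ) := (memLp_avg hF2 B').integrable_sq
  have i2 : Integrable (fun N => avg ρ F B N ^ 2) (P V ρ) := (memLp_avg hF2 B).integrable_sq
  have i3 : Integrable (fun N => avg ρ F B' N * avg ρ F B N) (P V ρ) :=
    (memLp_avg hF2 B').integrable_mul (memLp_avg hF2 B)
  have h3 : ∫ N, (avg ρ F B' N - avg ρ F B N) ^ 2 ∂(P V ρ) =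
      ∫ N, avg ρ F B' N ^ 2 ∂(P V ρ) - 2 * ∫ N, avg ρ F B' N * avg ρ F B N ∂(P V ρ) +
        ∫ N, avg ρ F B N ^ 2 ∂(P V ρ) := by
    have i4 : Integrable (fun N => avg ρ F B' N ^ 2 - 2 * (avg ρ F B' N * avg ρ F B N))
        (P V ρ) := i1.sub (i3.const_mul 2)
    rw [← integral_const_mul, ← integral_sub i1 (i3.const_mul 2), ← integral_add i4 i2]
    refine integral_congr_ae (Filter.Eventually.of_forall fun N => ?_)
    simp only
    ring
  have h4 : ∫ N, avg ρ F B N * avg ρ F B N ∂(P V ρ) = ∫ N, avg ρ F B N ^ 2 ∂(P V ρ) :=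
    integral_congr_ae (Filter.Eventually.of_forall fun N => by simp only [sq])
  rw [h3, h1, ← h2, h4]
  ring

open Classical in
theorem step (hF2 : MemLp F 2 (P V ρ)) {h : E → E → ℝ}
    (hh : MemLp (Function.uncurry h) 2 (ρ.prod ρ)) {B : Finset V} {v : V} (hv : v ∉ B)
    (hlip : ∀ N N' : V → E, (∀ u, u ≠ v → N u = N' u) → |F N - F N'| ≤ h (N v) (N' v)) :
    ∫ N, (avg ρ F (insert v B) N - avg ρ F B N) ^ 2 ∂(P V ρ) ≤
      ∫ p : E × E, (h p.1 p.2) ^ 2 ∂(ρ.prod ρ) := by
  have m1 := memLp_comp hF2 (insert v B)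
  have m2 := memLp_comp hF2 B
  have hj := (jensen (m1.sub m2)).2
  -- the averages
  have hae : ∀ᵐ N ∂(P V ρ), (avg ρ F (insert v B) N - avg ρ F B N) ^ 2 =
      (∫ N', ((fun p : (V → E) × (V → E) => F (glue (insert v B) p.1 p.2)) -
        fun p : (V → E) × (V → E) => F (glue B p.1 p.2)) (N, N') ∂(P V ρ)) ^ 2 := by
    have k1 := (m1.integrable one_le_two).prod_right_ae
    have k2 := (m2.integrable one_le_two).prod_right_ae
    filter_upwards [k1, k2] with N k1 k2
    congr 1
    simp only [Pi.sub_apply]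
    rw [integral_sub k1 k2]
    rfl
  rw [integral_congr_ae hae]
  refine hj.trans ?_
  -- the law of `(N v, N' v)`
  have hmp : MeasurePreserving (fun p : (V → E) × (V → E) => (p.1 v, p.2 v))
      ((P V ρ).prod (P V ρ)) (ρ.prod ρ) :=
    (measurePreserving_eval_infinitePi (fun _ : V => ρ) v).prod
      (measurePreserving_eval_infinitePi (fun _ : V => ρ) v)
  have hint : Integrable (fun q : E × E => (h q.1 q.2) ^ 2) (ρ.prod ρ) := hh.integrable_sq
  have hright : ∫ q : E × E, (h q.1 q.2) ^ 2 ∂(ρ.prod ρ) =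
      ∫ p : (V → E) × (V → E), (h (p.1 v) (p.2 v)) ^ 2 ∂((P V ρ).prod (P V ρ)) := by
    conv_lhs => rw [← hmp.map_eq]
    rw [integral_map hmp.measurable.aemeasurable]
    rw [hmp.map_eq]
    exact hint.1
  rw [hright]
  refine integral_mono (m1.sub m2).integrable_sq (hmp.integrable_comp_of_integrable hint) ?_
  intro p
  simp only [Pi.sub_apply]
  have h1 := hlip (glue (insert v B) p.1 p.2) (glue B p.1 p.2) (fun u hu => by
    by_cases hB : u ∈ B
    · rw [glue_mem hB, glue_mem (Finset.mem_insert_of_mem hB)]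
    · rw [glue_notMem hB, glue_notMem (by simp [hu, hB])])
  rw [glue_mem (Finset.mem_insert_self v B), glue_notMem hv] at h1
  rw [← sq_abs]
  exact pow_le_pow_left₀ (abs_nonneg _) h1 2

end ES

open Classical in
theorem efron_stein {V E : Type*} [MeasurableSpace E] (ρ : Measure E) [IsProbabilityMeasure ρ]
    (D A : Finset V) (hA : A ⊆ D) (F : (V → E) → ℝ) (hF : Measurable F)
    (hF2 : MemLp F 2 (Measure.infinitePi fun _ : V => ρ))
    (hdep : ∀ N N', (∀ v ∈ D, N v = N' v) → F N = F N') (h : V → E → E → ℝ)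
    (hh : ∀ v ∈ D \ A, MemLp (Function.uncurry (h v)) 2 (ρ.prod ρ))
    (hlip : ∀ v ∈ D \ A, ∀ N N', (∀ u, u ≠ v → N u = N' u) → |F N - F N'| ≤ h v (N v) (N' v)) :
    ∫ N, (F N - ∫ N', F (fun v => if v ∈ A then N v else N' v)
        ∂(Measure.infinitePi fun _ : V => ρ)) ^ 2 ∂(Measure.infinitePi fun _ : V => ρ) ≤
      ∑ v ∈ D \ A, ∫ p : E × E, (h v p.1 p.2) ^ 2 ∂(ρ.prod ρ) := by
  have hD : ∀ N, ES.avg ρ F D N = F N := by
    intro N
    rw [ES.avg]
    have h1 : ∀ N', F (ES.glue D N N') = F N := fun N' =>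
      hdep _ _ fun v hv => ES.glue_mem hv N N'
    simp only [h1, integral_const, probReal_univ, one_smul]
  have hAv : ∀ N, ∫ N', F (fun v => if v ∈ A then N v else N' v)
      ∂(Measure.infinitePi fun _ : V => ρ) = ES.avg ρ F A N := fun N => rfl
  have hleft : ∫ N, (F N - ∫ N', F (fun v => if v ∈ A then N v else N' v)
        ∂(Measure.infinitePi fun _ : V => ρ)) ^ 2 ∂(Measure.infinitePi fun _ : V => ρ) =
      ∫ N, (ES.avg ρ F D N - ES.avg ρ F A N) ^ 2 ∂(ES.P V ρ) := by
    refine integral_congr_ae (Filter.Eventually.of_forall fun N => ?_)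
    simp only
    rw [hAv N, hD N]
  rw [hleft, ES.sq_sub hF2 hA]
  -- induction over the vertices of `D \ A`
  have key : ∀ C : Finset V, C ⊆ D \ A →
      ∫ N, ES.avg ρ F (A ∪ C) N ^ 2 ∂(ES.P V ρ) - ∫ N, ES.avg ρ F A N ^ 2 ∂(ES.P V ρ) ≤
        ∑ v ∈ C, ∫ p : E × E, (h v p.1 p.2) ^ 2 ∂(ρ.prod ρ) := by
    intro C
    induction C using Finset.induction_on with
    | empty => intro _; simp
    | insert v C hvC ih =>
      intro hC
      have hv : v ∈ D \ A := hC (Finset.mem_insert_self v C)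
      have hC' : C ⊆ D \ A := (Finset.subset_insert v C).trans hC
      have hvA : v ∉ A := (Finset.mem_sdiff.1 hv).2
      have hvU : v ∉ A ∪ C := by simp [hvA, hvC]
      have h1 := ih hC'
      have h2 := ES.step hF2 (hh v hv) hvU (hlip v hv)
      rw [ES.sq_sub hF2 (Finset.subset_insert v (A ∪ C))] at h2
      rw [Finset.sum_insert hvC, Finset.union_insert]
      linarith
  have h1 := key (D \ A) (subset_refl _)
  rwa [Finset.union_sdiff_of_subset hA] at h1

end P161
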