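import Vale.Agent.P161.Defs

/-!
# P161 : stability of the Euler scheme
-/

namespace P161

open Finset

theorem euler_lip {V : Type*} {D : Finset V} {m : V → (V → ℝ) → ℝ} {K : V → V → ℝ}
    (hm : ∀ v ∈ D, ∀ x y, |m v x - m v y| ≤ ∑ u ∈ D, K v u * |x u - y u|) {p : V → ℝ}
    (hp : ∀ u, 0 ≤ p u) {L : ℝ} (hL : 0 ≤ L)
    (hker : ∀ u ∈ D, ∑ v ∈ D, p v * K v u ≤ L * p u) {o : V} (ho : o ∈ D)
    (hop : ∀ u ∈ D, K o u ≤ p u) {ε t : ℝ} (hε : 0 ≤ ε) (b b' : ℕ → V → ℝ) (N : ℕ)
    (hN : ε * N ≤ t) :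
    |euler m ε b N o - euler m ε b' N o| ≤ |b N o - b' N o| +
      Real.exp (L * t) * ∑ u ∈ D, p u * (ε * ∑ l ∈ Finset.range N, |b l u - b' l u|) := by
  set z : ℕ → V → ℝ := fun k v => (euler m ε b k v - b k v) - (euler m ε b' k v - b' k v) with hz
  set c : ℕ → V → ℝ := fun k v => |b k v - b' k v| with hc
  have hc0 : ∀ k v, 0 ≤ c k v := fun k v => abs_nonneg _
  have hxz : ∀ k v, |euler m ε b k v - euler m ε b' k v| ≤ |z k v| + c k v := by
    intro k v
    have h : euler m ε b k v - euler m ε b' k v = z k v + (b k v - b' k v) := by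
      simp only [hz]
      ring
    rw [h]
    exact abs_add_le _ _
  have hz0 : ∀ v, z 0 v = 0 := by
    intro v
    simp [hz, euler]
  have hzs : ∀ k v, z (k + 1) v = z k v + ε * (m v (euler m ε b k) - m v (euler m ε b' k)) := by
    intro k v
    simp only [hz, euler]
    ring
  have hmk : ∀ k, ∀ v ∈ D, |m v (euler m ε b k) - m v (euler m ε b' k)| ≤
      ∑ u ∈ D, K v u * |euler m ε b k u - euler m ε b' k u| := fun k v hv => hm v hv _ _
  set Z : ℕ → ℝ := fun k => ∑ v ∈ D, p v * |z k v| with hZ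
  set C : ℕ → ℝ := fun k => ∑ v ∈ D, p v * c k v with hC
  have hZ0 : ∀ k, 0 ≤ Z k := fun k => sum_nonneg fun v _ => mul_nonneg (hp v) (abs_nonneg _)
  have hC0 : ∀ k, 0 ≤ C k := fun k => sum_nonneg fun v _ => mul_nonneg (hp v) (hc0 k v)
  -- the weighted difference
  have hpx : ∀ k, ∑ u ∈ D, p u * |euler m ε b k u - euler m ε b' k u| ≤ Z k + C k := by
    intro k
    simp only [hZ, hC]
    rw [← sum_add_distrib]
    refine sum_le_sum fun u _ => ?_
    rw [← mul_add]
    exact mul_le_mul_of_nonneg_left (hxz k u) (hp u)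
  have hZs : ∀ k, Z (k + 1) ≤ Z k + ε * (L * (Z k + C k)) := by
    intro k
    have h1 : Z (k + 1) ≤ Z k + ε * ∑ v ∈ D, p v *
        ∑ u ∈ D, K v u * |euler m ε b k u - euler m ε b' k u| := by
      simp only [hZ]
      rw [mul_sum, ← sum_add_distrib]
      refine sum_le_sum fun v hv => ?_
      rw [hzs]
      have h2 : |z k v + ε * (m v (euler m ε b k) - m v (euler m ε b' k))| ≤
          |z k v| + ε * ∑ u ∈ D, K v u * |euler m ε b k u - euler m ε b' k u| := by
        refine (abs_add_le _ _).trans ?_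
        rw [abs_mul, abs_of_nonneg hε]
        linarith [mul_le_mul_of_nonneg_left (hmk k v hv) hε]
      have h3 := mul_le_mul_of_nonneg_left h2 (hp v)
      linarith
    have h4 : ∑ v ∈ D, p v * ∑ u ∈ D, K v u * |euler m ε b k u - euler m ε b' k u| ≤
        L * (Z k + C k) := by
      calc ∑ v ∈ D, p v * ∑ u ∈ D, K v u * |euler m ε b k u - euler m ε b' k u|
          = ∑ u ∈ D, (∑ v ∈ D, p v * K v u) * |euler m ε b k u - euler m ε b' k u| := by
            simp only [mul_sum, sum_mul]
            rw [sum_comm]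
            refine sum_congr rfl fun u _ => sum_congr rfl fun v _ => ?_
            ring
        _ ≤ ∑ u ∈ D, (L * p u) * |euler m ε b k u - euler m ε b' k u| :=
            sum_le_sum fun u hu => mul_le_mul_of_nonneg_right (hker u hu) (abs_nonneg _)
        _ = L * ∑ u ∈ D, p u * |euler m ε b k u - euler m ε b' k u| := by
            rw [mul_sum]
            refine sum_congr rfl fun u _ => ?_
            ring
        _ ≤ L * (Z k + C k) := mul_le_mul_of_nonneg_left (hpx k) hL
    have h5 := mul_le_mul_of_nonneg_left h4 hε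
    linarith
  set S : ℕ → ℝ := fun k => ε * ∑ l ∈ range k, (Z l + C l) with hS
  have hSs : ∀ k, S (k + 1) = S k + ε * (Z k + C k) := by
    intro k
    simp only [hS]
    rw [sum_range_succ]
    ring
  have hZS : ∀ k, Z k ≤ L * S k := by
    intro k
    induction k with
    | zero => simp [hZ, hS, hz0]
    | succ k ih =>
      rw [hSs]
      have := hZs k
      nlinarith
  have hzo : ∀ k, |z k o| ≤ S k := by
    intro k
    induction k with
    | zero => simp [hz0, hS]
    | succ k ih =>
      rw [hzs, hSs]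
      refine (abs_add_le _ _).trans (add_le_add ih ?_)
      rw [abs_mul, abs_of_nonneg hε]
      apply mul_le_mul_of_nonneg_left _ hε
      refine (hmk k o ho).trans (le_trans (sum_le_sum fun u hu => ?_) (hpx k))
      exact mul_le_mul_of_nonneg_right (hop u hu) (abs_nonneg _)
  have hq : 1 ≤ 1 + ε * L := by
    have := mul_nonneg hε hL
    linarith
  have hSb : ∀ k, S k ≤ (1 + ε * L) ^ k * (ε * ∑ l ∈ range k, C l) := by
    intro k
    induction k with
    | zero => simp [hS]
    | succ k ih =>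
      rw [hSs, sum_range_succ]
      have h1 : ε * Z k ≤ ε * L * S k := by
        have := mul_le_mul_of_nonneg_left (hZS k) hε
        linarith
      have h2 : S k + ε * (Z k + C k) ≤ (1 + ε * L) * S k + ε * C k := by linarith
      have h3 : (1 + ε * L) * S k ≤ (1 + ε * L) ^ (k + 1) * (ε * ∑ l ∈ range k, C l) := by
        rw [pow_succ, mul_comm ((1 + ε * L) ^ k) (1 + ε * L), mul_assoc]
        exact mul_le_mul_of_nonneg_left ih (by linarith)
      have h4 : ε * C k ≤ (1 + ε * L) ^ (k + 1) * (ε * C k) :=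
        le_mul_of_one_le_left (mul_nonneg hε (hC0 k)) (one_le_pow₀ hq)
      calc S k + ε * (Z k + C k) ≤ (1 + ε * L) * S k + ε * C k := h2
        _ ≤ (1 + ε * L) ^ (k + 1) * (ε * ∑ l ∈ range k, C l) +
            (1 + ε * L) ^ (k + 1) * (ε * C k) := add_le_add h3 h4
        _ = (1 + ε * L) ^ (k + 1) * (ε * (∑ l ∈ range k, C l + C k)) := by ring
  have hexp : (1 + ε * L) ^ N ≤ Real.exp (L * t) := by
    have h1 : (1 + ε * L) ≤ Real.exp (ε * L) := by
      have := Real.add_one_le_exp (ε * L)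
      linarith
    calc (1 + ε * L) ^ N ≤ (Real.exp (ε * L)) ^ N := pow_le_pow_left₀ (by linarith) h1 N
      _ = Real.exp (N * (ε * L)) := (Real.exp_nat_mul _ _).symm
      _ ≤ Real.exp (L * t) := by
          apply Real.exp_le_exp.mpr
          nlinarith [mul_le_mul_of_nonneg_left hN hL]
  have hCsum : ε * ∑ l ∈ range N, C l = ∑ u ∈ D, p u * (ε * ∑ l ∈ range N, |b l u - b' l u|) := by
    simp only [hC, hc]
    rw [sum_comm, mul_sum]
    refine sum_congr rfl fun u _ => ?_
    rw [← mul_sum]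
    ring
  have hCn : 0 ≤ ε * ∑ l ∈ range N, C l := mul_nonneg hε (sum_nonneg fun l _ => hC0 l)
  calc |euler m ε b N o - euler m ε b' N o| ≤ |z N o| + c N o := hxz N o
    _ ≤ (1 + ε * L) ^ N * (ε * ∑ l ∈ range N, C l) + c N o :=
        add_le_add ((hzo N).trans (hSb N)) le_rfl
    _ ≤ Real.exp (L * t) * (ε * ∑ l ∈ range N, C l) + c N o :=
        add_le_add (mul_le_mul_of_nonneg_right hexp hCn) le_rfl
    _ = |b N o - b' N o| +
      Real.exp (L * t) * ∑ u ∈ D, p u * (ε * ∑ l ∈ Finset.range N, |b l u - b' l u|) := by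
        rw [hCsum]
        simp only [hc]
        ring

end P161
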