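import Vale.Agent.P161.Defs

/-!
# P161 : the innovation process (definitions)
-/

namespace P161

open MeasureTheory ProbabilityTheory
open scoped ENNReal

variable {V E : Type*} [MeasurableSpace E]


/-- Riemann sum with mesh `2 ^ (-(j + i))` of `∫_0^{k / 2 ^ j} M^D_v(s) ds` -/
noncomputable def Riem (μ : Measure (V → Bool)) (w : ℕ → ℕ → E → ℝ) (D : Finset V) (v : V)
    (j k i : ℕ) (ω : Om V E) : ℝ :=
  ∑ l ∈ Finset.range (k * 2 ^ i), (1 / 2 : ℝ) ^ (j + i) * M μ w D v (j + i) l ω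

/-- `S D v j k` is `∫_0^{k / 2 ^ j} M^D_v(s) ds`, and `T v j k` its limit as `D` grows to `V` -/
structure IsInnov (μ : Measure (V → Bool)) (ρ : Measure E) (w : ℕ → ℕ → E → ℝ)
    (S : Finset V → V → ℕ → ℕ → Om V E → ℝ) (T : V → ℕ → ℕ → Om V E → ℝ) : Prop where
  meas : ∀ D v j k, Measurable (S D v j k)
  measInf : ∀ v j k, Measurable (T v j k)
  approx : ∀ D : Finset V, ∀ v ∈ D, ∀ j k i,
    eLpNorm (fun ω => S D v j k ω - Riem μ w D v j k i ω) 2 (PP μ ρ) ≤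
      ENNReal.ofReal ((1 / 2) ^ (j + i))
  unif : ∀ (v : V) (t : ℕ) (ε : ℝ), 0 < ε → ∃ D0 : Finset V, ∀ D : Finset V, D0 ⊆ D →
    ∀ j k, k ≤ t * 2 ^ j →
      eLpNorm (fun ω => S D v j k ω - T v j k ω) 2 (PP μ ρ) ≤ ENNReal.ofReal ε

end P161
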