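import Vale.Agent.P161.LawAux

/-!
# P161, module Law : the innovation is a family of independent Brownian motions
-/

namespace P161

open MeasureTheory ProbabilityTheory Filter Topology
open scoped ENNReal NNReal

section General

/-- two random vectors with the same characteristic function have the same law -/
theorem map_eq_of_cf {ι Ω Ω' : Type*} [Fintype ι] [MeasurableSpace Ω] [MeasurableSpace Ω']
    {P : Measure Ω} {Q : Measure Ω'} [IsFiniteMeasure P] [IsFiniteMeasure Q]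
    {f : Ω → ι → ℝ} {g : Ω' → ι → ℝ} (hf : Measurable f) (hg : Measurable g)
    (h : ∀ a : ι → ℝ, ∫ ω, ee (∑ i, a i * f ω i) ∂P = ∫ ω, ee (∑ i, a i * g ω i) ∂Q) :
    P.map f = Q.map g := by
  classical
  apply Measure.ext_of_charFunDual
  ext L
  have hL : ∀ x : ι → ℝ, L x = ∑ i, L (Pi.single i 1) * x i := by
    intro x
    conv_lhs => rw [show x = ∑ i, x i • (Pi.single i 1 : ι → ℝ) from by
      ext k
      simp [Finset.sum_apply, Pi.single_apply]]
    rw [map_sum]
    refine Finset.sum_congr rfl fun i _ => ?_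
    rw [map_smul, smul_eq_mul, mul_comm]
  rw [charFunDual_apply, charFunDual_apply]
  have hm : Measurable fun x : ι → ℝ => Complex.exp ((L x : ℂ) * Complex.I) :=
    Complex.measurable_exp.comp
      ((Complex.measurable_ofReal.comp L.continuous.measurable).mul_const _)
  rw [integral_map hf.aemeasurable hm.aestronglyMeasurable,
    integral_map hg.aemeasurable hm.aestronglyMeasurable]
  have h1 := h fun i => L (Pi.single i 1)
  simp_rw [← hL] at h1
  exact h1

/-- two processes with the same finite-dimensional characteristic functions have the same law -/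
theorem map_eq_of_cf_process {T Ω Ω' : Type*} [MeasurableSpace Ω] [MeasurableSpace Ω']
    {P : Measure Ω} {Q : Measure Ω'} [IsFiniteMeasure P] [IsFiniteMeasure Q]
    {f : T → Ω → ℝ} {g : T → Ω' → ℝ} (hf : ∀ t, Measurable (f t)) (hg : ∀ t, Measurable (g t))
    (h : ∀ (I : Finset T) (a : T → ℝ),
      ∫ ω, ee (∑ t ∈ I, a t * f t ω) ∂P = ∫ ω, ee (∑ t ∈ I, a t * g t ω) ∂Q) :
    P.map (fun ω t => f t ω) = Q.map (fun ω t => g t ω) := by
  classical
  have hfm : Measurable fun ω t => f t ω := measurable_pi_lambda _ hf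
  have hgm : Measurable fun ω t => g t ω := measurable_pi_lambda _ hg
  have h1 : IsProjectiveLimit (P.map (fun ω t => f t ω))
      (fun I : Finset T => (Q.map (fun ω t => g t ω)).map I.restrict) := by
    intro I
    show (P.map (fun ω t => f t ω)).map I.restrict = (Q.map (fun ω t => g t ω)).map I.restrict
    rw [Measure.map_map (Finset.measurable_restrict I) hfm,
      Measure.map_map (Finset.measurable_restrict I) hgm]
    refine map_eq_of_cf ((Finset.measurable_restrict I).comp hfm)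
      ((Finset.measurable_restrict I).comp hgm) fun a => ?_
    have h2 := h I fun t => if ht : t ∈ I then a ⟨t, ht⟩ else 0
    have e1 : ∀ ω, ∑ t ∈ I, (if ht : t ∈ I then a ⟨t, ht⟩ else 0) * f t ω =
        ∑ i : I, a i * (I.restrict ∘ fun ω t => f t ω) ω i := by
      intro ω
      rw [← Finset.sum_coe_sort I]
      refine Finset.sum_congr rfl fun i _ => ?_
      rw [dif_pos i.2]
      rfl
    have e2 : ∀ ω, ∑ t ∈ I, (if ht : t ∈ I then a ⟨t, ht⟩ else 0) * g t ω =
        ∑ i : I, a i * (I.restrict ∘ fun ω t => g t ω) ω i := by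
      intro ω
      rw [← Finset.sum_coe_sort I]
      refine Finset.sum_congr rfl fun i _ => ?_
      rw [dif_pos i.2]
      rfl
    simp_rw [e1, e2] at h2
    exact h2
  have h2 : IsProjectiveLimit (Q.map (fun ω t => g t ω))
      (fun I : Finset T => (Q.map (fun ω t => g t ω)).map I.restrict) := fun I => rfl
  exact h1.unique h2

theorem integral_abs_le {Ω : Type*} [MeasurableSpace Ω] {P : Measure Ω} [IsProbabilityMeasure P]
    {f : Ω → ℝ} (hf : Measurable f) {δ : ℝ} (hδ : 0 ≤ δ)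
    (h : eLpNorm f 2 P ≤ ENNReal.ofReal δ) : Integrable f P ∧ ∫ ω, |f ω| ∂P ≤ δ := by
  have h1 : eLpNorm f 1 P ≤ ENNReal.ofReal δ :=
    (eLpNorm_le_eLpNorm_of_exponent_le (by norm_num) hf.aestronglyMeasurable).trans h
  have h2 : Integrable f P := by
    rw [← memLp_one_iff_integrable]
    exact ⟨hf.aestronglyMeasurable, lt_of_le_of_lt h1 ENNReal.ofReal_lt_top⟩
  refine ⟨h2, ?_⟩
  have h3 : ∫ ω, ‖f ω‖ ∂P = (eLpNorm f 1 P).toReal := by
    rw [eLpNorm_one_eq_lintegral_enorm, integral_norm_eq_lintegral_enorm hf.aestronglyMeasurable]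
  simp only [Real.norm_eq_abs] at h3
  rw [h3]
  exact ENNReal.toReal_le_of_le_ofReal hδ h1

/-- comparison of characteristic functions -/
theorem norm_cf_sub_le {Ω ι : Type*} [MeasurableSpace Ω] {P : Measure Ω} [IsProbabilityMeasure P]
    (s : Finset ι) (a : ι → ℝ) {f g : ι → Ω → ℝ} (hf : ∀ i, Measurable (f i))
    (hg : ∀ i, Measurable (g i)) {δ : ℝ} (hδ : 0 ≤ δ)
    (h : ∀ i ∈ s, eLpNorm (fun ω => f i ω - g i ω) 2 P ≤ ENNReal.ofReal δ) :
    ‖∫ ω, ee (∑ i ∈ s, a i * f i ω) ∂P - ∫ ω, ee (∑ i ∈ s, a i * g i ω) ∂P‖ ≤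
      (∑ i ∈ s, |a i|) * δ := by
  have hfm : Measurable fun ω => ∑ i ∈ s, a i * f i ω :=
    Finset.measurable_sum _ fun i _ => (hf i).const_mul _
  have hgm : Measurable fun ω => ∑ i ∈ s, a i * g i ω :=
    Finset.measurable_sum _ fun i _ => (hg i).const_mul _
  rw [← integral_sub (integrable_ee hfm) (integrable_ee hgm)]
  have hint : ∀ i ∈ s, Integrable (fun ω => |a i| * |f i ω - g i ω|) P := fun i hi =>
    (integral_abs_le ((hf i).sub (hg i)) hδ (h i hi)).1.abs.const_mul _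
  have hb : ∀ ω, ‖ee (∑ i ∈ s, a i * f i ω) - ee (∑ i ∈ s, a i * g i ω)‖ ≤
      ∑ i ∈ s, |a i| * |f i ω - g i ω| := by
    intro ω
    refine (norm_ee_sub _ _).trans ?_
    rw [← Finset.sum_sub_distrib]
    refine (Finset.abs_sum_le_sum_abs _ _).trans (le_of_eq ?_)
    refine Finset.sum_congr rfl fun i _ => ?_
    rw [← mul_sub, abs_mul]
  refine (norm_integral_le_integral_norm _).trans ?_
  refine (integral_mono_of_nonneg (Eventually.of_forall fun ω => norm_nonneg _)
    (integrable_finsetSum _ hint) (Eventually.of_forall hb)).trans ?_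
  rw [integral_finsetSum _ hint, Finset.sum_mul]
  refine Finset.sum_le_sum fun i hi => ?_
  rw [integral_const_mul]
  exact mul_le_mul_of_nonneg_left (integral_abs_le ((hf i).sub (hg i)) hδ (h i hi)).2
    (abs_nonneg _)

theorem ae_zero_of_small {Ω : Type*} [MeasurableSpace Ω] {P : Measure Ω} {f : Ω → ℝ}
    (hf : Measurable f) (h : ∀ ε : ℝ, 0 < ε → eLpNorm f 2 P ≤ ENNReal.ofReal (4 * ε)) :
    ∀ᵐ ω ∂P, f ω = 0 := by
  have hzero : eLpNorm f 2 P = 0 := by
    refine le_antisymm (le_of_forall_pos_le_add fun ε hε => ?_) zero_le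
    rw [zero_add]
    by_cases htop : ε = ⊤
    · rw [htop]; exact le_top
    · have h5 := h (ε.toReal / 4) (div_pos (ENNReal.toReal_pos hε.ne' htop) (by norm_num))
      rw [show 4 * (ε.toReal / 4) = ε.toReal by ring, ENNReal.ofReal_toReal htop] at h5
      exact h5
  rw [eLpNorm_eq_zero_iff hf.aestronglyMeasurable (by norm_num)] at hzero
  filter_upwards [hzero] with ω hω
  exact hω

end General

section Law

variable {V E : Type*} [MeasurableSpace E] {μ : Measure (V → Bool)} {ρ : Measure E}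
  {w : ℕ → ℕ → E → ℝ}

theorem meas_Riem [IsFiniteMeasure μ] (hw : ∀ j k, Measurable (w j k)) (D : Finset V) (v : V)
    (j k i : ℕ) : Measurable (Riem μ w D v j k i : Om V E → ℝ) := by
  unfold Riem
  exact Finset.measurable_sum _ fun l _ => (measurable_M hw D v (j + i) l).const_mul _

/-- the coefficients at the fine level -/
noncomputable def fine (lam : V → ℕ → ℝ) (n i : ℕ) (v : V) (l : ℕ) : ℝ :=
  ∑ k ∈ Finset.range (n + 1), if l < k * 2 ^ i then lam v k else 0

theorem fine_sum (lam : V → ℕ → ℝ) (n i : ℕ) (v : V) (f : ℕ → ℝ) :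
    ∑ l ∈ Finset.range (n * 2 ^ i), fine lam n i v l * f l =
      ∑ k ∈ Finset.range (n + 1), lam v k * ∑ l ∈ Finset.range (k * 2 ^ i), f l := by
  unfold fine
  simp_rw [Finset.sum_mul]
  rw [Finset.sum_comm]
  refine Finset.sum_congr rfl fun k hk => ?_
  have hk' : k ≤ n := by
    have := Finset.mem_range.mp hk
    omega
  rw [Finset.mul_sum]
  have hsub : Finset.range (k * 2 ^ i) ⊆ Finset.range (n * 2 ^ i) :=
    Finset.range_mono (Nat.mul_le_mul_right _ hk')
  rw [← Finset.sum_subset hsub]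
  · refine Finset.sum_congr rfl fun l hl => ?_
    rw [if_pos (Finset.mem_range.mp hl)]
  · intro l _ hl
    rw [if_neg (fun h => hl (Finset.mem_range.mpr h)), zero_mul]

theorem fine_bound (lam : V → ℕ → ℝ) (n i : ℕ) (D : Finset V) (l : ℕ) :
    ∑ v ∈ D, |fine lam n i v l| ≤ ∑ v ∈ D, ∑ k ∈ Finset.range (n + 1), |lam v k| := by
  refine Finset.sum_le_sum fun v _ => ?_
  unfold fine
  refine (Finset.abs_sum_le_sum_abs _ _).trans (Finset.sum_le_sum fun k _ => ?_)
  split_ifs
  · exact le_rfl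
  · rw [abs_zero]
    exact abs_nonneg _

theorem phx_fine (hw : IsDyadicBM ρ w) (D : Finset V) (lam : V → ℕ → ℝ) (j n i : ℕ)
    (ω : Om V E) : phx μ D (fine lam n i) (j + i) (n * 2 ^ i) (Xp w (j + i) ω) =
      ∑ v ∈ D, ∑ k ∈ Finset.range (n + 1), lam v k *
        (X w v j k ω - Riem μ w D v j k i ω) := by
  unfold phx
  refine Finset.sum_congr rfl fun v _ => ?_
  rw [fine_sum lam n i v (fun l => Xp w (j + i) ω v (l + 1) - Xp w (j + i) ω v l -
    (1 / 2) ^ (j + i) * mag μ D v (fun u => Xp w (j + i) ω u l))]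
  refine Finset.sum_congr rfl fun k _ => ?_
  congr 1
  rw [Finset.sum_sub_distrib, Finset.sum_range_sub (fun l => Xp w (j + i) ω v l)]
  unfold Xp Riem
  rw [X_cons_pow hw, X_zero hw, sub_zero]
  rfl

theorem phn_fine (hw : IsDyadicBM ρ w) (D : Finset V) (lam : V → ℕ → ℝ) (j n i : ℕ)
    (N : V → E) : phn w D (fine lam n i) (j + i) (n * 2 ^ i) N =
      ∑ v ∈ D, ∑ k ∈ Finset.range (n + 1), lam v k * w j k (N v) := by
  unfold phn
  refine Finset.sum_congr rfl fun v _ => ?_
  rw [fine_sum lam n i v (fun l => w (j + i) (l + 1) (N v) - w (j + i) l (N v))]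
  refine Finset.sum_congr rfl fun k _ => ?_
  rw [Finset.sum_range_sub (fun l => w (j + i) l (N v)), hw.zero, sub_zero, w_cons_pow hw]

theorem cf_fin [IsProbabilityMeasure μ] (hw : IsDyadicBM ρ w)
    {S : Finset V → V → ℕ → ℕ → Om V E → ℝ} {T : V → ℕ → ℕ → Om V E → ℝ}
    (hS : IsInnov μ ρ w S T) (D : Finset V) (j n : ℕ) (lam : V → ℕ → ℝ) :
    ∫ ω : Om V E, ee (∑ q ∈ D ×ˢ Finset.range (n + 1), lam q.1 q.2 *
        (X w q.1 j q.2 ω - S D q.1 j q.2 ω)) ∂(PP μ ρ) =
      ∫ N : V → E, ee (∑ q ∈ D ×ˢ Finset.range (n + 1), lam q.1 q.2 * w j q.2 (N q.1))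
        ∂(Measure.infinitePi fun _ : V => ρ) := by
  have := hw.prob
  have hPP : IsProbabilityMeasure (PP μ ρ) := isProbabilityMeasure_PP
  set Λ : ℝ := ∑ v ∈ D, ∑ k ∈ Finset.range (n + 1), |lam v k| with hΛ
  have hΛ0 : 0 ≤ Λ := Finset.sum_nonneg fun v _ => Finset.sum_nonneg fun k _ => abs_nonneg _
  set a := ∫ ω : Om V E, ee (∑ q ∈ D ×ˢ Finset.range (n + 1), lam q.1 q.2 *
        (X w q.1 j q.2 ω - S D q.1 j q.2 ω)) ∂(PP μ ρ) with ha
  set b := ∫ N : V → E, ee (∑ q ∈ D ×ˢ Finset.range (n + 1), lam q.1 q.2 * w j q.2 (N q.1))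
        ∂(Measure.infinitePi fun _ : V => ρ) with hb
  have hbd : ∀ i : ℕ, ‖a - b‖ ≤ (1 / 2 : ℝ) ^ i * (Λ + 12 * n * Λ ^ 2) := by
    intro i
    have h1 := telescope (μ := μ) hw D (fine lam n i) (Λ := Λ) (j + i) (n * 2 ^ i)
      (fun l _ => fine_bound lam n i D l)
    simp_rw [phx_fine (μ := μ) hw, phn_fine hw, ← Finset.sum_product'] at h1
    have h2 := norm_cf_sub_le (P := PP μ ρ) (D ×ˢ Finset.range (n + 1))
      (fun q => lam q.1 q.2) (f := fun q ω => X w q.1 j q.2 ω - S D q.1 j q.2 ω)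
      (g := fun q ω => X w q.1 j q.2 ω - Riem μ w D q.1 j q.2 i ω)
      (fun q => (measurable_X hw.meas q.1 j q.2).sub (hS.meas D q.1 j q.2))
      (fun q => (measurable_X hw.meas q.1 j q.2).sub (meas_Riem hw.meas D q.1 j q.2 i))
      (δ := (1 / 2) ^ (j + i)) (by positivity) (by
        intro q hq
        have hq1 := (Finset.mem_product.mp hq).1
        have h3 := hS.approx D q.1 hq1 j q.2 i
        have h4 : (fun ω => (X w q.1 j q.2 ω - S D q.1 j q.2 ω) -
            (X w q.1 j q.2 ω - Riem μ w D q.1 j q.2 i ω)) =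
            -(fun ω => S D q.1 j q.2 ω - Riem μ w D q.1 j q.2 i ω) := by
          ext ω
          simp only [Pi.neg_apply]
          ring
        rw [h4, eLpNorm_neg]
        exact h3)
    have h5 : ∑ q ∈ D ×ˢ Finset.range (n + 1), |lam q.1 q.2| = Λ := by
      rw [hΛ, Finset.sum_product]
    rw [h5] at h2
    set c := ∫ ω : Om V E, ee (∑ q ∈ D ×ˢ Finset.range (n + 1), lam q.1 q.2 *
        (X w q.1 j q.2 ω - Riem μ w D q.1 j q.2 i ω)) ∂(PP μ ρ) with hc
    have h6 : a - b = (a - c) + (c - b) := by ring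
    rw [h6]
    refine (norm_add_le _ _).trans ((add_le_add h2 h1).trans ?_)
    have hj : (1 / 2 : ℝ) ^ j ≤ 1 := pow_le_one₀ (by norm_num) (by norm_num)
    have hj0 : (0 : ℝ) ≤ (1 / 2) ^ j := by positivity
    have hi0 : (0 : ℝ) < (1 / 2) ^ i := by positivity
    have h7 : Λ * (1 / 2 : ℝ) ^ (j + i) ≤ (1 / 2 : ℝ) ^ i * Λ := by
      rw [pow_add]
      have : (1 / 2 : ℝ) ^ j * (1 / 2) ^ i ≤ 1 * (1 / 2) ^ i :=
        mul_le_mul_of_nonneg_right hj hi0.le
      nlinarith
    have h8 : ((n * 2 ^ i : ℕ) : ℝ) * (12 * ((1 / 2) ^ (j + i) * Λ) ^ 2) ≤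
        (1 / 2 : ℝ) ^ i * (12 * n * Λ ^ 2) := by
      push_cast
      have e1 : (n : ℝ) * 2 ^ i * (12 * ((1 / 2) ^ (j + i) * Λ) ^ 2) =
          ((2 : ℝ) ^ i * (1 / 2) ^ i) * (((1 / 2) ^ j) ^ 2 * ((1 / 2 : ℝ) ^ i * (12 * n * Λ ^ 2))) := by
        rw [pow_add]
        ring
      have e2 : (2 : ℝ) ^ i * (1 / 2) ^ i = 1 := by
        rw [← mul_pow]
        norm_num
      rw [e1, e2, one_mul]
      have e3 : ((1 / 2 : ℝ) ^ j) ^ 2 ≤ 1 := pow_le_one₀ hj0 hj
      calc _ ≤ 1 * ((1 / 2 : ℝ) ^ i * (12 * n * Λ ^ 2)) :=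
            mul_le_mul_of_nonneg_right e3 (by positivity)
        _ = _ := one_mul _
    linarith
  have hlim : Tendsto (fun i : ℕ => (1 / 2 : ℝ) ^ i * (Λ + 12 * n * Λ ^ 2)) atTop (𝓝 0) := by
    have := (tendsto_pow_atTop_nhds_zero_of_lt_one (r := (1 / 2 : ℝ)) (by norm_num)
      (by norm_num)).mul_const (Λ + 12 * n * Λ ^ 2)
    rwa [zero_mul] at this
  have h0 : ‖a - b‖ ≤ 0 := ge_of_tendsto' hlim hbd
  exact sub_eq_zero.mp (norm_le_zero_iff.mp h0)

theorem law_fin {μ : Measure (V → Bool)} [IsProbabilityMeasure μ]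
    {ρ : Measure E} {w : ℕ → ℕ → E → ℝ} (hw : IsDyadicBM ρ w)
    {S : Finset V → V → ℕ → ℕ → Om V E → ℝ} {T : V → ℕ → ℕ → Om V E → ℝ}
    (hS : IsInnov μ ρ w S T) (D : Finset V) (j n : ℕ) :
    (PP μ ρ).map (fun (ω : Om V E) (v : D) (k : Fin (n + 1)) => X w v.1 j k ω - S D v.1 j k ω) =
      (Measure.infinitePi fun _ : V => ρ).map
        (fun (N : V → E) (v : D) (k : Fin (n + 1)) => w j k (N v.1)) := by
  classical
  have := hw.prob
  have hPP : IsProbabilityMeasure (PP μ ρ) := isProbabilityMeasure_PP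
  set f : Om V E → (D × Fin (n + 1)) → ℝ := fun ω q => X w q.1.1 j q.2 ω - S D q.1.1 j q.2 ω
    with hf
  set g : (V → E) → (D × Fin (n + 1)) → ℝ := fun N q => w j q.2 (N q.1.1) with hg
  have hfm : Measurable f := measurable_pi_lambda _ fun q =>
    (measurable_X hw.meas q.1.1 j q.2).sub (hS.meas D q.1.1 j q.2)
  have hgm : Measurable g := measurable_pi_lambda _ fun q =>
    (hw.meas j q.2).comp (measurable_pi_apply q.1.1)
  have h1 : (PP μ ρ).map f = (Measure.infinitePi fun _ : V => ρ).map g := by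
    refine map_eq_of_cf hfm hgm fun a => ?_
    set lam : V → ℕ → ℝ := fun v k => if h : v ∈ D ∧ k < n + 1 then a (⟨v, h.1⟩, ⟨k, h.2⟩) else 0
      with hlam
    have h2 := cf_fin hw hS D j n lam
    have e : ∀ F : V → ℕ → ℝ, ∑ q ∈ D ×ˢ Finset.range (n + 1), lam q.1 q.2 * F q.1 q.2 =
        ∑ q : D × Fin (n + 1), a q * F q.1.1 q.2 := by
      intro F
      rw [Finset.sum_product, Fintype.sum_prod_type, ← Finset.sum_coe_sort D]
      refine Finset.sum_congr rfl fun v _ => ?_
      rw [Finset.sum_range]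
      refine Finset.sum_congr rfl fun k _ => ?_
      simp only [hlam]
      rw [dif_pos ⟨v.2, k.2⟩]
    have e1 : ∀ ω : Om V E, ∑ q ∈ D ×ˢ Finset.range (n + 1), lam q.1 q.2 *
        (X w q.1 j q.2 ω - S D q.1 j q.2 ω) = ∑ q : D × Fin (n + 1), a q * f ω q := fun ω =>
      e fun v k => X w v j k ω - S D v j k ω
    have e2 : ∀ N : V → E, ∑ q ∈ D ×ˢ Finset.range (n + 1), lam q.1 q.2 * w j q.2 (N q.1) =
        ∑ q : D × Fin (n + 1), a q * g N q := fun N => e fun v k => w j k (N v)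
    simp_rw [e1, e2] at h2
    exact h2
  have hcur : Measurable fun (y : (D × Fin (n + 1)) → ℝ) (v : D) (k : Fin (n + 1)) => y (v, k) :=
    measurable_pi_lambda _ fun v => measurable_pi_lambda _ fun k => measurable_pi_apply (v, k)
  have h3 := congrArg (Measure.map fun (y : (D × Fin (n + 1)) → ℝ) (v : D) (k : Fin (n + 1)) =>
    y (v, k)) h1
  rw [Measure.map_map hcur hfm, Measure.map_map hcur hgm] at h3
  exact h3

theorem cf_inf [IsProbabilityMeasure μ] (hw : IsDyadicBM ρ w)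
    {S : Finset V → V → ℕ → ℕ → Om V E → ℝ} {T : V → ℕ → ℕ → Om V E → ℝ}
    (hS : IsInnov μ ρ w S T) (D : Finset V) (j n : ℕ) (lam : V → ℕ → ℝ) :
    ∫ ω : Om V E, ee (∑ q ∈ D ×ˢ Finset.range (n + 1), lam q.1 q.2 *
        (X w q.1 j q.2 ω - T q.1 j q.2 ω)) ∂(PP μ ρ) =
      ∫ N : V → E, ee (∑ q ∈ D ×ˢ Finset.range (n + 1), lam q.1 q.2 * w j q.2 (N q.1))
        ∂(Measure.infinitePi fun _ : V => ρ) := by
  classical
  have := hw.prob
  have hPP : IsProbabilityMeasure (PP μ ρ) := isProbabilityMeasure_PP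
  set Λ : ℝ := ∑ q ∈ D ×ˢ Finset.range (n + 1), |lam q.1 q.2| with hΛ
  have hΛ0 : 0 ≤ Λ := Finset.sum_nonneg fun v _ => abs_nonneg _
  set a := ∫ ω : Om V E, ee (∑ q ∈ D ×ˢ Finset.range (n + 1), lam q.1 q.2 *
        (X w q.1 j q.2 ω - T q.1 j q.2 ω)) ∂(PP μ ρ) with ha
  set b := ∫ N : V → E, ee (∑ q ∈ D ×ˢ Finset.range (n + 1), lam q.1 q.2 * w j q.2 (N q.1))
        ∂(Measure.infinitePi fun _ : V => ρ) with hb
  have hbd : ∀ ε : ℝ, 0 < ε → ‖a - b‖ ≤ Λ * ε := by
    intro ε hε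
    have hex : ∀ v : V, ∃ D0 : Finset V, ∀ D' : Finset V, D0 ⊆ D' → ∀ j k, k ≤ n * 2 ^ j →
      eLpNorm (fun ω => S D' v j k ω - T v j k ω) 2 (PP μ ρ) ≤ ENNReal.ofReal ε := fun v =>
      hS.unif v n ε hε
    choose D0 hD0 using hex
    set D' : Finset V := D ∪ D.biUnion D0 with hD'
    set lam' : V → ℕ → ℝ := fun v k => if v ∈ D then lam v k else 0 with hlam'
    have hsub : D ⊆ D' := Finset.subset_union_left
    have h1 := cf_fin hw hS D' j n lam'
    have e : ∀ F : V → ℕ → ℝ, ∑ q ∈ D' ×ˢ Finset.range (n + 1), lam' q.1 q.2 * F q.1 q.2 =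
        ∑ q ∈ D ×ˢ Finset.range (n + 1), lam q.1 q.2 * F q.1 q.2 := by
      intro F
      rw [Finset.sum_product, Finset.sum_product, ← Finset.sum_subset hsub]
      · refine Finset.sum_congr rfl fun v hv => Finset.sum_congr rfl fun k _ => ?_
        simp only [hlam', if_pos hv]
      · intro v _ hv
        refine Finset.sum_eq_zero fun k _ => ?_
        simp only [hlam', if_neg hv, zero_mul]
    have e1 : ∀ ω : Om V E, ∑ q ∈ D' ×ˢ Finset.range (n + 1), lam' q.1 q.2 *
        (X w q.1 j q.2 ω - S D' q.1 j q.2 ω) = ∑ q ∈ D ×ˢ Finset.range (n + 1), lam q.1 q.2 *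
        (X w q.1 j q.2 ω - S D' q.1 j q.2 ω) := fun ω =>
      e fun v k => X w v j k ω - S D' v j k ω
    have e2 : ∀ N : V → E, ∑ q ∈ D' ×ˢ Finset.range (n + 1), lam' q.1 q.2 * w j q.2 (N q.1) =
        ∑ q ∈ D ×ˢ Finset.range (n + 1), lam q.1 q.2 * w j q.2 (N q.1) := fun N =>
      e fun v k => w j k (N v)
    simp_rw [e1, e2] at h1
    rw [← hb] at h1
    have h2 := norm_cf_sub_le (P := PP μ ρ) (D ×ˢ Finset.range (n + 1))
      (fun q => lam q.1 q.2) (f := fun q ω => X w q.1 j q.2 ω - T q.1 j q.2 ω)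
      (g := fun q ω => X w q.1 j q.2 ω - S D' q.1 j q.2 ω)
      (fun q => (measurable_X hw.meas q.1 j q.2).sub (hS.measInf q.1 j q.2))
      (fun q => (measurable_X hw.meas q.1 j q.2).sub (hS.meas D' q.1 j q.2))
      (δ := ε) hε.le (by
        intro q hq
        have hq1 := (Finset.mem_product.mp hq).1
        have hq2 := Finset.mem_range.mp (Finset.mem_product.mp hq).2
        have hk : q.2 ≤ n * 2 ^ j := by
          have : 1 ≤ 2 ^ j := Nat.one_le_two_pow
          nlinarith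
        have hss : D0 q.1 ⊆ D' := fun x hx =>
          Finset.mem_union_right _ (Finset.mem_biUnion.mpr ⟨q.1, hq1, hx⟩)
        have h3 := hD0 q.1 D' hss j q.2 hk
        have h4 : (fun ω => (X w q.1 j q.2 ω - T q.1 j q.2 ω) -
            (X w q.1 j q.2 ω - S D' q.1 j q.2 ω)) =
            (fun ω => S D' q.1 j q.2 ω - T q.1 j q.2 ω) := by
          ext ω
          ring
        rw [h4]
        exact h3)
    rw [h1, ← ha, ← hΛ] at h2
    exact h2
  have hlim : Tendsto (fun i : ℕ => Λ * (1 / 2 : ℝ) ^ i) atTop (𝓝 0) := by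
    have := (tendsto_pow_atTop_nhds_zero_of_lt_one (r := (1 / 2 : ℝ)) (by norm_num)
      (by norm_num)).const_mul Λ
    rwa [mul_zero] at this
  have h0 : ‖a - b‖ ≤ 0 := ge_of_tendsto' hlim fun i => hbd _ (by positivity)
  exact sub_eq_zero.mp (norm_le_zero_iff.mp h0)

omit [MeasurableSpace E] in
theorem Riem_refine (D : Finset V) (v : V) (j k i i' : ℕ) (ω : Om V E) :
    Riem μ w D v j k (i + i') ω = Riem μ w D v (j + i) (k * 2 ^ i) i' ω := by
  unfold Riem
  rw [pow_add, ← mul_assoc, ← add_assoc]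

/-- `T` is consistent between the levels -/
theorem T_refine [IsProbabilityMeasure μ] (hw : IsDyadicBM ρ w)
    {S : Finset V → V → ℕ → ℕ → Om V E → ℝ} {T : V → ℕ → ℕ → Om V E → ℝ}
    (hS : IsInnov μ ρ w S T) (v : V) (j k i : ℕ) :
    ∀ᵐ ω ∂(PP μ ρ), T v j k ω = T v (j + i) (k * 2 ^ i) ω := by
  classical
  have := hw.prob
  have hPP : IsProbabilityMeasure (PP μ ρ) := isProbabilityMeasure_PP
  have hsmall := ae_zero_of_small (P := PP μ ρ)
    (f := fun ω => T v j k ω - T v (j + i) (k * 2 ^ i) ω)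
    ((hS.measInf v j k).sub (hS.measInf v (j + i) (k * 2 ^ i))) (by
      intro ε hε
      obtain ⟨D0, hD0⟩ := hS.unif v k ε hε
      obtain ⟨r, hr⟩ := exists_pow_lt_of_lt_one hε (show (1 / 2 : ℝ) < 1 by norm_num)
      have hj : 1 ≤ 2 ^ j := Nat.one_le_two_pow
      have hk : k ≤ k * 2 ^ j := Nat.le_mul_of_pos_right _ (by positivity)
      have hk2 : k * 2 ^ i ≤ k * 2 ^ (j + i) :=
        Nat.mul_le_mul_left _ (Nat.pow_le_pow_right (by norm_num) (by omega))
      set D : Finset V := insert v D0 with hD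
      have hD1 : D0 ⊆ D := Finset.subset_insert _ _
      have hv : v ∈ D := Finset.mem_insert_self _ _
      have hr' : ∀ s : ℕ, r ≤ s → (1 / 2 : ℝ) ^ s ≤ ε := fun s hs =>
        (pow_le_pow_of_le_one (by norm_num) (by norm_num) hs).trans hr.le
      have a1 := hD0 D hD1 j k hk
      have a2 := hD0 D hD1 (j + i) (k * 2 ^ i) hk2
      have a3 := (hS.approx D v hv j k (i + r)).trans
        (ENNReal.ofReal_le_ofReal (hr' (j + (i + r)) (by omega)))
      have a4 := (hS.approx D v hv (j + i) (k * 2 ^ i) r).trans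
        (ENNReal.ofReal_le_ofReal (hr' (j + i + r) (by omega)))
      have hsplit : (fun ω => T v j k ω - T v (j + i) (k * 2 ^ i) ω) =
          ((fun ω => S D v j k ω - Riem μ w D v j k (i + r) ω) -
            (fun ω => S D v j k ω - T v j k ω)) +
          ((fun ω => S D v (j + i) (k * 2 ^ i) ω - T v (j + i) (k * 2 ^ i) ω) -
            (fun ω => S D v (j + i) (k * 2 ^ i) ω -
              Riem μ w D v (j + i) (k * 2 ^ i) r ω)) := by
        ext ω
        simp only [Pi.add_apply, Pi.sub_apply]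
        rw [Riem_refine]
        ring
      have mS : ∀ j k, Measurable (S D v j k) := fun j k => hS.meas D v j k
      have mR : ∀ j k r, Measurable (Riem μ w D v j k r : Om V E → ℝ) := fun j k r =>
        meas_Riem hw.meas D v j k r
      have m1 : AEStronglyMeasurable (fun ω => S D v j k ω - T v j k ω) (PP μ ρ) :=
        ((mS _ _).sub (hS.measInf v _ _)).aestronglyMeasurable
      have m2 : AEStronglyMeasurable
          (fun ω => S D v (j + i) (k * 2 ^ i) ω - T v (j + i) (k * 2 ^ i) ω) (PP μ ρ) :=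
        ((mS _ _).sub (hS.measInf v _ _)).aestronglyMeasurable
      have m3 : AEStronglyMeasurable
          (fun ω => S D v j k ω - Riem μ w D v j k (i + r) ω) (PP μ ρ) :=
        ((mS _ _).sub (mR _ _ _)).aestronglyMeasurable
      have m4 : AEStronglyMeasurable (fun ω => S D v (j + i) (k * 2 ^ i) ω -
          Riem μ w D v (j + i) (k * 2 ^ i) r ω) (PP μ ρ) :=
        ((mS _ _).sub (mR _ _ _)).aestronglyMeasurable
      rw [hsplit]
      have h12 : (1 : ℝ≥0∞) ≤ 2 := by norm_num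
      calc _ ≤ (ENNReal.ofReal ε + ENNReal.ofReal ε) +
            (ENNReal.ofReal ε + ENNReal.ofReal ε) := by
            refine (eLpNorm_add_le (m3.sub m1) (m2.sub m4) h12).trans (add_le_add ?_ ?_)
            · exact (eLpNorm_sub_le m3 m1 h12).trans (add_le_add a3 a1)
            · exact (eLpNorm_sub_le m2 m4 h12).trans (add_le_add a2 a4)
        _ = ENNReal.ofReal (4 * ε) := by
            rw [← ENNReal.ofReal_add hε.le hε.le, ← ENNReal.ofReal_add (by linarith) (by linarith)]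
            congr 1
            ring)
  filter_upwards [hsmall] with ω hω
  linarith

theorem law_inf [Countable V] {μ : Measure (V → Bool)} [IsProbabilityMeasure μ]
    {ρ : Measure E} {w : ℕ → ℕ → E → ℝ} (hw : IsDyadicBM ρ w)
    {S : Finset V → V → ℕ → ℕ → Om V E → ℝ} {T : V → ℕ → ℕ → Om V E → ℝ}
    (hS : IsInnov μ ρ w S T) :
    (PP μ ρ).map (fun (ω : Om V E) v j k => X w v j k ω - T v j k ω) =
      (Measure.infinitePi fun _ : V => ρ).map (fun (N : V → E) v j k => w j k (N v)) := by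
  classical
  have := hw.prob
  have hPP : IsProbabilityMeasure (PP μ ρ) := isProbabilityMeasure_PP
  set f : (V × ℕ × ℕ) → Om V E → ℝ := fun q ω => X w q.1 q.2.1 q.2.2 ω - T q.1 q.2.1 q.2.2 ω
    with hf
  set g : (V × ℕ × ℕ) → (V → E) → ℝ := fun q N => w q.2.1 q.2.2 (N q.1) with hg
  have hfm : ∀ q, Measurable (f q) := fun q =>
    (measurable_X hw.meas q.1 q.2.1 q.2.2).sub (hS.measInf q.1 q.2.1 q.2.2)
  have hgm : ∀ q, Measurable (g q) := fun q =>
    (hw.meas q.2.1 q.2.2).comp (measurable_pi_apply q.1)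
  have h1 : (PP μ ρ).map (fun ω q => f q ω) =
      (Measure.infinitePi fun _ : V => ρ).map (fun N q => g q N) := by
    refine map_eq_of_cf_process hfm hgm fun I a => ?_
    -- the finest level
    set J : ℕ := I.sup fun q => q.2.1 with hJ
    set K : V × ℕ × ℕ → ℕ := fun q => q.2.2 * 2 ^ (J - q.2.1) with hK
    set n : ℕ := I.sup K with hn
    set D : Finset V := I.image Prod.fst with hD
    set lam : V → ℕ → ℝ := fun v k => ∑ q ∈ I with (q.1, K q) = (v, k), a q with hlam
    have hJle : ∀ q ∈ I, q.2.1 + (J - q.2.1) = J := by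
      intro q hq
      have : q.2.1 ≤ J := Finset.le_sup (f := fun q : V × ℕ × ℕ => q.2.1) hq
      omega
    have e : ∀ F : V → ℕ → ℝ, ∑ p ∈ D ×ˢ Finset.range (n + 1), lam p.1 p.2 * F p.1 p.2 =
        ∑ q ∈ I, a q * F q.1 (K q) := by
      intro F
      have hmaps : ∀ q ∈ I, (q.1, K q) ∈ D ×ˢ Finset.range (n + 1) := by
        intro q hq
        rw [Finset.mem_product]
        refine ⟨Finset.mem_image_of_mem _ hq, ?_⟩
        rw [Finset.mem_range]
        exact Nat.lt_succ_of_le (Finset.le_sup (f := K) hq)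
      rw [← Finset.sum_fiberwise_of_maps_to hmaps]
      refine Finset.sum_congr rfl fun p _ => ?_
      simp only [hlam]
      rw [Finset.sum_mul]
      refine Finset.sum_congr rfl fun q hq => ?_
      have h2 := (Finset.mem_filter.mp hq).2
      have h3 : q.1 = p.1 := congrArg Prod.fst h2
      have h4 : K q = p.2 := congrArg Prod.snd h2
      rw [h3, h4]
    have h2 := cf_inf hw hS D J n lam
    have e1 : ∀ ω : Om V E, ∑ p ∈ D ×ˢ Finset.range (n + 1), lam p.1 p.2 *
        (X w p.1 J p.2 ω - T p.1 J p.2 ω) =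
        ∑ q ∈ I, a q * (X w q.1 J (K q) ω - T q.1 J (K q) ω) := fun ω =>
      e fun v k => X w v J k ω - T v J k ω
    have e2 : ∀ N : V → E, ∑ p ∈ D ×ˢ Finset.range (n + 1), lam p.1 p.2 * w J p.2 (N p.1) =
        ∑ q ∈ I, a q * w J (K q) (N q.1) := fun N => e fun v k => w J k (N v)
    simp_rw [e1, e2] at h2
    have e3 : ∀ N : V → E, ∑ q ∈ I, a q * w J (K q) (N q.1) = ∑ q ∈ I, a q * g q N := by
      intro N
      refine Finset.sum_congr rfl fun q hq => ?_
      have h3 := w_cons_pow hw q.2.1 q.2.2 (J - q.2.1) (N q.1)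
      rw [hJle q hq] at h3
      simp only [hK, hg]
      rw [h3]
    simp_rw [e3] at h2
    rw [← h2]
    refine integral_congr_ae ?_
    have hT : ∀ᵐ ω ∂(PP μ ρ), ∀ q ∈ I, T q.1 q.2.1 q.2.2 ω = T q.1 J (K q) ω := by
      rw [ae_all_iff]
      intro q
      by_cases hq : q ∈ I
      · have h3 := T_refine hw hS q.1 q.2.1 q.2.2 (J - q.2.1)
        rw [hJle q hq] at h3
        filter_upwards [h3] with ω hω _
        exact hω
      · exact Eventually.of_forall fun ω h => absurd h hq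
    filter_upwards [hT] with ω hω
    congr 1
    refine Finset.sum_congr rfl fun q hq => ?_
    have h3 := X_cons_pow hw q.1 q.2.1 q.2.2 (J - q.2.1) ω
    rw [hJle q hq] at h3
    simp only [hf]
    rw [← hω q hq, ← h3]
  have hcur : Measurable fun (y : (V × ℕ × ℕ) → ℝ) (v : V) (j k : ℕ) => y (v, j, k) :=
    measurable_pi_lambda _ fun v => measurable_pi_lambda _ fun j => measurable_pi_lambda _ fun k =>
      measurable_pi_apply (v, j, k)
  have h3 := congrArg (Measure.map fun (y : (V × ℕ × ℕ) → ℝ) (v : V) (j k : ℕ) => y (v, j, k)) h1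
  rw [Measure.map_map hcur (measurable_pi_lambda _ hfm),
    Measure.map_map hcur (measurable_pi_lambda _ hgm)] at h3
  exact h3

end Law

end P161
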