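import Vale.Agent.P161.Basic
import Vale.Agent.P161.InnovDef
import Vale.Agent.P161.Euler
import Vale.Agent.P161.ES
import Vale.Agent.P161.Law

/-!
# P161, module Est : the main estimate
-/

namespace P161

open MeasureTheory ProbabilityTheory Filter Topology
open scoped ENNReal

namespace Est

variable {V E : Type*} [MeasurableSpace E]

/-- the hypotheses on the finite volume `D` -/
structure Hyp (μ : Measure (V → Bool)) (D : Finset V) (o : V) (K : V → V → ℝ) (p : V → ℝ)
    (L : ℝ) : Prop where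
  ho : o ∈ D
  hlip : ∀ v ∈ D, ∀ x y, |mag μ D v x - mag μ D v y| ≤ ∑ u ∈ D, K v u * |x u - y u|
  hp : ∀ u, 0 ≤ p u
  hL : 0 ≤ L
  hker : ∀ u ∈ D, ∑ v ∈ D, p v * K v u ≤ L * p u
  hop : ∀ u, K o u ≤ p u

/-- the Euler functional -/
noncomputable def FF (μ : Measure (V → Bool)) (D : Finset V) (o : V) (t j : ℕ)
    (b : V → ℕ → ℕ → ℝ) : ℝ :=
  euler (mag μ D) ((1 / 2) ^ j) (fun l v => b v j l) (t * 2 ^ j) o

open Classical in
/-- replace the coordinates outside `A` by fresh noise -/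
noncomputable def mix (w : ℕ → ℕ → E → ℝ) (A : Finset V) (b : V → ℕ → ℕ → ℝ) (N : V → E) :
    V → ℕ → ℕ → ℝ :=
  fun v j l => if v ∈ A then b v j l else w j l (N v)

/-- the Euler functional averaged over the noise outside `A` -/
noncomputable def PhiF (μ : Measure (V → Bool)) (ρ : Measure E) (w : ℕ → ℕ → E → ℝ)
    (D A : Finset V) (o : V) (t j : ℕ) (b : V → ℕ → ℕ → ℝ) : ℝ :=
  ∫ N, FF μ D o t j (mix w A b N) ∂(Measure.infinitePi fun _ : V => ρ)

/-- the bound of the stability estimate -/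
noncomputable def GG (D : Finset V) (o : V) (p : V → ℝ) (L : ℝ) (t j : ℕ)
    (d : V → ℕ → ℕ → ℝ) : ℝ :=
  |d o j (t * 2 ^ j)| + Real.exp (L * t) *
    ∑ u ∈ D, p u * ((1 / 2) ^ j * ∑ l ∈ Finset.range (t * 2 ^ j), |d u j l|)

theorem eLpNorm_const_mul_abs {Ω : Type*} [MeasurableSpace Ω] {P : Measure Ω} {c : ℝ}
    (hc : 0 ≤ c) (f : Ω → ℝ) :
    eLpNorm (fun ω => c * |f ω|) 2 P = ENNReal.ofReal c * eLpNorm f 2 P := by
  have h1 : eLpNorm (fun ω => |f ω|) 2 P = eLpNorm f 2 P := eLpNorm_norm f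
  rw [← h1, ← Real.enorm_of_nonneg hc]
  exact eLpNorm_const_smul c (fun ω => |f ω|) 2 P

theorem eps_mul (t j : ℕ) : (1 / 2 : ℝ) ^ j * ((t * 2 ^ j : ℕ) : ℝ) = t := by
  push_cast
  rw [mul_comm, mul_assoc, ← mul_pow]
  norm_num

variable {μ : Measure (V → Bool)} {D : Finset V} {o : V} {K : V → V → ℝ} {p : V → ℝ} {L : ℝ}

omit [MeasurableSpace E] in
theorem FF_lip (h : Hyp μ D o K p L) (t j : ℕ) (b b' : V → ℕ → ℕ → ℝ) :
    |FF μ D o t j b - FF μ D o t j b'| ≤ GG D o p L t j (fun v j l => b v j l - b' v j l) := by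
  unfold FF GG
  exact euler_lip h.hlip h.hp h.hL h.hker h.ho (fun u _ => h.hop u) (by positivity)
    (fun l v => b v j l) (fun l v => b' v j l) (t * 2 ^ j) (eps_mul t j).le

theorem measurable_euler [IsFiniteMeasure μ] {Ω : Type*} [MeasurableSpace Ω] (ε : ℝ)
    {b : Ω → ℕ → V → ℝ} (hb : ∀ l v, Measurable fun ω => b ω l v) (k : ℕ) :
    ∀ v, Measurable fun ω => euler (mag μ D) ε (b ω) k v := by
  induction k with
  | zero => exact fun v => hb 0 v
  | succ k ih =>
    intro v
    have h1 : Measurable fun ω => euler (mag μ D) ε (b ω) k := measurable_pi_lambda _ ih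
    exact ((ih v).add (((measurable_mag μ D v).comp h1).const_mul ε)).add
      ((hb (k + 1) v).sub (hb k v))

theorem measurable_FF [IsFiniteMeasure μ] {Ω : Type*} [MeasurableSpace Ω] (t j : ℕ)
    {b : Ω → V → ℕ → ℕ → ℝ} (hb : ∀ v l, Measurable fun ω => b ω v j l) :
    Measurable fun ω => FF μ D o t j (b ω) := by
  unfold FF
  exact measurable_euler _ (fun l v => hb v l) _ o

omit [MeasurableSpace E] in
/-- at mesh times the process is the Euler scheme driven by `X - Riem` -/
theorem euler_eq {w : ℕ → ℕ → E → ℝ}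
    (D : Finset V) (j k : ℕ) (ω : Om V E) :
    ∀ v, euler (mag μ D) ((1 / 2) ^ j)
      (fun l v => X w v j l ω - Riem μ w D v j l 0 ω) k v = X w v j k ω := by
  induction k with
  | zero =>
    intro v
    show X w v j 0 ω - Riem μ w D v j 0 0 ω = _
    unfold Riem
    simp
  | succ k ih =>
    intro v
    show euler (mag μ D) ((1 / 2) ^ j) _ k v + (1 / 2) ^ j * mag μ D v
      (euler (mag μ D) ((1 / 2) ^ j) _ k) + _ = _
    have h1 : euler (mag μ D) ((1 / 2) ^ j)
      (fun l v => X w v j l ω - Riem μ w D v j l 0 ω) k = fun v => X w v j k ω := funext ih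
    rw [h1]
    have h2 : Riem μ w D v j (k + 1) 0 ω = Riem μ w D v j k 0 ω +
        (1 / 2) ^ j * mag μ D v (fun u => X w u j k ω) := by
      unfold Riem
      simp only [pow_zero, mul_one, add_zero]
      rw [Finset.sum_range_succ]
      rfl
    show X w v j k ω + (1 / 2) ^ j * mag μ D v (fun u => X w u j k ω) +
      ((X w v j (k + 1) ω - Riem μ w D v j (k + 1) 0 ω) -
        (X w v j k ω - Riem μ w D v j k 0 ω)) = _
    rw [h2]
    ring

/-- `L²` bound from the pointwise stability bound -/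
theorem eLpNorm_le_of_GG {Ω : Type*} [MeasurableSpace Ω] {P : Measure Ω} (ho : o ∈ D)
    (hp : ∀ u, 0 ≤ p u) {t j : ℕ} {d : Ω → V → ℕ → ℕ → ℝ}
    (hd : ∀ v l, AEStronglyMeasurable (fun ω => d ω v j l) P) {δ : ℝ} (hδ : 0 ≤ δ)
    (hdδ : ∀ u ∈ D, ∀ l ≤ t * 2 ^ j, eLpNorm (fun ω => d ω u j l) 2 P ≤ ENNReal.ofReal δ)
    {f : Ω → ℝ} (hf : ∀ ω, |f ω| ≤ GG D o p L t j (d ω)) :
    eLpNorm f 2 P ≤ ENNReal.ofReal (δ * (1 + Real.exp (L * t) * t * ∑ u ∈ D, p u)) := by
  have h1 : ∀ ω, GG D o p L t j (d ω) = |d ω o j (t * 2 ^ j)| +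
      ∑ u ∈ D, ∑ l ∈ Finset.range (t * 2 ^ j),
        (Real.exp (L * t) * p u * (1 / 2) ^ j) * |d ω u j l| := by
    intro ω
    unfold GG
    congr 1
    rw [Finset.mul_sum]
    refine Finset.sum_congr rfl fun u _ => ?_
    rw [← Finset.mul_sum]
    ring
  have h2 : eLpNorm f 2 P ≤ eLpNorm (fun ω => |d ω o j (t * 2 ^ j)| +
      ∑ u ∈ D, ∑ l ∈ Finset.range (t * 2 ^ j),
        (Real.exp (L * t) * p u * (1 / 2) ^ j) * |d ω u j l|) 2 P := by
    refine eLpNorm_mono_real fun ω => ?_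
    rw [Real.norm_eq_abs, ← h1]
    exact hf ω
  have habs : ∀ u l, eLpNorm (fun ω => |d ω u j l|) 2 P = eLpNorm (fun ω => d ω u j l) 2 P :=
    fun u l => eLpNorm_norm (fun ω => d ω u j l)
  have hm : ∀ u l, AEStronglyMeasurable (fun ω => |d ω u j l|) P := fun u l => (hd u l).norm
  have hm2 : ∀ u, ∀ l, AEStronglyMeasurable (fun ω =>
      (Real.exp (L * t) * p u * (1 / 2) ^ j) * |d ω u j l|) P := fun u l =>
    (hm u l).const_mul _
  have h3 : ∀ u ∈ D, eLpNorm (fun ω => ∑ l ∈ Finset.range (t * 2 ^ j),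
      (Real.exp (L * t) * p u * (1 / 2) ^ j) * |d ω u j l|) 2 P ≤
      ENNReal.ofReal (δ * (Real.exp (L * t) * t * p u)) := by
    intro u hu
    have e1 : (fun ω => ∑ l ∈ Finset.range (t * 2 ^ j),
        (Real.exp (L * t) * p u * (1 / 2) ^ j) * |d ω u j l|) =
        ∑ l ∈ Finset.range (t * 2 ^ j), fun ω =>
          (Real.exp (L * t) * p u * (1 / 2) ^ j) * |d ω u j l| := by
      ext ω
      rw [Finset.sum_apply]
    rw [e1]
    refine (eLpNorm_sum_le (fun l _ => hm2 u l) (by norm_num)).trans ?_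
    have e2 : ∀ l ∈ Finset.range (t * 2 ^ j), eLpNorm (fun ω =>
        (Real.exp (L * t) * p u * (1 / 2) ^ j) * |d ω u j l|) 2 P ≤
        ENNReal.ofReal (Real.exp (L * t) * p u * (1 / 2) ^ j * δ) := by
      intro l hl
      have hc : 0 ≤ Real.exp (L * t) * p u * (1 / 2) ^ j := by have := hp u; positivity
      rw [eLpNorm_const_mul_abs hc]
      have h9 := hdδ u hu l (Finset.mem_range.mp hl).le
      calc ENNReal.ofReal (Real.exp (L * t) * p u * (1 / 2) ^ j) *
            eLpNorm (fun ω => d ω u j l) 2 P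
          ≤ ENNReal.ofReal (Real.exp (L * t) * p u * (1 / 2) ^ j) * ENNReal.ofReal δ := by
            gcongr
        _ = _ := (ENNReal.ofReal_mul hc).symm
    refine (Finset.sum_le_sum e2).trans ?_
    rw [Finset.sum_const, Finset.card_range, nsmul_eq_mul, ← ENNReal.ofReal_natCast,
      ← ENNReal.ofReal_mul (by positivity)]
    refine ENNReal.ofReal_le_ofReal (le_of_eq ?_)
    have := eps_mul t j
    calc ((t * 2 ^ j : ℕ) : ℝ) * (Real.exp (L * t) * p u * (1 / 2) ^ j * δ)
        = δ * (Real.exp (L * t) * ((1 / 2 : ℝ) ^ j * ((t * 2 ^ j : ℕ) : ℝ)) * p u) := by ring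
      _ = _ := by rw [this]
  refine h2.trans ?_
  have hsm : AEStronglyMeasurable (fun ω => ∑ u ∈ D, ∑ l ∈ Finset.range (t * 2 ^ j),
        (Real.exp (L * t) * p u * (1 / 2) ^ j) * |d ω u j l|) P := by
    refine Finset.aestronglyMeasurable_fun_sum _ fun u _ => ?_
    exact Finset.aestronglyMeasurable_fun_sum _ fun l _ => hm2 u l
  refine (eLpNorm_add_le (hm o _) hsm (by norm_num)).trans ?_
  have h4 : eLpNorm (fun ω => ∑ u ∈ D, ∑ l ∈ Finset.range (t * 2 ^ j),
        (Real.exp (L * t) * p u * (1 / 2) ^ j) * |d ω u j l|) 2 P ≤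
      ENNReal.ofReal (∑ u ∈ D, δ * (Real.exp (L * t) * t * p u)) := by
    have e1 : (fun ω => ∑ u ∈ D, ∑ l ∈ Finset.range (t * 2 ^ j),
        (Real.exp (L * t) * p u * (1 / 2) ^ j) * |d ω u j l|) =
        ∑ u ∈ D, fun ω => ∑ l ∈ Finset.range (t * 2 ^ j),
          (Real.exp (L * t) * p u * (1 / 2) ^ j) * |d ω u j l| := by
      ext ω
      rw [Finset.sum_apply]
    rw [e1]
    refine (eLpNorm_sum_le (fun u _ => Finset.aestronglyMeasurable_fun_sum _ fun l _ => hm2 u l)
      (by norm_num)).trans ?_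
    rw [ENNReal.ofReal_sum_of_nonneg fun u _ => by have := hp u; positivity]
    exact Finset.sum_le_sum h3
  have h5 : eLpNorm (fun ω => |d ω o j (t * 2 ^ j)|) 2 P ≤ ENNReal.ofReal δ := by
    rw [habs]; exact hdδ o ho _ le_rfl
  refine (add_le_add h5 h4).trans ?_
  rw [← ENNReal.ofReal_add hδ (Finset.sum_nonneg fun u _ => by have := hp u; positivity)]
  refine ENNReal.ofReal_le_ofReal (le_of_eq ?_)
  rw [← Finset.mul_sum, ← Finset.mul_sum]
  ring

/-! ### growth and integrability -/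

theorem GG_nonneg {D : Finset V} (hp : ∀ u, 0 ≤ p u) (t j : ℕ) (d : V → ℕ → ℕ → ℝ) :
    0 ≤ GG D o p L t j d := by
  unfold GG
  refine add_nonneg (abs_nonneg _) (mul_nonneg (Real.exp_pos _).le
    (Finset.sum_nonneg fun u _ => mul_nonneg (hp u) (mul_nonneg (by positivity)
      (Finset.sum_nonneg fun l _ => abs_nonneg _))))

/-- functions bounded by the stability bound of square integrable paths are square integrable -/
theorem memLp_of_GG {Ω : Type*} [MeasurableSpace Ω] {P : Measure Ω} [IsFiniteMeasure P]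
    {t j : ℕ} {d : Ω → V → ℕ → ℕ → ℝ}
    (hd : ∀ v l, MemLp (fun ω => d ω v j l) 2 P) {f : Ω → ℝ} (hfm : AEStronglyMeasurable f P)
    {c : ℝ} (hf : ∀ ω, |f ω| ≤ c + GG D o p L t j (d ω)) : MemLp f 2 P := by
  have h1 : MemLp (fun ω => c + GG D o p L t j (d ω)) 2 P := by
    unfold GG
    refine (memLp_const c).add ((hd o _).abs.add ?_)
    refine MemLp.const_mul ?_ _
    refine memLp_finsetSum _ fun u _ => ?_
    refine MemLp.const_mul ?_ _
    refine MemLp.const_mul ?_ _
    exact memLp_finsetSum _ fun l _ => (hd u l).abs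
  exact h1.mono' hfm (Filter.Eventually.of_forall fun ω => by
    rw [Real.norm_eq_abs]; exact hf ω)

section Noise

variable {ρ : Measure E} {w : ℕ → ℕ → E → ℝ}

theorem memLp_w_eval [IsProbabilityMeasure ρ] (hw : IsDyadicBM ρ w) (v : V) (j l : ℕ) :
    MemLp (fun N : V → E => w j l (N v)) 2 (Measure.infinitePi fun _ : V => ρ) :=
  (memLp_w hw j l).comp_measurePreserving
    (measurePreserving_eval_infinitePi (fun _ : V => ρ) v)

/-- square integrability of the Euler functional of a path with square integrable coordinates -/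
theorem memLp_FF {Ω : Type*} [MeasurableSpace Ω] {P : Measure Ω} [IsFiniteMeasure P]
    [IsFiniteMeasure μ] (h : Hyp μ D o K p L) (t j : ℕ) {b : Ω → V → ℕ → ℕ → ℝ}
    (hbm : ∀ v l, Measurable fun ω => b ω v j l) (hb : ∀ v l, MemLp (fun ω => b ω v j l) 2 P) :
    MemLp (fun ω => FF μ D o t j (b ω)) 2 P := by
  refine memLp_of_GG (D := D) (o := o) (p := p) (L := L) (t := t) (j := j) (d := b)
    (c := |FF μ D o t j fun _ _ _ => 0|) hb
    (measurable_FF t j hbm).aestronglyMeasurable fun ω => ?_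
  have h1 := FF_lip h t j (b ω) (fun _ _ _ => 0)
  simp only [sub_zero] at h1
  have h2 : |FF μ D o t j (b ω)| ≤ |FF μ D o t j (b ω) - FF μ D o t j fun _ _ _ => 0| +
      |FF μ D o t j fun _ _ _ => 0| := by
    have := abs_add_le (FF μ D o t j (b ω) - FF μ D o t j fun _ _ _ => 0)
      (FF μ D o t j fun _ _ _ => 0)
    simpa using this
  linarith

theorem measurable_mix (hw : IsDyadicBM ρ w) {Ω : Type*} [MeasurableSpace Ω] (A : Finset V)
    {b : Ω → V → ℕ → ℕ → ℝ} {N : Ω → V → E} {j : ℕ} (hb : ∀ v l, Measurable fun ω => b ω v j l)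
    (hN : ∀ v, Measurable fun ω => N ω v) (v : V) (l : ℕ) :
    Measurable fun ω => mix w A (b ω) (N ω) v j l := by
  unfold mix
  split_ifs
  · exact hb v l
  · exact (hw.meas j l).comp (hN v)

theorem memLp_mix [IsProbabilityMeasure ρ] (hw : IsDyadicBM ρ w) (A : Finset V)
    (b : V → ℕ → ℕ → ℝ) (v : V) (j l : ℕ) :
    MemLp (fun N : V → E => mix w A b N v j l) 2 (Measure.infinitePi fun _ : V => ρ) := by
  unfold mix
  split_ifs
  · exact memLp_const _
  · exact memLp_w_eval hw v j l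

theorem memLp_FF_mix [IsProbabilityMeasure ρ] [IsFiniteMeasure μ] (hw : IsDyadicBM ρ w)
    (h : Hyp μ D o K p L) (A : Finset V) (t j : ℕ) (b : V → ℕ → ℕ → ℝ) :
    MemLp (fun N : V → E => FF μ D o t j (mix w A b N)) 2 (Measure.infinitePi fun _ : V => ρ) :=
  memLp_FF h t j (fun v l => measurable_mix hw A (b := fun _ => b) (N := fun N => N)
    (fun _ _ => measurable_const) (fun v => measurable_pi_apply v) v l)
    (fun v l => memLp_mix hw A b v j l)

/-- stability of the averaged functional -/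
theorem PhiF_lip [IsProbabilityMeasure ρ] [IsFiniteMeasure μ] (hw : IsDyadicBM ρ w)
    (h : Hyp μ D o K p L) {A : Finset V} (hA : A ⊆ D) (hoA : o ∈ A) (t j : ℕ)
    (b b' : V → ℕ → ℕ → ℝ) :
    |PhiF μ ρ w D A o t j b - PhiF μ ρ w D A o t j b'| ≤
      GG A o p L t j (fun v j l => b v j l - b' v j l) := by
  unfold PhiF
  have i1 := (memLp_FF_mix (μ := μ) hw h A t j b).integrable (by norm_num)
  have i2 := (memLp_FF_mix (μ := μ) hw h A t j b').integrable (by norm_num)
  rw [← integral_sub i1 i2]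
  have key : ∀ N : V → E, |FF μ D o t j (mix w A b N) - FF μ D o t j (mix w A b' N)| ≤
      GG A o p L t j (fun v j l => b v j l - b' v j l) := by
    intro N
    refine (FF_lip h t j _ _).trans (le_of_eq ?_)
    unfold GG mix
    simp only [hoA, if_true]
    congr 1
    congr 1
    rw [← Finset.sum_subset hA]
    · exact Finset.sum_congr rfl fun u hu => by simp [hu]
    · intro u _ hu
      simp [hu]
  calc |∫ N : V → E, (FF μ D o t j (mix w A b N) - FF μ D o t j (mix w A b' N))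
          ∂(Measure.infinitePi fun _ : V => ρ)|
      ≤ ∫ N : V → E, |FF μ D o t j (mix w A b N) - FF μ D o t j (mix w A b' N)|
          ∂(Measure.infinitePi fun _ : V => ρ) := abs_integral_le_integral_abs
    _ ≤ ∫ _N : V → E, GG A o p L t j (fun v j l => b v j l - b' v j l)
          ∂(Measure.infinitePi fun _ : V => ρ) :=
        integral_mono (i1.sub i2).abs (integrable_const _) key
    _ = _ := by simp

theorem measurable_PhiF [IsProbabilityMeasure ρ] [IsFiniteMeasure μ] (hw : IsDyadicBM ρ w)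
    (D A : Finset V) (o : V) (t j : ℕ) : Measurable (PhiF μ ρ w D A o t j) := by
  unfold PhiF
  have h1 : Measurable fun q : (V → ℕ → ℕ → ℝ) × (V → E) => FF μ D o t j (mix w A q.1 q.2) :=
    measurable_FF t j fun v l => measurable_mix hw A
      (fun v l => (measurable_pi_apply l).comp ((measurable_pi_apply j).comp
        ((measurable_pi_apply v).comp measurable_fst)))
      (fun v => (measurable_pi_apply v).comp measurable_snd) v l
  exact (h1.stronglyMeasurable.integral_prod_right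
    (ν := Measure.infinitePi fun _ : V => ρ)).measurable

open Classical in
/-- Efron-Stein for the Euler functional -/
theorem es_bound [IsProbabilityMeasure ρ] [IsFiniteMeasure μ] (hw : IsDyadicBM ρ w)
    (h : Hyp μ D o K p L) {A : Finset V} (hA : A ⊆ D) (hoA : o ∈ A) (t j : ℕ) :
    ∫ N : V → E, (FF μ D o t j (fun v j l => w j l (N v)) -
        PhiF μ ρ w D A o t j (fun v j l => w j l (N v))) ^ 2
        ∂(Measure.infinitePi fun _ : V => ρ) ≤
      (4 * (t : ℝ) ^ 3 * Real.exp (L * t) ^ 2) * ∑ u ∈ D \ A, p u ^ 2 := by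
  let F : (V → E) → ℝ := fun N => FF μ D o t j (fun v j l => w j l (N v))
  have hFm : Measurable F := measurable_FF t j fun v l =>
    (hw.meas j l).comp (measurable_pi_apply v)
  have hF2 : MemLp F 2 (Measure.infinitePi fun _ : V => ρ) := by
    refine memLp_FF h t j (fun v l => (hw.meas j l).comp (measurable_pi_apply v)) fun v l => ?_
    exact memLp_w_eval hw v j l
  have hdep : ∀ N N' : V → E, (∀ v ∈ D, N v = N' v) → F N = F N' := by
    intro N N' hNN
    have h1 := FF_lip h t j (fun v j l => w j l (N v)) (fun v j l => w j l (N' v))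
    have h2 : GG D o p L t j (fun v j l => w j l (N v) - w j l (N' v)) = 0 := by
      unfold GG
      beta_reduce
      rw [hNN o h.ho, sub_self, abs_zero, zero_add, Finset.sum_eq_zero, mul_zero]
      intro u hu
      rw [hNN u hu]
      simp
    rw [h2] at h1
    exact sub_eq_zero.mp (abs_nonpos_iff.mp h1)
  let hh : V → E → E → ℝ := fun v e e' => Real.exp (L * t) *
    (p v * ((1 / 2) ^ j * ∑ l ∈ Finset.range (t * 2 ^ j), |w j l e - w j l e'|))
  have hhm : ∀ v ∈ D \ A, MemLp (Function.uncurry (hh v)) 2 (ρ.prod ρ) := by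
    intro v _
    have h1 : ∀ l, MemLp (fun q : E × E => w j l q.1 - w j l q.2) 2 (ρ.prod ρ) := fun l =>
      ((memLp_w hw j l).comp_measurePreserving measurePreserving_fst).sub
        ((memLp_w hw j l).comp_measurePreserving measurePreserving_snd)
    refine MemLp.const_mul ?_ _
    refine MemLp.const_mul ?_ _
    refine MemLp.const_mul ?_ _
    exact memLp_finsetSum _ fun l _ => (h1 l).abs
  have hlip : ∀ v ∈ D \ A, ∀ N N' : V → E, (∀ u, u ≠ v → N u = N' u) →
      |F N - F N'| ≤ hh v (N v) (N' v) := by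
    intro v hv N N' hNN
    refine (FF_lip h t j _ _).trans (le_of_eq ?_)
    rw [Finset.mem_sdiff] at hv
    have hov : o ≠ v := fun e => hv.2 (e ▸ hoA)
    unfold GG
    beta_reduce
    rw [hNN o hov, sub_self, abs_zero, zero_add, Finset.sum_eq_single v]
    · intro u _ huv
      rw [hNN u huv]
      simp
    · exact fun hvn => absurd hv.1 hvn
  have hES := efron_stein ρ D A hA F hFm hF2 hdep hh hhm hlip
  have hPhi : ∀ N : V → E, ∫ N', F (fun v => if v ∈ A then N v else N' v)
      ∂(Measure.infinitePi fun _ : V => ρ) = PhiF μ ρ w D A o t j (fun v j l => w j l (N v)) := by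
    intro N
    unfold PhiF
    refine integral_congr_ae (Filter.Eventually.of_forall fun N' => ?_)
    show FF μ D o t j _ = FF μ D o t j _
    congr 1
    ext v j l
    unfold mix
    by_cases hv : v ∈ A
    · simp only [hv, if_true]
    · simp only [hv, if_false]
  simp_rw [hPhi] at hES
  refine hES.trans ?_
  rw [Finset.mul_sum]
  refine Finset.sum_le_sum fun v _ => ?_
  -- the second moment of `hh v`
  have h1 : ∀ q : E × E, (hh v q.1 q.2) ^ 2 ≤ (Real.exp (L * t) ^ 2 * p v ^ 2 * t * (1 / 2) ^ j) *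
      ∑ l ∈ Finset.range (t * 2 ^ j), (2 * (w j l q.1) ^ 2 + 2 * (w j l q.2) ^ 2) := by
    intro q
    have e1 := sq_sum_le_card_mul_sum_sq (s := Finset.range (t * 2 ^ j))
      (f := fun l => |w j l q.1 - w j l q.2|)
    rw [Finset.card_range] at e1
    have e2 : ∑ l ∈ Finset.range (t * 2 ^ j), |w j l q.1 - w j l q.2| ^ 2 ≤
        ∑ l ∈ Finset.range (t * 2 ^ j), (2 * (w j l q.1) ^ 2 + 2 * (w j l q.2) ^ 2) := by
      refine Finset.sum_le_sum fun l _ => ?_
      rw [sq_abs]
      nlinarith [sq_nonneg (w j l q.1 + w j l q.2)]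
    have e3 : (hh v q.1 q.2) ^ 2 = (Real.exp (L * t) ^ 2 * p v ^ 2 * ((1 / 2) ^ j) ^ 2) *
        (∑ l ∈ Finset.range (t * 2 ^ j), |w j l q.1 - w j l q.2|) ^ 2 := by
      simp only [hh]
      ring
    rw [e3]
    calc _ ≤ (Real.exp (L * t) ^ 2 * p v ^ 2 * ((1 / 2) ^ j) ^ 2) *
          (((t * 2 ^ j : ℕ) : ℝ) *
            ∑ l ∈ Finset.range (t * 2 ^ j), (2 * (w j l q.1) ^ 2 + 2 * (w j l q.2) ^ 2)) := by
          refine mul_le_mul_of_nonneg_left (e1.trans ?_) (by positivity)
          exact mul_le_mul_of_nonneg_left e2 (by positivity)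
      _ = (Real.exp (L * t) ^ 2 * p v ^ 2 * ((1 / 2 : ℝ) ^ j * ((t * 2 ^ j : ℕ) : ℝ)) *
            (1 / 2) ^ j) *
            ∑ l ∈ Finset.range (t * 2 ^ j), (2 * (w j l q.1) ^ 2 + 2 * (w j l q.2) ^ 2) := by
          ring
      _ = _ := by rw [eps_mul]
  have hi1 : ∀ l, Integrable (fun q : E × E => (w j l q.1) ^ 2) (ρ.prod ρ) := fun l =>
    ((memLp_w hw j l).integrable_sq).comp_fst ρ
  have hi2 : ∀ l, Integrable (fun q : E × E => (w j l q.2) ^ 2) (ρ.prod ρ) := fun l =>
    ((memLp_w hw j l).integrable_sq).comp_snd ρ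
  have hi : ∀ l, Integrable (fun q : E × E => 2 * (w j l q.1) ^ 2 + 2 * (w j l q.2) ^ 2)
      (ρ.prod ρ) := fun l => ((hi1 l).const_mul 2).add ((hi2 l).const_mul 2)
  have hv2 : ∀ l : ℕ, ∫ q : E × E, (2 * (w j l q.1) ^ 2 + 2 * (w j l q.2) ^ 2) ∂(ρ.prod ρ) =
      (4 : ℝ) * ((l : ℝ) * (1 / 2 : ℝ) ^ j) := by
    intro l
    rw [integral_add ((hi1 l).const_mul 2) ((hi2 l).const_mul 2), integral_const_mul,
      integral_const_mul]
    have a1 : ∫ q : E × E, (w j l q.1) ^ 2 ∂(ρ.prod ρ) = (l : ℝ) * (1 / 2 : ℝ) ^ j := by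
      rw [integral_fun_fst (fun e => (w j l e) ^ 2), integral_w_sq hw]
      simp
    have a2 : ∫ q : E × E, (w j l q.2) ^ 2 ∂(ρ.prod ρ) = (l : ℝ) * (1 / 2 : ℝ) ^ j := by
      rw [integral_fun_snd (fun e => (w j l e) ^ 2), integral_w_sq hw]
      simp
    rw [a1, a2]
    ring
  calc ∫ q : E × E, (hh v q.1 q.2) ^ 2 ∂(ρ.prod ρ)
      ≤ ∫ q : E × E, (Real.exp (L * t) ^ 2 * p v ^ 2 * t * (1 / 2) ^ j) *
          ∑ l ∈ Finset.range (t * 2 ^ j), (2 * (w j l q.1) ^ 2 + 2 * (w j l q.2) ^ 2)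
          ∂(ρ.prod ρ) := by
        refine integral_mono_of_nonneg (Filter.Eventually.of_forall fun q => sq_nonneg _) ?_
          (Filter.Eventually.of_forall h1)
        exact (integrable_finsetSum _ fun l _ => hi l).const_mul _
    _ = (Real.exp (L * t) ^ 2 * p v ^ 2 * t * (1 / 2) ^ j) *
          ∑ l ∈ Finset.range (t * 2 ^ j), (4 : ℝ) * ((l : ℝ) * (1 / 2 : ℝ) ^ j) := by
        rw [integral_const_mul, integral_finsetSum _ fun l _ => hi l]
        simp_rw [hv2]
    _ ≤ (Real.exp (L * t) ^ 2 * p v ^ 2 * t * (1 / 2) ^ j) *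
          ∑ _l ∈ Finset.range (t * 2 ^ j), 4 * (t : ℝ) := by
        refine mul_le_mul_of_nonneg_left (Finset.sum_le_sum fun l hl => ?_) (by positivity)
        have hl' : (l : ℝ) ≤ ((t * 2 ^ j : ℕ) : ℝ) := by
          exact_mod_cast (Finset.mem_range.mp hl).le
        have := mul_le_mul_of_nonneg_left hl' (show (0 : ℝ) ≤ (1 / 2) ^ j by positivity)
        rw [eps_mul] at this
        linarith
    _ = _ := by
        rw [Finset.sum_const, Finset.card_range, nsmul_eq_mul]
        have := eps_mul t j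
        calc (Real.exp (L * t) ^ 2 * p v ^ 2 * t * (1 / 2) ^ j) *
              (((t * 2 ^ j : ℕ) : ℝ) * (4 * (t : ℝ)))
            = (Real.exp (L * t) ^ 2 * p v ^ 2 * t) *
              (((1 / 2 : ℝ) ^ j * ((t * 2 ^ j : ℕ) : ℝ)) * (4 * (t : ℝ))) := by ring
          _ = _ := by rw [this]; ring

theorem eLpNorm_le_sqrt {Ω : Type*} [MeasurableSpace Ω] {P : Measure Ω} {f : Ω → ℝ}
    (hf : MemLp f 2 P) {c : ℝ} (h : ∫ ω, f ω ^ 2 ∂P ≤ c) :
    eLpNorm f 2 P ≤ ENNReal.ofReal (√c) := by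
  rw [hf.eLpNorm_eq_integral_rpow_norm (by norm_num) (by norm_num)]
  refine ENNReal.ofReal_le_ofReal ?_
  have h1 : ∫ a, ‖f a‖ ^ (2 : ℝ≥0∞).toReal ∂P = ∫ ω, f ω ^ 2 ∂P := by
    refine integral_congr_ae (Filter.Eventually.of_forall fun ω => ?_)
    show ‖f ω‖ ^ (2 : ℝ≥0∞).toReal = f ω ^ 2
    rw [ENNReal.toReal_ofNat, Real.rpow_ofNat, Real.norm_eq_abs, sq_abs]
  rw [h1, ENNReal.toReal_ofNat, Real.sqrt_eq_rpow]
  have h2 : (2 : ℝ)⁻¹ = 1 / 2 := by norm_num
  rw [h2]
  exact Real.rpow_le_rpow (integral_nonneg fun ω => sq_nonneg _) h (by norm_num)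

/-- the functionals only depend on the coordinates in `D` -/
theorem FF_congr (h : Hyp μ D o K p L) (t j : ℕ) {b b' : V → ℕ → ℕ → ℝ}
    (hb : ∀ v ∈ D, ∀ l ≤ t * 2 ^ j, b v j l = b' v j l) : FF μ D o t j b = FF μ D o t j b' := by
  have h1 := FF_lip h t j b b'
  have h2 : GG D o p L t j (fun v j l => b v j l - b' v j l) = 0 := by
    unfold GG
    beta_reduce
    rw [hb o h.ho _ le_rfl, sub_self, abs_zero, zero_add, Finset.sum_eq_zero, mul_zero]
    intro u hu
    rw [Finset.sum_eq_zero, mul_zero, mul_zero]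
    intro l hl
    rw [hb u hu l (Finset.mem_range.mp hl).le, sub_self, abs_zero]
  rw [h2] at h1
  exact sub_eq_zero.mp (abs_nonpos_iff.mp h1)

theorem PhiF_congr [IsProbabilityMeasure ρ] [IsFiniteMeasure μ] (hw : IsDyadicBM ρ w)
    (h : Hyp μ D o K p L) {A : Finset V} (hA : A ⊆ D) (hoA : o ∈ A) (t j : ℕ)
    {b b' : V → ℕ → ℕ → ℝ} (hb : ∀ v ∈ D, ∀ l ≤ t * 2 ^ j, b v j l = b' v j l) :
    PhiF μ ρ w D A o t j b = PhiF μ ρ w D A o t j b' := by
  have h1 := PhiF_lip (μ := μ) hw h hA hoA t j b b'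
  have h2 : GG A o p L t j (fun v j l => b v j l - b' v j l) = 0 := by
    unfold GG
    beta_reduce
    rw [hb o (hA hoA) _ le_rfl, sub_self, abs_zero, zero_add, Finset.sum_eq_zero, mul_zero]
    intro u hu
    rw [Finset.sum_eq_zero, mul_zero, mul_zero]
    intro l hl
    rw [hb u (hA hu) l (Finset.mem_range.mp hl).le, sub_self, abs_zero]
  rw [h2] at h1
  exact sub_eq_zero.mp (abs_nonpos_iff.mp h1)

end Noise

section Main

variable {ρ : Measure E} {w : ℕ → ℕ → E → ℝ} [IsProbabilityMeasure μ] [IsProbabilityMeasure ρ]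
  {S : Finset V → V → ℕ → ℕ → Om V E → ℝ} {T : V → ℕ → ℕ → Om V E → ℝ}

/-- (E2) discretization error -/
theorem step_mesh (hw : IsDyadicBM ρ w) (hS : IsInnov μ ρ w S T) (h : Hyp μ D o K p L)
    (t j : ℕ) :
    eLpNorm (fun ω : Om V E => X w o 0 t ω -
      FF μ D o t j (fun v j l => X w v j l ω - S D v j l ω)) 2 (PP μ ρ) ≤
      ENNReal.ofReal ((1 / 2) ^ j * (1 + Real.exp (L * t) * t * ∑ u ∈ D, p u)) := by
  refine eLpNorm_le_of_GG (t := t) (j := j)
    (d := fun ω v j l => S D v j l ω - Riem μ w D v j l 0 ω) h.ho h.hp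
    ?_ (by positivity) ?_ (L := L) ?_
  · intro v l
    refine ((hS.meas D v j l).sub ?_).aestronglyMeasurable
    exact Finset.measurable_sum _ fun i _ => (measurable_M hw.meas D v _ i).const_mul _
  · intro u hu l _
    exact hS.approx D u hu j l 0
  · intro ω
    have h1 : X w o 0 t ω = FF μ D o t j (fun v j l => X w v j l ω - Riem μ w D v j l 0 ω) := by
      unfold FF
      rw [euler_eq D j (t * 2 ^ j) ω o]
      have := X_cons_pow hw o 0 t j ω
      rw [zero_add] at this
      exact this.symm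
    rw [h1]
    have h2 := FF_lip h t j (fun v j l => X w v j l ω - Riem μ w D v j l 0 ω)
      (fun v j l => X w v j l ω - S D v j l ω)
    refine h2.trans (le_of_eq ?_)
    congr 1
    ext v j l
    ring

open Classical in
/-- (E3) Efron-Stein under the planted law -/
theorem step_es (hw : IsDyadicBM ρ w) (hS : IsInnov μ ρ w S T) (h : Hyp μ D o K p L)
    {A : Finset V} (hA : A ⊆ D) (hoA : o ∈ A) (t j : ℕ) :
    eLpNorm (fun ω : Om V E => FF μ D o t j (fun v j l => X w v j l ω - S D v j l ω) -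
      PhiF μ ρ w D A o t j (fun v j l => X w v j l ω - S D v j l ω)) 2 (PP μ ρ) ≤
      ENNReal.ofReal (√((4 * (t : ℝ) ^ 3 * Real.exp (L * t) ^ 2) * ∑ u ∈ D \ A, p u ^ 2)) := by
  set n := t * 2 ^ j with hn
  -- the extension map
  let e : (D → Fin (n + 1) → ℝ) → V → ℕ → ℕ → ℝ := fun x v _ l =>
    if hv : v ∈ D then (if hl : l < n + 1 then x ⟨v, hv⟩ ⟨l, hl⟩ else 0) else 0
  have he : ∀ v l, Measurable fun x => e x v j l := by
    intro v l
    by_cases hv : v ∈ D
    · by_cases hl : l < n + 1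
      · simp only [e, hv, hl, dif_pos]
        exact (measurable_pi_apply _).comp (measurable_pi_apply _)
      · simp only [e, hv, hl, dif_pos, dif_neg, not_false_iff]
        exact measurable_const
    · simp only [e, hv, dif_neg, not_false_iff]
      exact measurable_const
  have he' : Measurable e := by
    refine measurable_pi_lambda _ fun v => measurable_pi_lambda _ fun _ =>
      measurable_pi_lambda _ fun l => he v l
  let g : (D → Fin (n + 1) → ℝ) → ℝ := fun x => FF μ D o t j (e x) - PhiF μ ρ w D A o t j (e x)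
  have hg : Measurable g := (measurable_FF t j he).sub
    ((measurable_PhiF hw D A o t j).comp he')
  have hlaw := law_fin hw hS D j n
  have hR : Measurable (fun (ω : Om V E) (v : D) (k : Fin (n + 1)) =>
      X w v.1 j k ω - S D v.1 j k ω) :=
    measurable_pi_lambda _ fun v => measurable_pi_lambda _ fun k =>
      (measurable_X hw.meas _ _ _).sub (hS.meas _ _ _ _)
  have hR' : Measurable (fun (N : V → E) (v : D) (k : Fin (n + 1)) => w j k (N v.1)) :=
    measurable_pi_lambda _ fun v => measurable_pi_lambda _ fun k =>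
      (hw.meas j k).comp (measurable_pi_apply v.1)
  have h1 : (fun ω : Om V E => FF μ D o t j (fun v j l => X w v j l ω - S D v j l ω) -
      PhiF μ ρ w D A o t j (fun v j l => X w v j l ω - S D v j l ω)) =
      g ∘ (fun (ω : Om V E) (v : D) (k : Fin (n + 1)) => X w v.1 j k ω - S D v.1 j k ω) := by
    ext ω
    simp only [Function.comp_apply, g]
    have hag : ∀ v ∈ D, ∀ l ≤ t * 2 ^ j, (fun v j l => X w v j l ω - S D v j l ω) v j l =
        e (fun (v : D) (k : Fin (n + 1)) => X w v.1 j k ω - S D v.1 j k ω) v j l := by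
      intro v hv l hl
      have hl' : l < n + 1 := Nat.lt_succ_of_le hl
      simp only [e, hv, dif_pos, hl']
    rw [FF_congr h t j hag, PhiF_congr hw h hA hoA t j hag]
  have h2 : (fun N : V → E => FF μ D o t j (fun v j l => w j l (N v)) -
      PhiF μ ρ w D A o t j (fun v j l => w j l (N v))) =
      g ∘ (fun (N : V → E) (v : D) (k : Fin (n + 1)) => w j k (N v.1)) := by
    ext N
    simp only [Function.comp_apply, g]
    have hag : ∀ v ∈ D, ∀ l ≤ t * 2 ^ j, (fun v j l => w j l (N v)) v j l =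
        e (fun (v : D) (k : Fin (n + 1)) => w j k (N v.1)) v j l := by
      intro v hv l hl
      have hl' : l < n + 1 := Nat.lt_succ_of_le hl
      simp only [e, hv, dif_pos, hl']
    rw [FF_congr h t j hag, PhiF_congr hw h hA hoA t j hag]
  rw [h1, ← eLpNorm_map_measure hg.aestronglyMeasurable hR.aemeasurable, hlaw,
    eLpNorm_map_measure hg.aestronglyMeasurable hR'.aemeasurable, ← h2]
  have hF2 : MemLp (fun N : V → E => FF μ D o t j (fun v j l => w j l (N v))) 2
      (Measure.infinitePi fun _ : V => ρ) :=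
    memLp_FF h t j (fun v l => (hw.meas j l).comp (measurable_pi_apply v)) fun v l =>
      memLp_w_eval hw v j l
  have hP2 : MemLp (fun N : V → E => PhiF μ ρ w D A o t j (fun v j l => w j l (N v))) 2
      (Measure.infinitePi fun _ : V => ρ) := by
    refine memLp_of_GG (D := A) (o := o) (p := p) (L := L) (t := t) (j := j)
      (d := fun N v j l => w j l (N v)) (c := |PhiF μ ρ w D A o t j fun _ _ _ => 0|)
      (fun v l => memLp_w_eval hw v j l) ?_ fun N => ?_
    · refine ((measurable_PhiF hw D A o t j).comp ?_).aestronglyMeasurable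
      exact measurable_pi_lambda _ fun v => measurable_pi_lambda _ fun j =>
        measurable_pi_lambda _ fun l => (hw.meas j l).comp (measurable_pi_apply v)
    · have h3 := PhiF_lip (μ := μ) hw h hA hoA t j (fun v j l => w j l (N v)) (fun _ _ _ => 0)
      simp only [sub_zero] at h3
      have h4 := abs_add_le (PhiF μ ρ w D A o t j (fun v j l => w j l (N v)) -
        PhiF μ ρ w D A o t j fun _ _ _ => 0) (PhiF μ ρ w D A o t j fun _ _ _ => 0)
      rw [sub_add_cancel] at h4
      linarith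
  exact eLpNorm_le_sqrt (hF2.sub hP2) (es_bound hw h hA hoA t j)

/-- (E4) from the finite to the infinite volume -/
theorem step_vol (hw : IsDyadicBM ρ w) (hS : IsInnov μ ρ w S T) (h : Hyp μ D o K p L)
    {A : Finset V} (hA : A ⊆ D) (hoA : o ∈ A) (t j : ℕ) {δ : ℝ} (hδ : 0 ≤ δ)
    (hSδ : ∀ u ∈ A, ∀ l ≤ t * 2 ^ j,
      eLpNorm (fun ω => S D u j l ω - T u j l ω) 2 (PP μ ρ) ≤ ENNReal.ofReal δ) :
    eLpNorm (fun ω : Om V E => PhiF μ ρ w D A o t j (fun v j l => X w v j l ω - S D v j l ω) -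
      PhiF μ ρ w D A o t j (fun v j l => X w v j l ω - T v j l ω)) 2 (PP μ ρ) ≤
      ENNReal.ofReal (δ * (1 + Real.exp (L * t) * t * ∑ u ∈ A, p u)) := by
  refine eLpNorm_le_of_GG (t := t) (j := j) (d := fun ω v j l => T v j l ω - S D v j l ω)
    hoA h.hp ?_ hδ ?_ (L := L) ?_
  · exact fun v l => ((hS.measInf v j l).sub (hS.meas D v j l)).aestronglyMeasurable
  · intro u hu l hl
    have h1 : eLpNorm (fun ω => T u j l ω - S D u j l ω) 2 (PP μ ρ) =
        eLpNorm (fun ω => S D u j l ω - T u j l ω) 2 (PP μ ρ) :=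
      eLpNorm_sub_comm (T u j l) (S D u j l) 2 (PP μ ρ)
    rw [h1]
    exact hSδ u hu l hl
  · intro ω
    refine (PhiF_lip (μ := μ) hw h hA hoA t j _ _).trans (le_of_eq ?_)
    congr 1
    ext v j l
    ring

end Main

end Est

open Est in
theorem main_est {V E : Type*} [Countable V] [MeasurableSpace E] {μ : Measure (V → Bool)}
    [IsProbabilityMeasure μ] {ρ : Measure E} {w : ℕ → ℕ → E → ℝ} (hw : IsDyadicBM ρ w)
    {S : Finset V → V → ℕ → ℕ → Om V E → ℝ} {T : V → ℕ → ℕ → Om V E → ℝ}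
    (hS : IsInnov μ ρ w S T) {D : ℕ → Finset V} (hmono : Monotone D) {o : V}
    (ho : ∀ n, o ∈ D n) (hexh : ∀ v, ∃ n, v ∈ D n) {K : V → V → ℝ} (hK : ∀ u v, 0 ≤ K u v)
    (hlip : ∀ n, ∀ v ∈ D n, ∀ x y,
      |mag μ (D n) v x - mag μ (D n) v y| ≤ ∑ u ∈ D n, K v u * |x u - y u|)
    {p : V → ℝ} (hp : ∀ u, 0 ≤ p u) {L : ℝ} (hL : 0 ≤ L)
    (hker : ∀ n, ∀ u ∈ D n, ∑ v ∈ D n, p v * K v u ≤ L * p u) (hop : ∀ u, K o u ≤ p u)
    (hsum : Summable fun u => p u ^ 2) (t : ℕ) :
    ∃ Ψ : ℕ → (V → ℕ → ℕ → ℝ) → ℝ, (∀ n, Measurable (Ψ n)) ∧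
      Tendsto (fun n => eLpNorm (fun ω => X w o 0 t ω -
        Ψ n (fun v j k => X w v j k ω - T v j k ω)) 2 (PP μ ρ)) atTop (𝓝 0) := by
  classical
  have := hw.prob
  have hH : ∀ n, Hyp μ (D n) o K p L := fun n => ⟨ho n, hlip n, hp, hL, hker n, hop⟩
  -- any finite set is contained in some `D n`
  have hfin : ∀ s : Finset V, ∃ n, s ⊆ D n := by
    intro s
    induction s using Finset.induction_on with
    | empty => exact ⟨0, Finset.empty_subset _⟩
    | insert a s _ ih =>
      obtain ⟨n, hn⟩ := ih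
      obtain ⟨m, hm⟩ := hexh a
      refine ⟨max n m, Finset.insert_subset ?_ ?_⟩
      · exact hmono (le_max_right n m) hm
      · exact hn.trans (hmono (le_max_left n m))
  have key : ∀ ε : ℝ, 0 < ε → ∃ Ψ : (V → ℕ → ℕ → ℝ) → ℝ, Measurable Ψ ∧
      eLpNorm (fun ω => X w o 0 t ω - Ψ (fun v j k => X w v j k ω - T v j k ω)) 2 (PP μ ρ) ≤
        ENNReal.ofReal ε := by
    intro ε hε
    set C : ℝ := 4 * (t : ℝ) ^ 3 * Real.exp (L * t) ^ 2 with hC
    have hC0 : 0 ≤ C := by positivity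
    -- choice of `r`
    obtain ⟨r, hr⟩ : ∃ r, ∀ n, √(C * ∑ u ∈ D n \ D r, p u ^ 2) ≤ ε / 3 := by
      have h1 := hsum.vanishing (Metric.ball_mem_nhds (0 : ℝ)
        (show 0 < (ε / 3) ^ 2 / (C + 1) by positivity))
      obtain ⟨s, hs⟩ := h1
      obtain ⟨r, hr⟩ := hfin s
      refine ⟨r, fun n => ?_⟩
      have h2 := hs (D n \ D r) (by
        rw [Finset.disjoint_left]
        intro u hu hus
        exact (Finset.mem_sdiff.mp hu).2 (hr hus))
      rw [Metric.mem_ball, dist_zero_right, Real.norm_of_nonneg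
        (Finset.sum_nonneg fun u _ => sq_nonneg _)] at h2
      rw [Real.sqrt_le_left (by positivity)]
      have h3 : (C + 1) * ∑ u ∈ D n \ D r, p u ^ 2 ≤ (ε / 3) ^ 2 := by
        rw [lt_div_iff₀ (by positivity)] at h2
        linarith
      have h4 : 0 ≤ ∑ u ∈ D n \ D r, p u ^ 2 := Finset.sum_nonneg fun u _ => sq_nonneg _
      nlinarith
    -- choice of `n`
    set δ : ℝ := (ε / 3) / (1 + Real.exp (L * t) * t * ∑ u ∈ D r, p u) with hδ
    have hden : 0 < 1 + Real.exp (L * t) * t * ∑ u ∈ D r, p u := by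
      have := Finset.sum_nonneg fun u (_ : u ∈ D r) => hp u
      positivity
    have hδ0 : 0 < δ := by positivity
    choose D0 hD0 using fun u => hS.unif u t δ hδ0
    obtain ⟨n0, hn0⟩ := hfin ((D r).biUnion D0)
    set n := max r n0 with hn
    have hAD : D r ⊆ D n := hmono (le_max_left _ _)
    have hDn : ∀ u ∈ D r, D0 u ⊆ D n := fun u hu =>
      ((Finset.subset_biUnion_of_mem D0 hu).trans hn0).trans (hmono (le_max_right _ _))
    -- choice of `j`
    obtain ⟨j, hj⟩ : ∃ j : ℕ, (1 / 2 : ℝ) ^ j *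
        (1 + Real.exp (L * t) * t * ∑ u ∈ D n, p u) ≤ ε / 3 := by
      have hden' : 0 < 1 + Real.exp (L * t) * t * ∑ u ∈ D n, p u := by
        have := Finset.sum_nonneg fun u (_ : u ∈ D n) => hp u
        positivity
      obtain ⟨j, hj⟩ := exists_pow_lt_of_lt_one
        (show 0 < (ε / 3) / (1 + Real.exp (L * t) * t * ∑ u ∈ D n, p u) by positivity)
        (show (1 / 2 : ℝ) < 1 by norm_num)
      refine ⟨j, ?_⟩
      rw [lt_div_iff₀ hden'] at hj
      exact hj.le
    refine ⟨PhiF μ ρ w (D n) (D r) o t j, measurable_PhiF hw _ _ _ _ _, ?_⟩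
    have e2 := step_mesh hw hS (hH n) t j
    have e3 := step_es hw hS (hH n) hAD (ho r) t j
    have e4 := step_vol hw hS (hH n) hAD (ho r) t j hδ0.le fun u hu l hl =>
      hD0 u (D n) (hDn u hu) j l hl
    have e2' : eLpNorm (fun ω : Om V E => X w o 0 t ω -
        FF μ (D n) o t j (fun v j l => X w v j l ω - S (D n) v j l ω)) 2 (PP μ ρ) ≤
        ENNReal.ofReal (ε / 3) := e2.trans (ENNReal.ofReal_le_ofReal hj)
    have e3' : eLpNorm (fun ω : Om V E =>
        FF μ (D n) o t j (fun v j l => X w v j l ω - S (D n) v j l ω) -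
        PhiF μ ρ w (D n) (D r) o t j (fun v j l => X w v j l ω - S (D n) v j l ω)) 2
        (PP μ ρ) ≤ ENNReal.ofReal (ε / 3) := e3.trans (ENNReal.ofReal_le_ofReal (hr n))
    have e4' : eLpNorm (fun ω : Om V E =>
        PhiF μ ρ w (D n) (D r) o t j (fun v j l => X w v j l ω - S (D n) v j l ω) -
        PhiF μ ρ w (D n) (D r) o t j (fun v j l => X w v j l ω - T v j l ω)) 2 (PP μ ρ) ≤
        ENNReal.ofReal (ε / 3) := by
      refine e4.trans (ENNReal.ofReal_le_ofReal (le_of_eq ?_))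
      rw [hδ, div_mul_cancel₀ _ hden.ne']
    -- measurability
    have mX : Measurable (X w o 0 t : Om V E → ℝ) := measurable_X hw.meas _ _ _
    have mF : Measurable fun ω : Om V E =>
        FF μ (D n) o t j (fun v j l => X w v j l ω - S (D n) v j l ω) :=
      measurable_FF t j fun v l => (measurable_X hw.meas _ _ _).sub (hS.meas _ _ _ _)
    have mB : Measurable fun (ω : Om V E) (v : V) (j l : ℕ) => X w v j l ω - S (D n) v j l ω :=
      measurable_pi_lambda _ fun v => measurable_pi_lambda _ fun j =>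
        measurable_pi_lambda _ fun l => (measurable_X hw.meas _ _ _).sub (hS.meas _ _ _ _)
    have mB' : Measurable fun (ω : Om V E) (v : V) (j l : ℕ) => X w v j l ω - T v j l ω :=
      measurable_pi_lambda _ fun v => measurable_pi_lambda _ fun j =>
        measurable_pi_lambda _ fun l => (measurable_X hw.meas _ _ _).sub (hS.measInf _ _ _)
    have mP := measurable_PhiF (μ := μ) hw (D n) (D r) o t j
    have hsplit : (fun ω : Om V E => X w o 0 t ω -
        PhiF μ ρ w (D n) (D r) o t j (fun v j l => X w v j l ω - T v j l ω)) =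
        (fun ω => X w o 0 t ω - FF μ (D n) o t j (fun v j l => X w v j l ω - S (D n) v j l ω)) +
        ((fun ω => FF μ (D n) o t j (fun v j l => X w v j l ω - S (D n) v j l ω) -
          PhiF μ ρ w (D n) (D r) o t j (fun v j l => X w v j l ω - S (D n) v j l ω)) +
        fun ω => PhiF μ ρ w (D n) (D r) o t j (fun v j l => X w v j l ω - S (D n) v j l ω) -
          PhiF μ ρ w (D n) (D r) o t j (fun v j l => X w v j l ω - T v j l ω)) := by
      ext ω
      simp only [Pi.add_apply]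
      ring
    rw [hsplit]
    refine (eLpNorm_add_le (mX.sub mF).aestronglyMeasurable
      ((mF.sub (mP.comp mB)).add ((mP.comp mB).sub (mP.comp mB'))).aestronglyMeasurable
      (by norm_num)).trans ?_
    refine (add_le_add e2' (eLpNorm_add_le (mF.sub (mP.comp mB)).aestronglyMeasurable
      ((mP.comp mB).sub (mP.comp mB')).aestronglyMeasurable (by norm_num))).trans ?_
    refine (add_le_add le_rfl (add_le_add e3' e4')).trans ?_
    rw [← ENNReal.ofReal_add (by positivity) (by positivity),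
      ← ENNReal.ofReal_add (by positivity) (by positivity)]
    refine ENNReal.ofReal_le_ofReal (le_of_eq ?_)
    ring
  choose Ψ hΨ1 hΨ2 using fun n : ℕ => key (1 / ((n : ℝ) + 1)) (by positivity)
  refine ⟨Ψ, hΨ1, ?_⟩
  have hlim : Tendsto (fun n : ℕ => ENNReal.ofReal (1 / ((n : ℝ) + 1))) atTop (𝓝 0) := by
    have := (ENNReal.continuous_ofReal.tendsto 0).comp tendsto_one_div_add_atTop_nhds_zero_nat
    rw [ENNReal.ofReal_zero] at this
    exact this
  exact tendsto_of_tendsto_of_tendsto_of_le_of_le tendsto_const_nhds hlim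
    (fun _ => zero_le) hΨ2

end P161
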