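import Vale.Agent.P161.Tree

/-!
# P161 : finite connected subsets of a tree
-/

namespace P161

open Finset

variable {V : Type*} {G : SimpleGraph V}

theorem countable_of_connected [G.LocallyFinite] (hG : G.Connected) : Countable V := by
  classical
  obtain ⟨o⟩ := hG.nonempty
  have hfin : ∀ n : ℕ, {v | G.dist o v = n}.Finite := by
    intro n
    induction n with
    | zero =>
      refine (Set.finite_singleton o).subset ?_
      intro v hv
      exact (hG.dist_eq_zero_iff.mp hv).symm
    | succ n ih =>
      refine (ih.biUnion (t := fun u => (G.neighborFinset u : Set V))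
        (fun u _ => Finset.finite_toSet _)).subset ?_
      intro v hv
      obtain ⟨u, hu1, hu2⟩ := exists_pred hG hv
      simp only [Set.mem_iUnion]
      exact ⟨u, hu2, by simpa using hu1.symm⟩
  have hu : (Set.univ : Set V) = ⋃ n : ℕ, {v | G.dist o v = n} := by
    ext v
    simp
  have hc : (Set.univ : Set V).Countable := by
    rw [hu]
    exact Set.countable_iUnion fun n => (hfin n).countable
  exact Set.countable_univ_iff.mp hc

/-- in a tree, the length of every path is the distance -/
theorem length_eq_dist (hG : G.IsTree) {v u : V} (q : G.Walk v u) (hq : q.IsPath) :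
    q.length = G.dist v u := by
  obtain ⟨p, hp, hpl⟩ := hG.connected.exists_path_of_dist v u
  have h : (⟨p, hp⟩ : G.Path v u) = ⟨q, hq⟩ :=
    (hG.isAcyclic.subsingleton_path v u).elim _ _
  have h' : p = q := congrArg Subtype.val h
  rw [← h', hpl]

theorem exists_path_inside {D : Finset V} (hD : (G.induce (D : Set V)).Connected)
    {u v : V} (hu : u ∈ D) (hv : v ∈ D) :
    ∃ q : G.Walk v u, q.IsPath ∧ ∀ x ∈ q.support, x ∈ D := by
  have key : ∀ a b : (D : Set V), ∃ q : G.Walk a.1 b.1, q.IsPath ∧ ∀ x ∈ q.support, x ∈ D := by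
    intro a b
    obtain ⟨p, hp, -⟩ := hD.exists_path_of_dist a b
    let f : G.induce (D : Set V) →g G := (SimpleGraph.Embedding.induce (D : Set V)).toHom
    have hf : Function.Injective f := Subtype.val_injective
    have h1 : (p.map f).IsPath := hp.map hf
    have h2 : ∀ x ∈ (p.map f).support, x ∈ D := by
      intro x hx
      rw [SimpleGraph.Walk.support_map] at hx
      obtain ⟨y, _, rfl⟩ := List.mem_map.mp hx
      exact y.2
    exact ⟨p.map f, h1, h2⟩
  exact key ⟨v, hv⟩ ⟨u, hu⟩

theorem dist_leaf (hG : G.IsTree) {D : Finset V} (hD : (G.induce (D : Set V)).Connected)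
    {u l v : V} (hu : u ∈ D) (hl : l ∉ D) (hadj : G.Adj u l) (hv : v ∈ D) :
    G.dist v l = G.dist v u + 1 := by
  obtain ⟨q, hq, hqs⟩ := exists_path_inside hD hu hv
  have h1 := length_eq_dist hG q hq
  have h2 := length_eq_dist hG (q.concat hadj) (hq.concat (fun h => hl (hqs l h)) hadj)
  rw [← h1, ← h2, SimpleGraph.Walk.length_concat]

theorem leaf_unique (hG : G.IsTree) {D : Finset V} (hD : (G.induce (D : Set V)).Connected)
    {u u' l : V} (hu : u ∈ D) (hu' : u' ∈ D) (hl : l ∉ D) (hadj : G.Adj u l)
    (hadj' : G.Adj u' l) : u = u' := by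
  have h := dist_leaf hG hD hu hl hadj hu'
  rw [SimpleGraph.dist_eq_one_iff_adj.mpr hadj'] at h
  have h0 : G.dist u' u = 0 := by omega
  exact (hG.connected.dist_eq_zero_iff.mp h0).symm

theorem connected_insert [DecidableEq V] {D : Finset V}
    (hD : (G.induce (D : Set V)).Connected) {u l : V} (hu : u ∈ D) (hadj : G.Adj u l) :
    (G.induce ((insert l D : Finset V) : Set V)).Connected := by
  have hs : ((insert l D : Finset V) : Set V) = {u, l} ∪ (D : Set V) := by
    ext x
    simp only [coe_insert, Set.mem_insert_iff, mem_coe, Set.mem_union, Set.mem_singleton_iff]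
    constructor
    · rintro (h | h)
      · exact Or.inl (Or.inr h)
      · exact Or.inr h
    · rintro ((h | h) | h)
      · exact Or.inr (h ▸ hu)
      · exact Or.inl h
      · exact Or.inr h
  rw [hs]
  exact SimpleGraph.induce_union_connected
    (SimpleGraph.induce_pair_connected_of_adj hadj).preconnected hD.preconnected
    ⟨u, by simp, hu⟩

/-- a connected set can be grown inside a bigger connected set by adding an adjacent vertex -/
theorem exists_grow {D D' : Finset V} (hne : D.Nonempty) (hss : D ⊂ D')
    (hD' : (G.induce (D' : Set V)).Connected) :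
    ∃ u ∈ D, ∃ l ∈ D', l ∉ D ∧ G.Adj u l := by
  obtain ⟨d, hd⟩ := hne
  obtain ⟨x, hx, hxD⟩ := Finset.exists_of_ssubset hss
  obtain ⟨p⟩ := hD'.preconnected ⟨d, hss.1 hd⟩ ⟨x, hx⟩
  obtain ⟨e, -, h1, h2⟩ := p.exists_boundary_dart {y | y.1 ∈ D} hd hxD
  exact ⟨e.fst.1, h1, e.snd.1, e.snd.2, h2, e.adj⟩

theorem leaf_induction [DecidableEq V] {P : Finset V → Prop} (h1 : ∀ v, P {v})
    (h2 : ∀ (D : Finset V) (u l : V), (G.induce (D : Set V)).Connected → u ∈ D → l ∉ D →
      G.Adj u l → P D → P (insert l D)) :
    ∀ D : Finset V, (G.induce (D : Set V)).Connected → P D := by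
  intro D hD
  have key : ∀ n : ℕ, ∀ E : Finset V, E ⊆ D → E.Nonempty → (G.induce (E : Set V)).Connected →
      P E → D.card - E.card = n → P D := by
    intro n
    induction n with
    | zero =>
      intro E hE _ _ hP hc
      have : E = D := Finset.eq_of_subset_of_card_le hE (by omega)
      rwa [← this]
    | succ n ih =>
      intro E hE hne hEc hP hc
      have hss : E ⊂ D := by
        refine hE.ssubset_of_ne ?_
        rintro rfl
        omega
      obtain ⟨u, hu, l, hl, hlE, hadj⟩ := exists_grow hne hss hD
      refine ih (insert l E) (Finset.insert_subset hl hE) (Finset.insert_nonempty _ _)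
        (connected_insert hEc hu hadj) (h2 E u l hEc hu hlE hadj hP) ?_
      rw [Finset.card_insert_of_notMem hlE]
      omega
  obtain ⟨v⟩ := hD.nonempty
  refine key _ {v.1} (Finset.singleton_subset_iff.mpr v.2) (Finset.singleton_nonempty _) ?_ (h1 v.1) rfl
  rw [Finset.coe_singleton]
  exact { preconnected := fun a b => by
            have : a = b := Subtype.ext (a.2.trans b.2.symm)
            rw [this]
          nonempty := ⟨⟨v.1, rfl⟩⟩ }

theorem exists_superset (hG : G.Connected) (D : Finset V) :
    ∃ D' : Finset V, D ⊆ D' ∧ (G.induce (D' : Set V)).Connected := by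
  classical
  induction D using Finset.induction_on with
  | empty =>
    obtain ⟨o⟩ := hG.nonempty
    refine ⟨{o}, by simp, ?_⟩
    rw [Finset.coe_singleton]
    exact { preconnected := fun a b => by
              have : a = b := Subtype.ext (a.2.trans b.2.symm)
              rw [this]
            nonempty := ⟨⟨o, rfl⟩⟩ }
  | insert a D _ ih =>
    obtain ⟨D', hsub, hD'⟩ := ih
    obtain ⟨u⟩ := hD'.nonempty
    obtain ⟨p⟩ := hG.preconnected u.1 a
    refine ⟨D' ∪ p.support.toFinset, ?_, ?_⟩
    · intro x hx
      rcases Finset.mem_insert.mp hx with rfl | hx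
      · exact Finset.mem_union_right _ (by simp)
      · exact Finset.mem_union_left _ (hsub hx)
    · have hs : ((D' ∪ p.support.toFinset : Finset V) : Set V) =
          (D' : Set V) ∪ {v | v ∈ p.support} := by
        ext x
        simp
      rw [hs]
      exact SimpleGraph.induce_union_connected hD'.preconnected
        p.connected_induce_support.preconnected ⟨u.1, u.2, by simp⟩

theorem exhaustion [Countable V] (hG : G.Connected) (o : V) :
    ∃ D : ℕ → Finset V, Monotone D ∧ (∀ n, (G.induce (D n : Set V)).Connected) ∧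
      (∀ n, o ∈ D n) ∧ ∀ v, ∃ n, v ∈ D n := by
  classical
  have : Nonempty V := ⟨o⟩
  obtain ⟨f, hf⟩ := exists_surjective_nat V
  choose F hF1 hF2 using fun D => exists_superset hG D
  let D : ℕ → Finset V := fun n => Nat.rec (F {o}) (fun k E => F (E ∪ {f k})) n
  have hmono : Monotone D := monotone_nat_of_le_succ fun n =>
    (Finset.subset_union_left).trans (hF1 (D n ∪ {f n}))
  refine ⟨D, hmono, ?_, ?_, ?_⟩
  · intro n
    cases n with
    | zero => exact hF2 _
    | succ n => exact hF2 _
  · intro n
    exact hmono (Nat.zero_le n) (hF1 {o} (by simp))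
  · intro v
    obtain ⟨n, rfl⟩ := hf v
    exact ⟨n + 1, hF1 (D n ∪ {f n}) (by simp)⟩

end P161
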