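import Vale.Agent.P161.Tree
import Vale.Agent.P161.Basic
import Vale.Agent.P161.Leaf

/-!
# P161, module Exist : the free Ising measure exists
-/

namespace P161

open MeasureTheory ProbabilityTheory
open scoped ENNReal



section Weight

variable {V : Type*} {G : SimpleGraph V} {θ : ℝ}

open Classical in
/-- the product of the edge factors of the edges inside `D` -/
noncomputable def Wt (G : SimpleGraph V) (θ : ℝ) (D : Finset V) (η : V → Bool) : ℝ :=
  ∏ e ∈ D.sym2.filter (fun e => e ∈ G.edgeSet), edgeW θ η e

theorem edgeW_mk (θ : ℝ) (η : V → Bool) (u v : V) :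
    edgeW θ η s(u, v) = (1 + θ * spin (η u) * spin (η v)) / 2 := rfl

theorem Wt_congr {D : Finset V} {η η' : V → Bool} (h : ∀ v ∈ D, η v = η' v) :
    Wt G θ D η = Wt G θ D η' := by
  classical
  unfold Wt
  refine Finset.prod_congr rfl fun e he => ?_
  rw [Finset.mem_filter] at he
  induction e using Sym2.ind with
  | h a b =>
    rw [Finset.mk_mem_sym2_iff] at he
    rw [edgeW_mk, edgeW_mk, h a he.1.1, h b he.1.2]

theorem Wt_insert [DecidableEq V] (hG : G.IsTree) {D : Finset V}
    (hD : (G.induce (D : Set V)).Connected) {u l : V} (hu : u ∈ D) (hl : l ∉ D)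
    (hadj : G.Adj u l) (η : V → Bool) :
    Wt G θ (insert l D) η = Wt G θ D η * ((1 + θ * spin (η u) * spin (η l)) / 2) := by
  classical
  unfold Wt
  have h : (insert l D).sym2.filter (fun e => e ∈ G.edgeSet) =
      insert s(u, l) (D.sym2.filter (fun e => e ∈ G.edgeSet)) := by
    ext e
    induction e using Sym2.ind with
    | h a b =>
      simp only [Finset.mem_filter, Finset.mk_mem_sym2_iff, Finset.mem_insert,
        SimpleGraph.mem_edgeSet, Sym2.eq_iff]
      constructor
      · rintro ⟨⟨ha, hb⟩, hab⟩
        rcases ha with rfl | ha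
        · rcases hb with rfl | hb
          · exact absurd hab (G.loopless.irrefl _)
          · left; right
            exact ⟨rfl, leaf_unique hG hD hb hu hl hab.symm hadj⟩
        · rcases hb with rfl | hb
          · left; left
            exact ⟨leaf_unique hG hD ha hu hl hab hadj, rfl⟩
          · right
            exact ⟨⟨ha, hb⟩, hab⟩
      · rintro ((⟨rfl, rfl⟩ | ⟨rfl, rfl⟩) | ⟨⟨ha, hb⟩, hab⟩)
        · exact ⟨⟨Or.inr hu, Or.inl rfl⟩, hadj⟩
        · exact ⟨⟨Or.inl rfl, Or.inr hu⟩, hadj.symm⟩
        · exact ⟨⟨Or.inr ha, Or.inr hb⟩, hab⟩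
  rw [h, Finset.prod_insert, mul_comm, edgeW_mk]
  intro hmem
  rw [Finset.mem_filter, Finset.mk_mem_sym2_iff] at hmem
  exact hl hmem.1.2

theorem edgeW_nonneg (h0 : 0 ≤ θ) (h1 : θ ≤ 1) (η : V → Bool) (e : Sym2 V) :
    0 ≤ edgeW θ η e := by
  induction e using Sym2.ind with
  | h a b =>
    rw [edgeW_mk]
    have : -1 ≤ θ * spin (η a) * spin (η b) := by
      have h2 : |θ * spin (η a) * spin (η b)| ≤ 1 := by
        rw [abs_mul, abs_mul, abs_spin, abs_spin, abs_of_nonneg h0]
        simpa using h1
      exact (abs_le.mp h2).1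
    linarith

theorem Wt_nonneg (h0 : 0 ≤ θ) (h1 : θ ≤ 1) (D : Finset V) (η : V → Bool) :
    0 ≤ Wt G θ D η := Finset.prod_nonneg fun e _ => edgeW_nonneg h0 h1 η e

theorem Wt_singleton (v : V) (η : V → Bool) : Wt G θ {v} η = 1 := by
  classical
  unfold Wt
  refine Finset.prod_eq_one fun e he => ?_
  exfalso
  rw [Finset.mem_filter] at he
  induction e using Sym2.ind with
  | h a b =>
    rw [Finset.mk_mem_sym2_iff, Finset.mem_singleton, Finset.mem_singleton,
      SimpleGraph.mem_edgeSet] at he
    obtain ⟨⟨rfl, rfl⟩, hab⟩ := he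
    exact G.loopless.irrefl _ hab

end Weight

section Grow

variable {V : Type*} [DecidableEq V] {G : SimpleGraph V}

/-- induction from `{o}` to a connected set `D'` containing `o` -/
theorem grow_up {P : Finset V → Prop} {o : V} {D' : Finset V}
    (hD' : (G.induce (D' : Set V)).Connected) (ho : o ∈ D') (h0 : P {o})
    (hs : ∀ (D : Finset V) (u l : V), (G.induce (D : Set V)).Connected → o ∈ D → u ∈ D → l ∉ D →
      G.Adj u l → P D → P (insert l D)) : P D' := by
  have key : ∀ (n : ℕ) (D : Finset V), (G.induce (D : Set V)).Connected → o ∈ D → D ⊆ D' →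
      P D → (D' \ D).card = n → P D' := by
    intro n
    induction n using Nat.strong_induction_on with
    | _ n ih =>
      intro D hD hoD hss hP hn
      by_cases hne : D = D'
      · rw [← hne]; exact hP
      · obtain ⟨u, hu, l, hl', hl, hadj⟩ := exists_grow ⟨o, hoD⟩
          (Finset.ssubset_iff_subset_ne.mpr ⟨hss, hne⟩) hD'
        have hss' : insert l D ⊆ D' := Finset.insert_subset hl' hss
        refine ih (D' \ insert l D).card ?_ (insert l D) (connected_insert hD hu hadj)
          (Finset.mem_insert_of_mem hoD) hss' (hs D u l hD hoD hu hl hadj hP) rfl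
        rw [← hn]
        refine Finset.card_lt_card ?_
        rw [Finset.ssubset_iff_of_subset (Finset.sdiff_subset_sdiff subset_rfl
          (Finset.subset_insert l D))]
        exact ⟨l, Finset.mem_sdiff.mpr ⟨hl', hl⟩, fun h =>
          (Finset.mem_sdiff.mp h).2 (Finset.mem_insert_self l D)⟩
  have hsing : (G.induce (({o} : Finset V) : Set V)).Connected := by
    rw [Finset.coe_singleton]
    have : Nonempty ({o} : Set V) := ⟨⟨o, rfl⟩⟩
    refine ⟨fun a b => ?_⟩
    rw [Subsingleton.elim a b]
  exact key _ {o} hsing (Finset.mem_singleton_self o)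
    (Finset.singleton_subset_iff.mpr ho) h0 rfl

/-- induction from a connected set `D'` down to a nonempty connected subset -/
theorem grow_down {P : Finset V → Prop} {D' : Finset V}
    (hD' : (G.induce (D' : Set V)).Connected) (h0 : P D')
    (hs : ∀ (D : Finset V) (u l : V), (G.induce (D : Set V)).Connected → u ∈ D → l ∉ D →
      G.Adj u l → P (insert l D) → P D) {D : Finset V}
    (hD : (G.induce (D : Set V)).Connected) (hne : D.Nonempty) (hss : D ⊆ D') : P D := by
  have key : ∀ (n : ℕ) (D : Finset V), (G.induce (D : Set V)).Connected → D.Nonempty → D ⊆ D' →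
      (D' \ D).card = n → P D := by
    intro n
    induction n using Nat.strong_induction_on with
    | _ n ih =>
      intro D hD hoD hss hn
      by_cases hne : D = D'
      · rw [hne]; exact h0
      · obtain ⟨u, hu, l, hl', hl, hadj⟩ := exists_grow hoD
          (Finset.ssubset_iff_subset_ne.mpr ⟨hss, hne⟩) hD'
        have hss' : insert l D ⊆ D' := Finset.insert_subset hl' hss
        refine hs D u l hD hu hl hadj (ih (D' \ insert l D).card ?_ (insert l D)
          (connected_insert hD hu hadj) ⟨l, Finset.mem_insert_self l D⟩ hss' rfl)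
        rw [← hn]
        refine Finset.card_lt_card ?_
        rw [Finset.ssubset_iff_of_subset (Finset.sdiff_subset_sdiff subset_rfl
          (Finset.subset_insert l D))]
        exact ⟨l, Finset.mem_sdiff.mpr ⟨hl', hl⟩, fun h =>
          (Finset.mem_sdiff.mp h).2 (Finset.mem_insert_self l D)⟩
  exact key _ D hD hne hss rfl

end Grow

section Exist

variable {V : Type*} {G : SimpleGraph V} {θ : ℝ}

open Classical in
/-- a neighbour of `v` closer to `o` -/
noncomputable def par (G : SimpleGraph V) (o v : V) : V :=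
  if h : ∃ u, G.Adj v u ∧ G.dist o v = G.dist o u + 1 then h.choose else v

/-- spins at distance `n` from the root -/
noncomputable def Sn (G : SimpleGraph V) (o : V) : ℕ → (V → Bool) → V → Bool
  | 0, ξ, _ => ξ o
  | n + 1, ξ, v => ξ v == Sn G o n ξ (par G o v)

/-- the spins built from the root and the edge signs -/
noncomputable def S (G : SimpleGraph V) (o : V) (ξ : V → Bool) (v : V) : Bool :=
  Sn G o (G.dist o v) ξ v

theorem S_root (o : V) (ξ : V → Bool) : S G o ξ o = ξ o := by
  unfold S
  rw [SimpleGraph.dist_self]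
  rfl

theorem par_spec {o v u : V} (hadj : G.Adj v u) (hd : G.dist o v = G.dist o u + 1) :
    G.Adj v (par G o v) ∧ G.dist o v = G.dist o (par G o v) + 1 := by
  have h : ∃ u, G.Adj v u ∧ G.dist o v = G.dist o u + 1 := ⟨u, hadj, hd⟩
  unfold par
  rw [dif_pos h]
  exact h.choose_spec

theorem S_step {o v u : V} (hadj : G.Adj v u) (hd : G.dist o v = G.dist o u + 1)
    (ξ : V → Bool) : S G o ξ v = (ξ v == S G o ξ (par G o v)) := by
  have h := (par_spec hadj hd).2
  unfold S
  rw [h]
  rfl

theorem measurable_Sn (o : V) (n : ℕ) : ∀ v, Measurable fun ξ : V → Bool => Sn G o n ξ v := by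
  induction n with
  | zero => intro v; exact measurable_pi_apply o
  | succ n ih =>
    intro v
    have h : Measurable fun p : Bool × Bool => (p.1 == p.2) := measurable_of_finite _
    exact h.comp ((measurable_pi_apply v).prodMk (ih (par G o v)))

theorem measurable_S (o : V) : Measurable (S G o) :=
  measurable_pi_lambda _ fun v => measurable_Sn o (G.dist o v) v

/-- a biased coin -/
noncomputable def coin (p : ℝ) : Measure Bool :=
  ENNReal.ofReal p • Measure.dirac true + ENNReal.ofReal (1 - p) • Measure.dirac false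

theorem coin_singleton (p : ℝ) (b : Bool) :
    coin p {b} = ENNReal.ofReal (if b then p else 1 - p) := by
  unfold coin
  rw [Measure.add_apply, Measure.smul_apply, Measure.smul_apply, Measure.dirac_apply,
    Measure.dirac_apply]
  cases b <;> simp

theorem isProb_coin {p : ℝ} (h0 : 0 ≤ p) (h1 : p ≤ 1) : IsProbabilityMeasure (coin p) := by
  refine ⟨?_⟩
  unfold coin
  rw [Measure.add_apply, Measure.smul_apply, Measure.smul_apply, measure_univ, measure_univ,
    smul_eq_mul, smul_eq_mul, mul_one, mul_one, ← ENNReal.ofReal_add h0 (by linarith)]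
  simp

open Classical in
/-- the laws of the root spin and of the edge signs -/
noncomputable def nu (θ : ℝ) (o v : V) : Measure Bool := coin (if v = o then 1 / 2 else (1 + θ) / 2)

theorem isProb_nu (h0 : 0 ≤ θ) (h1 : θ ≤ 1) (o v : V) : IsProbabilityMeasure (nu θ o v) := by
  unfold nu
  split_ifs
  · exact isProb_coin (by norm_num) (by norm_num)
  · exact isProb_coin (by linarith) (by linarith)

open Classical in
/-- the edge signs prescribed by a configuration -/
noncomputable def pre (G : SimpleGraph V) (o : V) (η : V → Bool) (v : V) : Bool :=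
  if v = o then η o else (η v == η (par G o v))

theorem pred_unique (hG : G.IsTree) {o l u u' : V} (hadj : G.Adj u l) (hadj' : G.Adj u' l)
    (h : G.dist o l = G.dist o u + 1) (h' : G.dist o l = G.dist o u' + 1) : u = u' := by
  classical
  obtain ⟨p1, hp1⟩ := hG.connected.exists_walk_length_eq_dist u' o
  obtain ⟨p2, hp2⟩ := hG.connected.exists_walk_length_eq_dist o u
  have hbr : G.IsBridge s(u', l) :=
    SimpleGraph.isAcyclic_iff_forall_adj_isBridge.mp hG.isAcyclic hadj'
  have hw1 : s(u', l) ∉ p1.edges := by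
    intro he
    have hs := p1.snd_mem_support_of_mem_edges he
    have h3 : G.dist l o ≤ (p1.dropUntil l hs).length := SimpleGraph.dist_le _
    have h4 := p1.length_dropUntil_le_length hs
    rw [G.dist_comm] at h3
    rw [SimpleGraph.dist_comm (u := u') (v := o)] at hp1
    omega
  have hw2 : s(u', l) ∉ p2.edges := by
    intro he
    have hs := p2.snd_mem_support_of_mem_edges he
    have h3 : G.dist o l ≤ (p2.takeUntil l hs).length := SimpleGraph.dist_le _
    have h4 := p2.length_takeUntil_le_length hs
    omega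
  have hall := SimpleGraph.isBridge_iff_forall_walk_mem_edges.mp hbr
    ((p1.append p2).append (SimpleGraph.Walk.cons hadj SimpleGraph.Walk.nil))
  rw [SimpleGraph.Walk.edges_append, SimpleGraph.Walk.edges_append, List.mem_append,
    List.mem_append] at hall
  rcases hall with (h1 | h1) | h1
  · exact absurd h1 hw1
  · exact absurd h1 hw2
  · rw [SimpleGraph.Walk.edges_cons, SimpleGraph.Walk.edges_nil, List.mem_singleton,
      Sym2.eq_iff] at h1
    rcases h1 with ⟨h2, _⟩ | ⟨h2, h3⟩
    · exact h2.symm
    · exact absurd h2 hadj'.ne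

theorem par_eq (hG : G.IsTree) {D : Finset V} (hD : (G.induce (D : Set V)).Connected) {o u l : V}
    (ho : o ∈ D) (hu : u ∈ D) (hl : l ∉ D) (hadj : G.Adj u l) :
    G.dist o l = G.dist o u + 1 ∧ par G o l = u := by
  have h1 := dist_leaf hG hD hu hl hadj ho
  refine ⟨h1, ?_⟩
  obtain ⟨h2, h3⟩ := par_spec hadj.symm h1
  exact (pred_unique hG hadj h2.symm h1 h3).symm

theorem beq_iff (x b c : Bool) : (x == b) = c ↔ x = (c == b) := by
  cases x <;> cases b <;> cases c <;> decide

/-- for a connected `D` containing the root, `σ = η` on `D` iff the signs are as prescribed -/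
theorem event_eq (hG : G.IsTree) {o : V} {D : Finset V}
    (hD : (G.induce (D : Set V)).Connected) (ho : o ∈ D) (η ξ : V → Bool) :
    (∀ v ∈ D, S G o ξ v = η v) ↔ ∀ v ∈ D, ξ v = pre G o η v := by
  classical
  refine grow_up (P := fun D => (∀ v ∈ D, S G o ξ v = η v) ↔ ∀ v ∈ D, ξ v = pre G o η v)
    hD ho ?_ ?_
  · simp only [Finset.mem_singleton, forall_eq]
    rw [S_root]
    unfold pre
    rw [if_pos rfl]
  · intro D u l hD hoD hu hl hadj ih
    have hlo : l ≠ o := fun h => hl (h ▸ hoD)
    obtain ⟨h1, h2⟩ := par_eq hG hD hoD hu hl hadj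
    rw [Finset.forall_mem_insert, Finset.forall_mem_insert, ← ih]
    refine and_congr_left fun hall => ?_
    rw [S_step hadj.symm h1, h2, hall u hu, beq_iff]
    unfold pre
    rw [if_neg hlo, h2]

theorem weight_root (hG : G.IsTree) (h0 : 0 ≤ θ) (h1 : θ ≤ 1) {o : V} {D : Finset V}
    (hD : (G.induce (D : Set V)).Connected) (ho : o ∈ D) (η : V → Bool) :
    ∏ v ∈ D, nu θ o v {pre G o η v} = ENNReal.ofReal (1 / 2 * Wt G θ D η) := by
  classical
  refine grow_up (P := fun D => ∏ v ∈ D, nu θ o v {pre G o η v} =
    ENNReal.ofReal (1 / 2 * Wt G θ D η)) hD ho ?_ ?_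
  · rw [Finset.prod_singleton, Wt_singleton]
    unfold nu
    rw [coin_singleton, if_pos rfl]
    congr 1
    split_ifs <;> norm_num
  · intro D u l hD hoD hu hl hadj ih
    have hlo : l ≠ o := fun h => hl (h ▸ hoD)
    obtain ⟨h2, h3⟩ := par_eq hG hD hoD hu hl hadj
    rw [Finset.prod_insert hl, ih, Wt_insert hG hD hu hl hadj, mul_comm, ← mul_assoc,
      ENNReal.ofReal_mul (mul_nonneg (by norm_num) (Wt_nonneg h0 h1 D η))]
    congr 1
    unfold nu pre
    rw [coin_singleton, if_neg hlo, if_neg hlo, h3]
    congr 1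
    cases η l <;> cases η u <;> simp [spin] <;> ring

theorem S_apply (hG : G.IsTree) (h0 : 0 ≤ θ) (h1 : θ ≤ 1) {o : V} {D : Finset V}
    (hD : (G.induce (D : Set V)).Connected) (ho : o ∈ D) (η : V → Bool) :
    (Measure.infinitePi (nu θ o)).map (S G o) {σ | ∀ v ∈ D, σ v = η v} =
      ENNReal.ofReal (1 / 2 * Wt G θ D η) := by
  have := fun v => isProb_nu h0 h1 o v
  have hms : MeasurableSet {σ : V → Bool | ∀ v ∈ D, σ v = η v} := by
    have h : {σ : V → Bool | ∀ v ∈ D, σ v = η v} = (D : Set V).pi fun v => {η v} := by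
      ext σ; simp [Set.mem_pi]
    rw [h]
    exact MeasurableSet.pi D.countable_toSet fun v _ => measurableSet_singleton _
  rw [Measure.map_apply (measurable_S o) hms]
  have h : S G o ⁻¹' {σ | ∀ v ∈ D, σ v = η v} = (D : Set V).pi fun v => {pre G o η v} := by
    ext ξ
    rw [Set.mem_preimage, Set.mem_ofPred_eq, event_eq hG hD ho]
    simp [Set.mem_pi]
  rw [h, Measure.infinitePi_pi _ (fun v _ => measurableSet_singleton _), weight_root hG h0 h1 hD ho]

theorem exists_freeIsing {V : Type*} {G : SimpleGraph V} (hG : G.IsTree) {θ : ℝ}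
    (h0 : 0 ≤ θ) (h1 : θ ≤ 1) : ∃ μ : Measure (V → Bool), IsFreeIsing G θ μ := by
  classical
  obtain ⟨o⟩ := hG.connected.nonempty
  have := fun v => isProb_nu h0 h1 o v
  refine ⟨(Measure.infinitePi (nu θ o)).map (S G o), ?_⟩
  intro D hD η
  show _ = ENNReal.ofReal (1 / 2 * Wt G θ D η)
  obtain ⟨D', hss, hD'⟩ := exists_superset hG.connected (insert o D)
  have hne : D.Nonempty := by
    obtain ⟨⟨v, hv⟩⟩ := hD.nonempty
    exact ⟨v, hv⟩
  have hss2 : D ⊆ D' := (Finset.subset_insert o D).trans hss
  have ho : o ∈ D' := hss (Finset.mem_insert_self o D)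
  revert η
  refine grow_down (P := fun D => ∀ η : V → Bool, (Measure.infinitePi (nu θ o)).map (S G o)
    {σ | ∀ v ∈ D, σ v = η v} = ENNReal.ofReal (1 / 2 * Wt G θ D η)) hD'
    (fun η => S_apply hG h0 h1 hD' ho η) ?_ hD hne hss2
  intro D u l hD hu hl hadj ih η
  set m := (Measure.infinitePi (nu θ o)).map (S G o) with hm
  have hmeas : ∀ (D : Finset V) (η : V → Bool), MeasurableSet {σ : V → Bool | ∀ v ∈ D, σ v = η v} := by
    intro D η
    have h : {σ : V → Bool | ∀ v ∈ D, σ v = η v} = (D : Set V).pi fun v => {η v} := by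
      ext σ; simp [Set.mem_pi]
    rw [h]
    exact MeasurableSet.pi D.countable_toSet fun v _ => measurableSet_singleton _
  have hul : u ≠ l := fun h => hl (h ▸ hu)
  have hsplit : {σ : V → Bool | ∀ v ∈ D, σ v = η v} =
      {σ | ∀ v ∈ insert l D, σ v = Function.update η l true v} ∪
      {σ | ∀ v ∈ insert l D, σ v = Function.update η l false v} := by
    ext σ
    simp only [Set.mem_ofPred_eq, Set.mem_union, Finset.forall_mem_insert, Function.update_self]
    have h : ∀ b : Bool, (∀ v ∈ D, σ v = Function.update η l b v) ↔ ∀ v ∈ D, σ v = η v := by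
      intro b
      refine forall₂_congr fun v hv => ?_
      rw [Function.update_of_ne (ne_of_mem_of_not_mem hv hl)]
    rw [h, h]
    cases σ l <;> simp
  have hdisj : Disjoint {σ : V → Bool | ∀ v ∈ insert l D, σ v = Function.update η l true v}
      {σ | ∀ v ∈ insert l D, σ v = Function.update η l false v} := by
    rw [Set.disjoint_left]
    intro σ h2 h3
    have h4 := h2 l (Finset.mem_insert_self l D)
    have h5 := h3 l (Finset.mem_insert_self l D)
    rw [h4, Function.update_self, Function.update_self] at h5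
    exact absurd h5 (by decide)
  rw [hsplit, measure_union hdisj (hmeas _ _), ih, ih, Wt_insert hG hD hu hl hadj,
    Wt_insert hG hD hu hl hadj]
  have hc : ∀ b : Bool, Wt G θ D (Function.update η l b) = Wt G θ D η := fun b =>
    Wt_congr fun v hv => Function.update_of_ne (ne_of_mem_of_not_mem hv hl) _ _
  rw [hc, hc, Function.update_self, Function.update_self, Function.update_of_ne hul,
    Function.update_of_ne hul]
  have hW := Wt_nonneg (G := G) h0 h1 D η
  have hpos : ∀ b : Bool, 0 ≤ (1 + θ * spin (η u) * spin b) / 2 := by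
    intro b
    have := edgeW_nonneg h0 h1 (fun v => if v = u then η u else b) s(u, l)
    rw [edgeW_mk] at this
    simpa [hul.symm] using this
  rw [← ENNReal.ofReal_add]
  · congr 1
    simp [spin]
    ring
  · exact mul_nonneg (by norm_num) (mul_nonneg hW (hpos true))
  · exact mul_nonneg (by norm_num) (mul_nonneg hW (hpos false))

end Exist

end P161
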