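import Vale.Agent.P161.Defs

/-!
# P161, module Hilb : martingale-type convergence in Hilbert spaces
-/

namespace P161

open Filter Topology
open scoped RealInnerProductSpace

section Hilb

variable {H : Type*} [NormedAddCommGroup H] [InnerProductSpace ℝ H]

/-- Pythagoras for projections of the same vector -/
theorem norm_sub_sq_of_orth {τ f f' : H} (h : ⟪f, τ - f⟫ = 0) (h' : ⟪f, τ - f'⟫ = 0) :
    ‖f' - f‖ ^ 2 = ‖f'‖ ^ 2 - ‖f‖ ^ 2 := by
  have h1 : ⟪f, f'⟫ = ‖f‖ ^ 2 := by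
    rw [inner_sub_right] at h h'
    rw [← real_inner_self_eq_norm_sq]
    linarith
  rw [norm_sub_sq_real, real_inner_comm, h1]
  ring

theorem norm_le_of_orth {τ f : H} (h : ⟪f, τ - f⟫ = 0) : ‖f‖ ≤ ‖τ‖ := by
  have h1 : ‖f‖ ^ 2 = ⟪f, τ⟫ := by
    rw [inner_sub_right, real_inner_self_eq_norm_sq] at h
    linarith
  have h2 : ⟪f, τ⟫ ≤ ‖f‖ * ‖τ‖ := real_inner_le_norm f τ
  by_contra hlt
  push Not at hlt
  have h0 : 0 < ‖f‖ := lt_of_le_of_lt (norm_nonneg _) hlt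
  nlinarith

theorem net_limit [CompleteSpace H] {ι : Type*} [SemilatticeSup ι] [Nonempty ι] (f : ι → H)
    (τ : H) (h : ∀ i i', i ≤ i' → ⟪f i, τ - f i'⟫ = 0) : ∃ L, Tendsto f atTop (𝓝 L) := by
  have hbd : BddAbove (Set.range fun i => ‖f i‖ ^ 2) := by
    refine ⟨‖τ‖ ^ 2, ?_⟩
    rintro _ ⟨i, rfl⟩
    exact pow_le_pow_left₀ (norm_nonneg _) (norm_le_of_orth (h i i le_rfl)) 2
  have hc : CauchySeq f := by
    rw [Metric.cauchySeq_iff']
    intro ε hε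
    obtain ⟨i0, hi0⟩ := exists_lt_of_lt_ciSup
      (show (⨆ i, ‖f i‖ ^ 2) - ε ^ 2 < ⨆ i, ‖f i‖ ^ 2 by
        have : 0 < ε ^ 2 := by positivity
        linarith)
    refine ⟨i0, fun i hi => ?_⟩
    have h1 := norm_sub_sq_of_orth (h i0 i0 le_rfl) (h i0 i hi)
    have h2 := le_ciSup hbd i
    have h3 : ‖f i - f i0‖ ^ 2 < ε ^ 2 := by
      rw [h1]
      have : ‖f i‖ ^ 2 ≤ ⨆ i, ‖f i‖ ^ 2 := h2
      linarith
    rw [dist_eq_norm]
    exact lt_of_pow_lt_pow_left₀ 2 hε.le h3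
  exact cauchySeq_tendsto_of_complete hc

/-- the Riemann sum of `m` at level `j`, with `n` terms -/
noncomputable def RS (m : ℕ → ℕ → H) (j n : ℕ) : H :=
  ∑ l ∈ Finset.range n, (1 / 2 : ℝ) ^ j • m j l

theorem RS_succ (m : ℕ → ℕ → H) (j n : ℕ) : RS m j (n + 1) = RS m j n + (1 / 2 : ℝ) ^ j • m j n :=
  Finset.sum_range_succ _ _

theorem RS_refine {m : ℕ → ℕ → H} (hcons : ∀ j k, m (j + 1) (2 * k) = m j k) (j n : ℕ) :
    RS m (j + 1) (2 * n) - RS m j n =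
      (1 / 2 : ℝ) ^ (j + 1) • ∑ l ∈ Finset.range n, (m (j + 1) (2 * l + 1) - m (j + 1) (2 * l)) := by
  induction n with
  | zero => simp [RS]
  | succ n ih =>
    have : 2 * (n + 1) = 2 * n + 1 + 1 := by ring
    rw [this, RS_succ, RS_succ, RS_succ, Finset.sum_range_succ, smul_add, ← ih, ← hcons j n,
      pow_succ]
    module

theorem RS_norm_sub_le {m : ℕ → ℕ → H} (hm : ∀ j k, ‖m j k‖ ≤ 1) (j : ℕ) {n n' : ℕ}
    (h : n ≤ n') : ‖RS m j n' - RS m j n‖ ≤ (n' - n) * (1 / 2 : ℝ) ^ j := by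
  induction n', h using Nat.le_induction with
  | base => simp
  | succ k hk ih =>
    have h1 : RS m j (k + 1) - RS m j n = (RS m j k - RS m j n) + (1 / 2 : ℝ) ^ j • m j k := by
      rw [RS_succ]; abel
    rw [h1]
    refine (norm_add_le _ _).trans ?_
    have h2 : ‖(1 / 2 : ℝ) ^ j • m j k‖ ≤ (1 / 2 : ℝ) ^ j := by
      rw [norm_smul, Real.norm_of_nonneg (by positivity)]
      exact mul_le_of_le_one_right (by positivity) (hm j k)
    push_cast
    nlinarith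

theorem riemann [CompleteSpace H] {τ : H} (hτ : ‖τ‖ ≤ 1) {m : ℕ → ℕ → H}
    (hcons : ∀ j k, m (j + 1) (2 * k) = m j k)
    (horth : ∀ j a c, a ≤ c → ⟪m j a, τ - m j c⟫ = 0) :
    ∃ s : ℕ → ℕ → H, ∀ j k i, ‖s j k - RS m (j + i) (k * 2 ^ i)‖ ≤ (1 / 2) ^ (j + i) := by
  -- the increments
  have hinc : ∀ j n, ‖∑ l ∈ Finset.range n, (m (j + 1) (2 * l + 1) - m (j + 1) (2 * l))‖ ^ 2 ≤
      ‖m (j + 1) (2 * n)‖ ^ 2 := by
    intro j n
    induction n with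
    | zero => simp
    | succ n ih =>
      rw [Finset.sum_range_succ]
      have h0 : ⟪∑ l ∈ Finset.range n, (m (j + 1) (2 * l + 1) - m (j + 1) (2 * l)),
          m (j + 1) (2 * n + 1) - m (j + 1) (2 * n)⟫ = 0 := by
        rw [sum_inner]
        refine Finset.sum_eq_zero fun l hl => ?_
        have hl' := Finset.mem_range.mp hl
        have e1 : ∀ a, a ≤ 2 * n → ⟪m (j + 1) a, m (j + 1) (2 * n + 1) - m (j + 1) (2 * n)⟫ = 0 := by
          intro a ha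
          have := horth (j + 1) a (2 * n + 1) (by omega)
          have h2 := horth (j + 1) a (2 * n) ha
          rw [inner_sub_right] at this h2 ⊢
          linarith
        rw [inner_sub_left, e1 _ (by omega), e1 _ (by omega), sub_zero]
      rw [norm_add_sq_real, h0]
      have h3 := norm_sub_sq_of_orth (horth (j + 1) (2 * n) (2 * n) le_rfl)
        (horth (j + 1) (2 * n) (2 * n + 1) (by omega))
      have h4 := norm_sub_sq_of_orth (horth (j + 1) (2 * n + 1) (2 * n + 1) le_rfl)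
        (horth (j + 1) (2 * n + 1) (2 * n + 2) (by omega))
      have h5 : 2 * (n + 1) = 2 * n + 2 := by ring
      rw [h5]
      have h6 := sq_nonneg ‖m (j + 1) (2 * n + 2) - m (j + 1) (2 * n + 1)‖
      linarith
  have hstep : ∀ j n, ‖RS m (j + 1) (2 * n) - RS m j n‖ ≤ (1 / 2 : ℝ) ^ (j + 1) := by
    intro j n
    rw [RS_refine hcons, norm_smul, Real.norm_of_nonneg (by positivity)]
    refine mul_le_of_le_one_right (by positivity) ?_
    have h1 := hinc j n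
    have h2 : ‖m (j + 1) (2 * n)‖ ≤ 1 := (norm_le_of_orth (horth _ _ _ le_rfl)).trans hτ
    have h3 : ‖m (j + 1) (2 * n)‖ ^ 2 ≤ 1 := pow_le_one₀ (norm_nonneg _) h2
    exact (sq_le_one_iff₀ (norm_nonneg _)).mp (h1.trans h3)
  have hlim : ∀ j k, ∃ s : H, ∀ i, ‖s - RS m (j + i) (k * 2 ^ i)‖ ≤ (1 / 2) ^ (j + i) := by
    intro j k
    set f : ℕ → H := fun i => RS m (j + i) (k * 2 ^ i) with hf
    have hd : ∀ i, dist (f i) (f (i + 1)) ≤ (1 / 2 : ℝ) ^ (j + 1) * (1 / 2) ^ i := by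
      intro i
      rw [dist_comm, dist_eq_norm, hf]
      have h1 : k * 2 ^ (i + 1) = 2 * (k * 2 ^ i) := by ring
      have h2 := hstep (j + i) (k * 2 ^ i)
      simp only [h1, ← add_assoc]
      calc _ ≤ (1 / 2 : ℝ) ^ (j + i + 1) := h2
        _ = _ := by ring
    have hc := cauchySeq_of_le_geometric (1 / 2 : ℝ) _ (by norm_num) hd
    obtain ⟨s, hs⟩ := cauchySeq_tendsto_of_complete hc
    refine ⟨s, fun i => ?_⟩
    have h3 := dist_le_of_le_geometric_of_tendsto (1 / 2 : ℝ) _ (by norm_num) hd hs i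
    rw [dist_comm, dist_eq_norm] at h3
    calc _ ≤ _ := h3
      _ = _ := by
        rw [pow_add, pow_add]
        ring
  choose s hs using hlim
  exact ⟨s, hs⟩

theorem unif_riemann {ι : Type*} {F : Filter ι} {m : ι → ℕ → ℕ → H} {m' : ℕ → ℕ → H}
    (hm : ∀ D j k, ‖m D j k‖ ≤ 1) (hm' : ∀ j k, ‖m' j k‖ ≤ 1)
    (hlim : ∀ j k, Tendsto (fun D => m D j k) F (𝓝 (m' j k)))
    {s : ι → ℕ → ℕ → H} {s' : ℕ → ℕ → H}
    (hs : ∀ D j k i, ‖s D j k - RS (m D) (j + i) (k * 2 ^ i)‖ ≤ (1 / 2) ^ (j + i))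
    (hs' : ∀ j k i, ‖s' j k - RS m' (j + i) (k * 2 ^ i)‖ ≤ (1 / 2) ^ (j + i)) (t : ℕ) {ε : ℝ}
    (hε : 0 < ε) : ∀ᶠ D in F, ∀ j k, k ≤ t * 2 ^ j → ‖s D j k - s' j k‖ ≤ ε := by
  obtain ⟨i0, hi0⟩ := exists_pow_lt_of_lt_one (show 0 < ε / 16 by positivity)
    (show (1 / 2 : ℝ) < 1 by norm_num)
  -- comparison with the coarse level
  have key : ∀ (m : ℕ → ℕ → H) (s : ℕ → ℕ → H) (_ : ∀ j k, ‖m j k‖ ≤ 1)
      (_ : ∀ j k i, ‖s j k - RS m (j + i) (k * 2 ^ i)‖ ≤ (1 / 2) ^ (j + i)) (j k : ℕ),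
      ‖s j k - RS m i0 (k * 2 ^ i0 / 2 ^ j)‖ ≤ 4 * (1 / 2 : ℝ) ^ i0 := by
    intro m s hm hs j k
    set q := k * 2 ^ i0 / 2 ^ j with hq
    -- level `j + i0`
    have h1 := hs j k i0
    have h2 : ‖RS m (j + i0) (k * 2 ^ i0) - RS m (j + i0) (q * 2 ^ j)‖ ≤ (1 / 2 : ℝ) ^ i0 := by
      have hle : q * 2 ^ j ≤ k * 2 ^ i0 := Nat.div_mul_le_self _ _
      refine (RS_norm_sub_le hm (j + i0) hle).trans ?_
      have h3 : k * 2 ^ i0 - q * 2 ^ j ≤ 2 ^ j := by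
        have := Nat.lt_div_mul_add (a := k * 2 ^ i0) (b := 2 ^ j) (by positivity)
        rw [← hq] at this
        omega
      have h4 : ((k * 2 ^ i0 : ℕ) : ℝ) - ((q * 2 ^ j : ℕ) : ℝ) ≤ 2 ^ j := by
        have h5 : ((k * 2 ^ i0 : ℕ) : ℝ) - ((q * 2 ^ j : ℕ) : ℝ) =
            ((k * 2 ^ i0 - q * 2 ^ j : ℕ) : ℝ) := (Nat.cast_sub hle).symm
        rw [h5]
        exact_mod_cast h3
      calc _ ≤ (2 : ℝ) ^ j * (1 / 2 : ℝ) ^ (j + i0) := by gcongr
        _ = (1 / 2 : ℝ) ^ i0 := by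
          rw [pow_add, ← mul_assoc, ← mul_pow]
          norm_num
    have h3 := hs i0 q j
    have h4 := hs i0 q 0
    rw [add_comm i0 j] at h3
    simp only [add_zero, pow_zero, mul_one] at h4
    have h5 : (1 / 2 : ℝ) ^ (j + i0) ≤ (1 / 2 : ℝ) ^ i0 :=
      pow_le_pow_of_le_one (by norm_num) (by norm_num) (by omega)
    have h6 : s j k - RS m i0 q = (s j k - RS m (j + i0) (k * 2 ^ i0)) +
        (RS m (j + i0) (k * 2 ^ i0) - RS m (j + i0) (q * 2 ^ j)) -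
        (s i0 q - RS m (j + i0) (q * 2 ^ j)) + (s i0 q - RS m i0 q) := by abel
    rw [h6]
    refine (norm_add_le _ _).trans ?_
    have h7 := norm_sub_le ((s j k - RS m (j + i0) (k * 2 ^ i0)) +
        (RS m (j + i0) (k * 2 ^ i0) - RS m (j + i0) (q * 2 ^ j)))
        (s i0 q - RS m (j + i0) (q * 2 ^ j))
    have h8 := norm_add_le (s j k - RS m (j + i0) (k * 2 ^ i0))
        (RS m (j + i0) (k * 2 ^ i0) - RS m (j + i0) (q * 2 ^ j))
    linarith
  -- the coarse Riemann sums converge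
  have hRS : ∀ q, Tendsto (fun D => RS (m D) i0 q) F (𝓝 (RS m' i0 q)) := by
    intro q
    unfold RS
    exact tendsto_finsetSum _ fun l _ => (hlim i0 l).const_smul _
  have hev : ∀ᶠ D in F, ∀ q ∈ Finset.range (t * 2 ^ i0 + 1), ‖RS (m D) i0 q - RS m' i0 q‖ ≤ ε / 2 := by
    rw [Filter.eventually_all_finset]
    intro q _
    have h1 := (hRS q).eventually (Metric.closedBall_mem_nhds (RS m' i0 q) (half_pos hε))
    filter_upwards [h1] with D hD
    rwa [dist_eq_norm] at hD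
  filter_upwards [hev] with D hD j k hk
  have hq : k * 2 ^ i0 / 2 ^ j ∈ Finset.range (t * 2 ^ i0 + 1) := by
    rw [Finset.mem_range, Nat.lt_succ_iff]
    refine Nat.div_le_of_le_mul ?_
    calc k * 2 ^ i0 ≤ t * 2 ^ j * 2 ^ i0 := Nat.mul_le_mul_right _ hk
      _ = 2 ^ j * (t * 2 ^ i0) := by ring
  have h1 := key (m D) (s D) (hm D) (hs D) j k
  have h2 := key m' s' hm' hs' j k
  have h3 := hD _ hq
  set q := k * 2 ^ i0 / 2 ^ j
  have h4 : s D j k - s' j k = (s D j k - RS (m D) i0 q) + (RS (m D) i0 q - RS m' i0 q) -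
      (s' j k - RS m' i0 q) := by abel
  rw [h4]
  have h5 := norm_sub_le ((s D j k - RS (m D) i0 q) + (RS (m D) i0 q - RS m' i0 q))
    (s' j k - RS m' i0 q)
  have h6 := norm_add_le (s D j k - RS (m D) i0 q) (RS (m D) i0 q - RS m' i0 q)
  linarith

end Hilb

end P161
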