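import Vale.Agent.P161.Basic
import Vale.Agent.P161.Hilb
import Vale.Agent.P161.InnovDef
import Vale.Agent.P161.Bayes

/-!
# P161, module Innov : existence of the innovation process
-/

namespace P161

open MeasureTheory ProbabilityTheory Filter Topology

open scoped ENNReal RealInnerProductSpace

namespace Inn

section General

variable {Ω : Type*} [MeasurableSpace Ω] {P : Measure Ω}

theorem inner_toLp {f g : Ω → ℝ} (hf : MemLp f 2 P) (hg : MemLp g 2 P) :
    ⟪hf.toLp f, hg.toLp g⟫ = ∫ ω, f ω * g ω ∂P := by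
  rw [L2.inner_def]
  refine integral_congr_ae ?_
  filter_upwards [hf.coeFn_toLp, hg.coeFn_toLp] with ω h1 h2
  rw [h1, h2]
  simp [mul_comm]

theorem toLp_sum {ι : Type*} (s : Finset ι) (c : ℝ) {f : ι → Ω → ℝ} (hf : ∀ i, MemLp (f i) 2 P)
    (hs : MemLp (fun ω => ∑ i ∈ s, c * f i ω) 2 P) :
    hs.toLp _ = ∑ i ∈ s, c • (hf i).toLp (f i) := by
  classical
  induction s using Finset.induction_on with
  | empty =>
    have h0 : (∑ i ∈ (∅ : Finset ι), c • (hf i).toLp (f i)) = 0 := Finset.sum_empty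
    rw [h0]
    refine Lp.ext ?_
    filter_upwards [hs.coeFn_toLp, Lp.coeFn_zero ℝ 2 P] with ω h1 h2
    rw [h1, h2]
    simp
  | insert a s ha ih =>
    have hs' : MemLp (fun ω => ∑ i ∈ s, c * f i ω) 2 P :=
      memLp_finsetSum _ fun i _ => (hf i).const_mul c
    rw [Finset.sum_insert ha, ← ih hs']
    refine Lp.ext ?_
    filter_upwards [hs.coeFn_toLp, Lp.coeFn_add (c • (hf a).toLp (f a)) (hs'.toLp _),
      Lp.coeFn_smul c ((hf a).toLp (f a)), (hf a).coeFn_toLp, hs'.coeFn_toLp] with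
      ω h1 h2 h3 h4 h5
    rw [h1, h2, Pi.add_apply, h3, h5, Finset.sum_insert ha, Pi.smul_apply, h4, smul_eq_mul]

/-- the seminorm of the difference of a function and an `Lp` function -/
theorem eLpNorm_sub_toLp {f : Ω → ℝ} (g : Lp ℝ 2 P) (hf : MemLp f 2 P) :
    eLpNorm (fun ω => (g : Ω → ℝ) ω - f ω) 2 P = ENNReal.ofReal ‖g - hf.toLp f‖ := by
  rw [Lp.norm_def, ENNReal.ofReal_toReal (Lp.eLpNorm_ne_top _)]
  refine eLpNorm_congr_ae ?_
  filter_upwards [Lp.coeFn_sub g (hf.toLp f), hf.coeFn_toLp] with ω h1 h2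
  rw [h1, Pi.sub_apply, h2]

theorem eLpNorm_sub_Lp (g h : Lp ℝ 2 P) :
    eLpNorm (fun ω => (g : Ω → ℝ) ω - (h : Ω → ℝ) ω) 2 P = ENNReal.ofReal ‖g - h‖ := by
  rw [Lp.norm_def, ENNReal.ofReal_toReal (Lp.eLpNorm_ne_top _)]
  refine eLpNorm_congr_ae ?_
  filter_upwards [Lp.coeFn_sub g h] with ω h1
  rw [h1, Pi.sub_apply]

end General

section Proc

variable {V E : Type*} [MeasurableSpace E] {μ : Measure (V → Bool)} [IsProbabilityMeasure μ]
  {ρ : Measure E} {w : ℕ → ℕ → E → ℝ}

omit [IsProbabilityMeasure μ] in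
theorem memLp_spin [IsProbabilityMeasure (PP μ ρ)] (v : V) :
    MemLp (fun ω : Om V E => spin (ω.1 v)) 2 (PP μ ρ) := by
  refine MemLp.of_bound
    (measurable_spin.comp ((measurable_pi_apply v).comp measurable_fst)).aestronglyMeasurable 1
    (Filter.Eventually.of_forall fun ω => ?_)
  show ‖spin (ω.1 v)‖ ≤ 1
  rw [Real.norm_eq_abs, abs_spin]

theorem memLp_M [IsProbabilityMeasure (PP μ ρ)] (hw : IsDyadicBM ρ w) (D : Finset V) (v : V)
    (j k : ℕ) : MemLp (M μ w D v j k : Om V E → ℝ) 2 (PP μ ρ) := by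
  refine MemLp.of_bound (measurable_M hw.meas D v j k).aestronglyMeasurable 1
    (Filter.Eventually.of_forall fun ω => ?_)
  rw [Real.norm_eq_abs]
  exact abs_M_le_one D v j k ω

/-- orthogonality: `M^D_v(a)` is orthogonal to `τ_v - M^{D'}_v(c)` -/
theorem orth (hw : IsDyadicBM ρ w) {D D' : Finset V} (hD : D ⊆ D') {v : V} (hv : v ∈ D')
    (j : ℕ) {a c : ℕ} (hac : a ≤ c) :
    ∫ ω : Om V E, M μ w D v j a ω * (spin (ω.1 v) - M μ w D' v j c ω) ∂(PP μ ρ) = 0 := by
  classical
  let ext : (D' → Fin (c + 1) → ℝ) → V → ℝ := fun x u =>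
    if h : u ∈ D' then x ⟨u, h⟩ ⟨a, Nat.lt_succ_of_le hac⟩ else 0
  have hext : Measurable ext := by
    refine measurable_pi_lambda _ fun u => ?_
    by_cases h : u ∈ D'
    · simp only [ext, h, dif_pos]
      exact (measurable_pi_apply _).comp (measurable_pi_apply _)
    · simp only [ext, h, dif_neg, not_false_iff]
      exact measurable_const
  have h1 := bayes (μ := μ) hw D' hv j c (fun x => mag μ D v (ext x))
    ((measurable_mag μ D v).comp hext) (C := 1) (fun x => abs_mag_le_one μ D v _)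
  rw [← h1]
  refine integral_congr_ae (Filter.Eventually.of_forall fun ω => ?_)
  show M μ w D v j a ω * _ = mag μ D v _ * _
  congr 1
  refine mag_congr μ v fun u hu => ?_
  simp only [ext, hD hu, dif_pos]

end Proc

end Inn

open Inn

theorem exists_innov {V E : Type*} [MeasurableSpace E] [Countable V] {μ : Measure (V → Bool)}
    [IsProbabilityMeasure μ] {ρ : Measure E} {w : ℕ → ℕ → E → ℝ} (hw : IsDyadicBM ρ w) :
    ∃ S T, IsInnov μ ρ w S T := by
  classical
  have := hw.prob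
  have : IsProbabilityMeasure (PP μ ρ) := isProbabilityMeasure_PP
  -- the vectors
  let τ : V → Lp ℝ 2 (PP μ ρ) := fun v => (memLp_spin (μ := μ) (ρ := ρ) v).toLp _
  let m : Finset V → V → ℕ → ℕ → Lp ℝ 2 (PP μ ρ) := fun D v j k =>
    (memLp_M (μ := μ) hw D v j k).toLp _
  have hτ : ∀ v, ‖τ v‖ ≤ 1 := by
    intro v
    rw [Lp.norm_toLp]
    refine ENNReal.toReal_le_of_le_ofReal zero_le_one ?_
    refine (eLpNorm_le_of_ae_bound (C := 1) (Filter.Eventually.of_forall fun ω => ?_)).trans ?_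
    · show ‖spin (ω.1 v)‖ ≤ 1
      rw [Real.norm_eq_abs, abs_spin]
    · simp
  have hm1 : ∀ D v j k, ‖m D v j k‖ ≤ 1 := by
    intro D v j k
    rw [Lp.norm_toLp]
    refine ENNReal.toReal_le_of_le_ofReal zero_le_one ?_
    refine (eLpNorm_le_of_ae_bound (C := 1) (Filter.Eventually.of_forall fun ω => ?_)).trans ?_
    · rw [Real.norm_eq_abs]
      exact abs_M_le_one D v j k ω
    · simp
  have horth : ∀ D D' : Finset V, D ⊆ D' → ∀ v ∈ D', ∀ j a c, a ≤ c →
      ⟪m D v j a, τ v - m D' v j c⟫ = 0 := by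
    intro D D' hD v hv j a c hac
    have hs : MemLp (fun ω : Om V E => spin (ω.1 v) - M μ w D' v j c ω) 2 (PP μ ρ) :=
      (memLp_spin v).sub (memLp_M hw D' v j c)
    have h1 : τ v - m D' v j c = hs.toLp _ := by
      refine Lp.ext ?_
      filter_upwards [Lp.coeFn_sub (τ v) (m D' v j c),
        (memLp_spin (μ := μ) (ρ := ρ) v).coeFn_toLp, (memLp_M (μ := μ) hw D' v j c).coeFn_toLp,
        hs.coeFn_toLp] with ω h1 h2 h3 h4
      rw [h1, Pi.sub_apply, h4]
      show (memLp_spin (μ := μ) (ρ := ρ) v).toLp _ ω - (memLp_M (μ := μ) hw D' v j c).toLp _ ω = _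
      rw [h2, h3]
    rw [h1, inner_toLp]
    exact orth hw hD hv j hac
  have hcons : ∀ D v j k, m D v (j + 1) (2 * k) = m D v j k := by
    intro D v j k
    refine Lp.ext ?_
    filter_upwards [(memLp_M (μ := μ) hw D v (j + 1) (2 * k)).coeFn_toLp,
      (memLp_M (μ := μ) hw D v j k).coeFn_toLp] with ω h1 h2
    show (memLp_M (μ := μ) hw D v (j + 1) (2 * k)).toLp _ ω =
      (memLp_M (μ := μ) hw D v j k).toLp _ ω
    rw [h1, h2]
    exact M_cons hw D v j k ω
  -- limits over finite sets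
  have hinf : ∀ v j k, ∃ L, Tendsto (fun D : Finset V => m (insert v D) v j k) atTop (𝓝 L) := by
    intro v j k
    refine net_limit _ (τ v) fun D D' hDD' => ?_
    exact horth _ _ (Finset.insert_subset_insert v hDD') v (Finset.mem_insert_self _ _) j k k le_rfl
  choose mi hmi using hinf
  have horthi : ∀ v j a c, a ≤ c → ⟪mi v j a, τ v - mi v j c⟫ = 0 := by
    intro v j a c hac
    have h1 : ∀ D : Finset V, ⟪m (insert v D) v j a, τ v - mi v j c⟫ = 0 := by
      intro D
      have h2 : Tendsto (fun D' : Finset V => ⟪m (insert v D) v j a, τ v - m (insert v D') v j c⟫)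
          atTop (𝓝 ⟪m (insert v D) v j a, τ v - mi v j c⟫) :=
        tendsto_const_nhds.inner (tendsto_const_nhds.sub (hmi v j c))
      refine tendsto_nhds_unique h2 (tendsto_const_nhds.congr' ?_)
      filter_upwards [eventually_ge_atTop D] with D' hD'
      exact (horth _ _ (Finset.insert_subset_insert v hD') v (Finset.mem_insert_self _ _)
        j a c hac).symm
    have h3 : Tendsto (fun D : Finset V => ⟪m (insert v D) v j a, τ v - mi v j c⟫)
        atTop (𝓝 ⟪mi v j a, τ v - mi v j c⟫) := (hmi v j a).inner tendsto_const_nhds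
    simp_rw [h1] at h3
    exact (tendsto_nhds_unique h3 tendsto_const_nhds)
  have hconsi : ∀ v j k, mi v (j + 1) (2 * k) = mi v j k := by
    intro v j k
    refine tendsto_nhds_unique (hmi v (j + 1) (2 * k)) ?_
    simp_rw [hcons]
    exact hmi v j k
  have hmi1 : ∀ v j k, ‖mi v j k‖ ≤ 1 := fun v j k =>
    (norm_le_of_orth (horthi v j k k le_rfl)).trans (hτ v)
  -- Riemann sums
  have hR : ∀ (D : Finset V) v, ∃ s : ℕ → ℕ → Lp ℝ 2 (PP μ ρ), ∀ j k i,
      ‖s j k - RS (m (insert v D) v) (j + i) (k * 2 ^ i)‖ ≤ (1 / 2) ^ (j + i) := fun D v =>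
    riemann (hτ v) (hcons _ v) fun j a c hac =>
      horth _ _ (Finset.Subset.refl _) v (Finset.mem_insert_self _ _) j a c hac
  have hRi : ∀ v, ∃ s : ℕ → ℕ → Lp ℝ 2 (PP μ ρ), ∀ j k i,
      ‖s j k - RS (mi v) (j + i) (k * 2 ^ i)‖ ≤ (1 / 2) ^ (j + i) := fun v =>
    riemann (hτ v) (hconsi v) (horthi v)
  choose s hs using hR
  choose si hsi using hRi
  refine ⟨fun D v j k => (s D v j k : Om V E → ℝ), fun v j k => (si v j k : Om V E → ℝ), ?_⟩
  refine ⟨fun D v j k => (Lp.stronglyMeasurable _).measurable,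
    fun v j k => (Lp.stronglyMeasurable _).measurable, ?_, ?_⟩
  · intro D v hv j k i
    have hRm : MemLp (Riem μ w D v j k i : Om V E → ℝ) 2 (PP μ ρ) :=
      memLp_finsetSum _ fun l _ => (memLp_M hw D v (j + i) l).const_mul _
    rw [eLpNorm_sub_toLp _ hRm]
    refine ENNReal.ofReal_le_ofReal ?_
    have h1 : hRm.toLp _ = RS (m (insert v D) v) (j + i) (k * 2 ^ i) := by
      rw [Finset.insert_eq_of_mem hv]
      exact toLp_sum _ _ (fun l => memLp_M (μ := μ) hw D v (j + i) l) hRm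
    rw [h1]
    exact hs D v j k i
  · intro v t ε hε
    have h1 := unif_riemann (F := atTop) (m := fun D : Finset V => m (insert v D) v) (m' := mi v)
      (fun D j k => hm1 _ v j k) (hmi1 v) (hmi v) (s := fun D => s D v) (s' := si v)
      (fun D => hs D v) (hsi v) t hε
    obtain ⟨D0, hD0⟩ := Filter.eventually_atTop.mp h1
    refine ⟨D0, fun D hD j k hk => ?_⟩
    rw [eLpNorm_sub_Lp]
    exact ENNReal.ofReal_le_ofReal (hD0 D hD j k hk)

end P161
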