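import Vale.Agent.P161.Est
import Vale.Agent.P161.Basic
import Vale.Agent.P161.BM
import Vale.Agent.P161.Innov

/-!
# P161, module Final : from the L2 estimate to a factor of i.i.d.
-/

namespace P161

open MeasureTheory ProbabilityTheory Filter Topology
open scoped ENNReal

section Equivariance

variable {V E : Type*} [MeasurableSpace E] {μ : Measure (V → Bool)} {ρ : Measure E}
  {w : ℕ → ℕ → E → ℝ}

theorem map_relabel (ρ : Measure E) [IsProbabilityMeasure ρ] (e : V ≃ V) :
    (Measure.infinitePi fun _ : V => ρ).map (fun (N : V → E) v => N (e.symm v)) =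
      Measure.infinitePi fun _ : V => ρ := by
  have h := Measure.infinitePi_map_piCongrLeft (μ := fun _ : V => ρ) e
  have h2 : (fun (N : V → E) v => N (e.symm v)) = MeasurableEquiv.piCongrLeft (fun _ : V => E) e := by
    ext N v
    rw [MeasurableEquiv.coe_piCongrLeft]
    obtain ⟨u, rfl⟩ := e.surjective v
    rw [Equiv.piCongrLeft_apply_apply]
    simp
  rw [h2]
  exact h

/-- the action of a permutation of `V` on the sample space -/
def Th (e : V ≃ V) (ω : Om V E) : Om V E := (fun v => ω.1 (e.symm v), fun v => ω.2 (e.symm v))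

theorem measurable_Th (e : V ≃ V) : Measurable (Th e : Om V E → Om V E) :=
  (measurable_pi_lambda _ fun v => (measurable_pi_apply (e.symm v)).comp measurable_fst).prodMk
    (measurable_pi_lambda _ fun v => (measurable_pi_apply (e.symm v)).comp measurable_snd)

theorem measurePreserving_Th [IsProbabilityMeasure μ] [IsProbabilityMeasure ρ] (e : V ≃ V)
    (hμ : μ.map (fun σ v => σ (e.symm v)) = μ) :
    MeasurePreserving (Th e : Om V E → Om V E) (PP μ ρ) (PP μ ρ) := by
  have h1 : MeasurePreserving (fun (σ : V → Bool) v => σ (e.symm v)) μ μ :=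
    ⟨measurable_pi_lambda _ fun v => measurable_pi_apply (e.symm v), hμ⟩
  have h2 : MeasurePreserving (fun (N : V → E) v => N (e.symm v))
      (Measure.infinitePi fun _ : V => ρ) (Measure.infinitePi fun _ : V => ρ) :=
    ⟨measurable_pi_lambda _ fun v => measurable_pi_apply (e.symm v), map_relabel ρ e⟩
  exact h1.prod h2

omit [MeasurableSpace E] in
theorem X_Th (e : V ≃ V) (v : V) (j k : ℕ) (ω : Om V E) :
    X w v j k (Th e ω) = X w (e.symm v) j k ω := rfl

theorem mag_relabel (e : V ≃ V) (hμ : μ.map (fun σ v => σ (e.symm v)) = μ) (D : Finset V) (v : V)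
    (x : V → ℝ) :
    mag μ D v (fun u => x (e.symm u)) = mag μ (D.map e.symm.toEmbedding) (e.symm v) x := by
  have hf : ∀ σ : V → Bool, field D (fun u => x (e.symm u)) (fun v => σ (e.symm v)) =
      field (D.map e.symm.toEmbedding) x σ := by
    intro σ
    unfold field
    rw [Finset.sum_map]
    rfl
  have hm : Measurable (fun (σ : V → Bool) v => σ (e.symm v)) :=
    measurable_pi_lambda _ fun v => measurable_pi_apply (e.symm v)
  have h1 : ∫ σ, spin (σ v) * field D (fun u => x (e.symm u)) σ ∂μ =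
      ∫ σ, spin (σ (e.symm v)) * field (D.map e.symm.toEmbedding) x σ ∂μ := by
    have hfm : Measurable fun σ : V → Bool => spin (σ v) * field D (fun u => x (e.symm u)) σ :=
      (measurable_spin_eval v).mul (measurable_field D _)
    conv_lhs => rw [← hμ]
    rw [integral_map hm.aemeasurable hfm.aestronglyMeasurable]
    simp_rw [hf]
  have h2 : ∫ σ, field D (fun u => x (e.symm u)) σ ∂μ =
      ∫ σ, field (D.map e.symm.toEmbedding) x σ ∂μ := by
    conv_lhs => rw [← hμ]
    rw [integral_map hm.aemeasurable (measurable_field D _).aestronglyMeasurable]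
    simp_rw [hf]
  unfold mag
  rw [h1, h2]

omit [MeasurableSpace E] in
theorem M_Th (e : V ≃ V) (hμ : μ.map (fun σ v => σ (e.symm v)) = μ) (D : Finset V) (v : V)
    (j k : ℕ) (ω : Om V E) :
    M μ w D v j k (Th e ω) = M μ w (D.map e.symm.toEmbedding) (e.symm v) j k ω := by
  unfold M
  exact mag_relabel e hμ D v (fun u => X w u j k ω)

omit [MeasurableSpace E] in
theorem Riem_Th (e : V ≃ V) (hμ : μ.map (fun σ v => σ (e.symm v)) = μ) (D : Finset V) (v : V)
    (j k i : ℕ) (ω : Om V E) :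
    Riem μ w D v j k i (Th e ω) = Riem μ w (D.map e.symm.toEmbedding) (e.symm v) j k i ω := by
  unfold Riem
  simp_rw [M_Th e hμ]

theorem measurable_Riem [IsFiniteMeasure μ] (hw : ∀ j k, Measurable (w j k)) (D : Finset V) (v : V)
    (j k i : ℕ) : Measurable (Riem μ w D v j k i : Om V E → ℝ) := by
  unfold Riem
  exact Finset.measurable_sum _ fun l _ => (measurable_M hw D v (j + i) l).const_mul _

theorem T_Th [IsProbabilityMeasure μ] (hw : IsDyadicBM ρ w)
    {S : Finset V → V → ℕ → ℕ → Om V E → ℝ} {T : V → ℕ → ℕ → Om V E → ℝ}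
    (hS : IsInnov μ ρ w S T) (e : V ≃ V) (hμ : μ.map (fun σ v => σ (e.symm v)) = μ) (v : V)
    (j k : ℕ) : ∀ᵐ ω ∂(PP μ ρ), T v j k (Th e ω) = T (e.symm v) j k ω := by
  classical
  have := hw.prob
  have hP := measurePreserving_Th (ρ := ρ) e hμ
  have hmT : ∀ v, AEStronglyMeasurable (T v j k) (PP μ ρ) := fun v =>
    (hS.measInf v j k).aestronglyMeasurable
  have hTh := (measurable_Th (E := E) e)
  -- the distance is at most `4 ε` for every `ε`
  have key : ∀ ε : ℝ, 0 < ε →
      eLpNorm (fun ω => T v j k (Th e ω) - T (e.symm v) j k ω) 2 (PP μ ρ) ≤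
        ENNReal.ofReal (4 * ε) := by
    intro ε hε
    obtain ⟨D1, h1⟩ := hS.unif v (k + 1) ε hε
    obtain ⟨D2, h2⟩ := hS.unif (e.symm v) (k + 1) ε hε
    obtain ⟨i, hi⟩ := exists_pow_lt_of_lt_one hε (show (1 / 2 : ℝ) < 1 by norm_num)
    have hk : k ≤ (k + 1) * 2 ^ j := by
      have : 1 ≤ 2 ^ j := Nat.one_le_two_pow
      nlinarith
    have hi' : (1 / 2 : ℝ) ^ (j + i) ≤ ε := by
      refine le_trans ?_ hi.le
      exact pow_le_pow_of_le_one (by norm_num) (by norm_num) (by omega)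
    set D : Finset V := insert v (D1 ∪ D2.map e.toEmbedding) with hD
    have hD1 : D1 ⊆ D := fun x hx => Finset.mem_insert_of_mem (Finset.mem_union_left _ hx)
    have hvD : v ∈ D := Finset.mem_insert_self _ _
    have hD2 : D2 ⊆ D.map e.symm.toEmbedding := by
      intro x hx
      rw [Finset.mem_map]
      refine ⟨e x, ?_, by simp⟩
      apply Finset.mem_insert_of_mem
      apply Finset.mem_union_right
      rw [Finset.mem_map]
      exact ⟨x, hx, rfl⟩
    have hvD' : e.symm v ∈ D.map e.symm.toEmbedding := by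
      rw [Finset.mem_map]
      exact ⟨v, hvD, rfl⟩
    have hmS : ∀ D v, Measurable (S D v j k) := fun D v => hS.meas D v j k
    have hmR : ∀ D v, Measurable (Riem μ w D v j k i : Om V E → ℝ) := fun D v =>
      measurable_Riem hw.meas D v j k i
    have a1 : eLpNorm (fun ω => S D v j k (Th e ω) - T v j k (Th e ω)) 2 (PP μ ρ) ≤
        ENNReal.ofReal ε := by
      have h3 := eLpNorm_comp_measurePreserving (p := 2)
        ((hmS D v).sub (hS.measInf v j k)).aestronglyMeasurable hP
      rw [show (fun ω => S D v j k (Th e ω) - T v j k (Th e ω)) =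
        ((S D v j k - T v j k) ∘ Th e) from rfl, h3]
      exact h1 D hD1 j k hk
    have a2 : eLpNorm (fun ω => S D v j k (Th e ω) - Riem μ w D v j k i (Th e ω)) 2 (PP μ ρ) ≤
        ENNReal.ofReal ε := by
      have h3 := eLpNorm_comp_measurePreserving (p := 2)
        ((hmS D v).sub (hmR D v)).aestronglyMeasurable hP
      rw [show (fun ω => S D v j k (Th e ω) - Riem μ w D v j k i (Th e ω)) =
        ((S D v j k - Riem μ w D v j k i) ∘ Th e) from rfl, h3]
      exact (hS.approx D v hvD j k i).trans (ENNReal.ofReal_le_ofReal hi')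
    have a3 : eLpNorm (fun ω => S (D.map e.symm.toEmbedding) (e.symm v) j k ω -
        Riem μ w (D.map e.symm.toEmbedding) (e.symm v) j k i ω) 2 (PP μ ρ) ≤ ENNReal.ofReal ε :=
      (hS.approx _ _ hvD' j k i).trans (ENNReal.ofReal_le_ofReal hi')
    have a4 : eLpNorm (fun ω => S (D.map e.symm.toEmbedding) (e.symm v) j k ω -
        T (e.symm v) j k ω) 2 (PP μ ρ) ≤ ENNReal.ofReal ε := h2 _ hD2 j k hk
    have hsplit : (fun ω => T v j k (Th e ω) - T (e.symm v) j k ω) =
        ((fun ω => S D v j k (Th e ω) - Riem μ w D v j k i (Th e ω)) -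
          (fun ω => S D v j k (Th e ω) - T v j k (Th e ω))) +
        ((fun ω => S (D.map e.symm.toEmbedding) (e.symm v) j k ω - T (e.symm v) j k ω) -
          (fun ω => S (D.map e.symm.toEmbedding) (e.symm v) j k ω -
            Riem μ w (D.map e.symm.toEmbedding) (e.symm v) j k i ω)) := by
      ext ω
      simp only [Pi.add_apply, Pi.sub_apply]
      rw [Riem_Th e hμ]
      ring
    have m1 : AEStronglyMeasurable (fun ω => S D v j k (Th e ω) - T v j k (Th e ω)) (PP μ ρ) :=
      (((hmS D v).comp hTh).sub ((hS.measInf v j k).comp hTh)).aestronglyMeasurable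
    have m2 : AEStronglyMeasurable
        (fun ω => S D v j k (Th e ω) - Riem μ w D v j k i (Th e ω)) (PP μ ρ) :=
      (((hmS D v).comp hTh).sub ((hmR D v).comp hTh)).aestronglyMeasurable
    have m3 : AEStronglyMeasurable (fun ω => S (D.map e.symm.toEmbedding) (e.symm v) j k ω -
            Riem μ w (D.map e.symm.toEmbedding) (e.symm v) j k i ω) (PP μ ρ) :=
      ((hmS _ _).sub (hmR _ _)).aestronglyMeasurable
    have m4 : AEStronglyMeasurable (fun ω => S (D.map e.symm.toEmbedding) (e.symm v) j k ω -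
        T (e.symm v) j k ω) (PP μ ρ) :=
      ((hmS _ _).sub (hS.measInf _ j k)).aestronglyMeasurable
    rw [hsplit]
    have h12 : (1 : ℝ≥0∞) ≤ 2 := by norm_num
    calc _ ≤ (ENNReal.ofReal ε + ENNReal.ofReal ε) + (ENNReal.ofReal ε + ENNReal.ofReal ε) := by
          refine (eLpNorm_add_le (m2.sub m1) (m4.sub m3) h12).trans (add_le_add ?_ ?_)
          · exact (eLpNorm_sub_le m2 m1 h12).trans (add_le_add a2 a1)
          · exact (eLpNorm_sub_le m4 m3 h12).trans (add_le_add a4 a3)
      _ = ENNReal.ofReal (4 * ε) := by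
          rw [← ENNReal.ofReal_add hε.le hε.le, ← ENNReal.ofReal_add (by linarith) (by linarith)]
          congr 1
          ring
  have hzero : eLpNorm (fun ω => T v j k (Th e ω) - T (e.symm v) j k ω) 2 (PP μ ρ) = 0 := by
    refine le_antisymm (le_of_forall_pos_le_add fun ε hε => ?_) zero_le
    rw [zero_add]
    by_cases htop : ε = ⊤
    · rw [htop]; exact le_top
    · have h5 := key (ε.toReal / 4) (div_pos (ENNReal.toReal_pos hε.ne' htop) (by norm_num))
      rw [show 4 * (ε.toReal / 4) = ε.toReal by ring, ENNReal.ofReal_toReal htop] at h5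
      exact h5
  have hm : AEStronglyMeasurable (fun ω => T v j k (Th e ω) - T (e.symm v) j k ω) (PP μ ρ) :=
    (((hS.measInf v j k).comp hTh).sub (hS.measInf _ j k)).aestronglyMeasurable
  rw [eLpNorm_eq_zero_iff hm (by norm_num)] at hzero
  filter_upwards [hzero] with ω hω
  have : T v j k (Th e ω) - T (e.symm v) j k ω = 0 := hω
  linarith

end Equivariance

section Limit

variable {V E : Type*} [MeasurableSpace E] {μ : Measure (V → Bool)} {ρ : Measure E}
  {w : ℕ → ℕ → E → ℝ}

theorem eLpNorm_two_le_of_sq {Ω : Type*} [MeasurableSpace Ω] {P : Measure Ω} {f : Ω → ℝ}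
    (hf : MemLp f 2 P) {c : ℝ} (hc : 0 ≤ c) (h : ∫ ω, f ω ^ 2 ∂P ≤ c ^ 2) :
    eLpNorm f 2 P ≤ ENNReal.ofReal c := by
  rw [hf.eLpNorm_eq_integral_rpow_norm (by norm_num) (by norm_num)]
  apply ENNReal.ofReal_le_ofReal
  have h1 : ∫ a, ‖f a‖ ^ (2 : ℝ≥0∞).toReal ∂P = ∫ ω, f ω ^ 2 ∂P := by
    refine integral_congr_ae (Eventually.of_forall fun a => ?_)
    simp
  rw [h1]
  have h2 : (2 : ℝ≥0∞).toReal⁻¹ = 1 / 2 := by simp
  rw [h2, ← Real.sqrt_eq_rpow]
  exact Real.sqrt_le_iff.mpr ⟨hc, h⟩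

/-- the noise at `v` at time `t` has `L2` norm at most `√t` -/
theorem eLpNorm_noise [IsProbabilityMeasure μ] (hw : IsDyadicBM ρ w) (v : V) (t : ℕ) :
    eLpNorm (fun ω : Om V E => w 0 t (ω.2 v)) 2 (PP μ ρ) ≤ ENNReal.ofReal (Real.sqrt t) := by
  have := hw.prob
  have hmp : MeasurePreserving (fun ω : Om V E => ω.2 v) (PP μ ρ) ρ :=
    (measurePreserving_eval_infinitePi (fun _ : V => ρ) v).comp measurePreserving_snd
  have h1 : eLpNorm (fun ω : Om V E => w 0 t (ω.2 v)) 2 (PP μ ρ) = eLpNorm (w 0 t) 2 ρ :=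
    eLpNorm_comp_measurePreserving (hw.meas 0 t).aestronglyMeasurable hmp
  rw [h1]
  apply eLpNorm_two_le_of_sq (memLp_w hw 0 t) (Real.sqrt_nonneg _)
  rw [integral_w_sq hw, Real.sq_sqrt (by positivity)]
  simp

/-- the spin at `o` is a measurable function of a process that determines `X_o(t)` in `L2` -/
theorem exists_psi [IsProbabilityMeasure μ] (hw : IsDyadicBM ρ w) {Y : Type*} [MeasurableSpace Y]
    {B : Om V E → Y} (hB : Measurable B) (o : V)
    (hΨ : ∀ t : ℕ, ∃ Ψ : ℕ → Y → ℝ, (∀ n, Measurable (Ψ n)) ∧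
      Tendsto (fun n => eLpNorm (fun ω => X w o 0 t ω - Ψ n (B ω)) 2 (PP μ ρ)) atTop (𝓝 0)) :
    ∃ ψ : Y → Bool, Measurable ψ ∧ ∀ᵐ ω ∂(PP μ ρ), ω.1 o = ψ (B ω) := by
  classical
  have := hw.prob
  have hPP : IsProbabilityMeasure (PP μ ρ) := isProbabilityMeasure_PP
  have hone : ∀ t : ℕ, ∃ f : Y → ℝ, Measurable f ∧
      eLpNorm (fun ω => X w o 0 t ω - f (B ω)) 2 (PP μ ρ) ≤ 1 := by
    intro t
    obtain ⟨Ψ, hm, ht⟩ := hΨ t
    have h1 := ht.eventually (Iic_mem_nhds (show (0 : ℝ≥0∞) < 1 by norm_num))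
    obtain ⟨n, hn⟩ := h1.exists
    exact ⟨Ψ n, hm n, hn⟩
  choose f hfm hf using hone
  set F : ℕ → Om V E → ℝ := fun t ω => ((t : ℝ) + 1)⁻¹ * f (t + 1) (B ω) with hF
  have hFm : ∀ t, Measurable (F t) := fun t => ((hfm (t + 1)).comp hB).const_mul _
  have hsm : Measurable fun ω : Om V E => spin (ω.1 o) :=
    measurable_spin.comp ((measurable_pi_apply o).comp measurable_fst)
  have hbd : ∀ t : ℕ, eLpNorm (F t - fun ω : Om V E => spin (ω.1 o)) 2 (PP μ ρ) ≤
      ENNReal.ofReal (((t : ℝ) + 1)⁻¹ * (1 + Real.sqrt ((t + 1 : ℕ) : ℝ))) := by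
    intro t
    have ht : (0 : ℝ) < (t : ℝ) + 1 := by positivity
    have hsplit : (F t - fun ω : Om V E => spin (ω.1 o)) =
        ((t : ℝ) + 1)⁻¹ • ((fun ω : Om V E => w 0 (t + 1) (ω.2 o)) -
          fun ω => X w o 0 (t + 1) ω - f (t + 1) (B ω)) := by
      ext ω
      simp only [Pi.sub_apply, Pi.smul_apply, smul_eq_mul, hF, X]
      push_cast
      field_simp
      ring
    have m1 : AEStronglyMeasurable (fun ω : Om V E => w 0 (t + 1) (ω.2 o)) (PP μ ρ) :=
      ((hw.meas 0 (t + 1)).comp ((measurable_pi_apply o).comp measurable_snd)).aestronglyMeasurable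
    have m2 : AEStronglyMeasurable (fun ω => X w o 0 (t + 1) ω - f (t + 1) (B ω)) (PP μ ρ) :=
      ((measurable_X hw.meas o 0 (t + 1)).sub ((hfm (t + 1)).comp hB)).aestronglyMeasurable
    rw [hsplit, eLpNorm_const_smul, ENNReal.ofReal_mul (by positivity),
      Real.enorm_eq_ofReal (by positivity)]
    gcongr
    rw [ENNReal.ofReal_add (by norm_num) (Real.sqrt_nonneg _), ENNReal.ofReal_one]
    refine (eLpNorm_sub_le m1 m2 (by norm_num)).trans ?_
    rw [add_comm (1 : ℝ≥0∞)]
    exact add_le_add (eLpNorm_noise hw o (t + 1)) (hf (t + 1))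
  have hlim : Tendsto (fun t : ℕ => eLpNorm (F t - fun ω : Om V E => spin (ω.1 o)) 2 (PP μ ρ))
      atTop (𝓝 0) := by
    refine tendsto_of_tendsto_of_tendsto_of_le_of_le tendsto_const_nhds ?_
      (fun _ => zero_le) hbd
    rw [← ENNReal.ofReal_zero]
    apply (ENNReal.continuous_ofReal.tendsto 0).comp
    have hs : ∀ t : ℕ, ((t : ℝ) + 1)⁻¹ * (1 + Real.sqrt ((t + 1 : ℕ) : ℝ)) =
        ((t : ℝ) + 1)⁻¹ + (Real.sqrt ((t : ℝ) + 1))⁻¹ := by
      intro t
      have ht : (0 : ℝ) < (t : ℝ) + 1 := by positivity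
      have h1 : Real.sqrt ((t : ℝ) + 1) * Real.sqrt ((t : ℝ) + 1) = (t : ℝ) + 1 :=
        Real.mul_self_sqrt ht.le
      have h2 : 0 < Real.sqrt ((t : ℝ) + 1) := Real.sqrt_pos.mpr ht
      push_cast
      rw [mul_add, mul_one]
      congr 1
      field_simp
      nlinarith
    simp_rw [hs]
    have h1 : Tendsto (fun t : ℕ => (t : ℝ) + 1) atTop atTop :=
      tendsto_atTop_add_const_right _ _ tendsto_natCast_atTop_atTop
    have h2 := h1.inv_tendsto_atTop
    have h3 := (Real.tendsto_sqrt_atTop.comp h1).inv_tendsto_atTop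
    have h4 := h2.add h3
    rw [add_zero] at h4
    exact h4
  have hmeas := tendstoInMeasure_of_tendsto_eLpNorm (p := 2) (by norm_num)
    (fun t => (hFm t).aestronglyMeasurable) hsm.aestronglyMeasurable hlim
  obtain ⟨ns, _, hns⟩ := hmeas.exists_seq_tendsto_ae
  set A : Set Y := {b | ∀ᶠ k in atTop, 0 < f (ns k + 1) b} with hA
  have hAm : MeasurableSet A := by
    have : A = ⋃ K : ℕ, ⋂ k : ℕ, ⋂ (_ : K ≤ k), {b | 0 < f (ns k + 1) b} := by
      ext b
      simp [hA, eventually_atTop]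
    rw [this]
    exact MeasurableSet.iUnion fun K => MeasurableSet.iInter fun k =>
      MeasurableSet.iInter fun _ => measurableSet_lt measurable_const (hfm _)
  refine ⟨fun b => if b ∈ A then true else false,
    Measurable.ite hAm measurable_const measurable_const, ?_⟩
  filter_upwards [hns] with ω hω
  by_cases hb : ω.1 o = true
  · have h1 : spin (ω.1 o) = 1 := by simp [spin, hb]
    rw [h1] at hω
    have h2 : B ω ∈ A := by
      filter_upwards [hω.eventually (lt_mem_nhds (show (0 : ℝ) < 1 by norm_num))] with k hk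
      have h3 : 0 < ((ns k : ℝ) + 1)⁻¹ * f (ns k + 1) (B ω) := hk
      exact pos_of_mul_pos_right h3 (by positivity)
    rw [hb]
    exact (if_pos h2).symm
  · have hb' : ω.1 o = false := by simpa using hb
    have h1 : spin (ω.1 o) = -1 := by simp [spin, hb']
    rw [h1] at hω
    have h2 : B ω ∉ A := by
      intro h2
      have h4 := hω.eventually (gt_mem_nhds (show (-1 : ℝ) < 0 by norm_num))
      obtain ⟨k, hk1, hk2⟩ := (h4.and h2).exists
      have h3 : ((ns k : ℝ) + 1)⁻¹ * f (ns k + 1) (B ω) < 0 := hk1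
      have h5 : 0 < ((ns k : ℝ) + 1)⁻¹ * f (ns k + 1) (B ω) := mul_pos (by positivity) hk2
      linarith
    rw [hb']
    exact (if_neg h2).symm

end Limit

theorem final {V : Type*} [Countable V] [Nonempty V] {G : SimpleGraph V} {μ : Measure (V → Bool)}
    [IsProbabilityMeasure μ] (hinv : ∀ g : G ≃g G, μ.map (fun σ v => σ (g.symm v)) = μ)
    (hK : ∀ o : V, ∃ (D : ℕ → Finset V) (K : V → V → ℝ) (p : V → ℝ) (L : ℝ), Monotone D ∧
      (∀ n, o ∈ D n) ∧ (∀ v, ∃ n, v ∈ D n) ∧ (∀ u v, 0 ≤ K u v) ∧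
      (∀ n, ∀ v ∈ D n, ∀ x y,
        |mag μ (D n) v x - mag μ (D n) v y| ≤ ∑ u ∈ D n, K v u * |x u - y u|) ∧
      (∀ u, 0 ≤ p u) ∧ 0 ≤ L ∧ (∀ n, ∀ u ∈ D n, ∑ v ∈ D n, p v * K v u ≤ L * p u) ∧
      (∀ u, K o u ≤ p u) ∧ Summable fun u => p u ^ 2) :
    IsFactorOfIID G μ := by
  classical
  obtain ⟨ρ, w, hw⟩ := exists_bm
  obtain ⟨S, T, hS⟩ := exists_innov (μ := μ) hw
  have hρ := hw.prob
  have hPP : IsProbabilityMeasure (PP μ ρ) := isProbabilityMeasure_PP
  set B : Om V (ℕ → ℕ → ℝ) → V → ℕ → ℕ → ℝ := fun ω v j k => X w v j k ω - T v j k ω with hBdef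
  have hB : Measurable B := measurable_pi_lambda _ fun v => measurable_pi_lambda _ fun j =>
    measurable_pi_lambda _ fun k => (measurable_X hw.meas v j k).sub (hS.measInf v j k)
  -- the law of `B`
  set path : (ℕ → ℕ → ℝ) → ℕ → ℕ → ℝ := fun e j k => w j k e with hpath
  have hpm : Measurable path := measurable_pi_lambda _ fun j => measurable_pi_lambda _ fun k =>
    hw.meas j k
  set ν : Measure (ℕ → ℕ → ℝ) := ρ.map path with hν
  have hνp : IsProbabilityMeasure ν := Measure.isProbabilityMeasure_map hpm.aemeasurable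
  have hlaw : (PP μ ρ).map B = Measure.infinitePi fun _ : V => ν := by
    have h1 := law_inf hw hS
    rw [hBdef, h1]
    exact Measure.infinitePi_map_pi (μ := fun _ : V => ρ) (f := fun _ => path) fun _ => hpm
  -- the spins as functions of `B`
  have hψ : ∀ o : V, ∃ ψ : (V → ℕ → ℕ → ℝ) → Bool, Measurable ψ ∧
      ∀ᵐ ω ∂(PP μ ρ), ω.1 o = ψ (B ω) := by
    intro o
    obtain ⟨D, K, p, L, hmono, ho, hexh, hK0, hlip, hp, hL, hker, hop, hsum⟩ := hK o
    exact exists_psi hw hB o fun t =>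
      main_est hw hS hmono ho hexh hK0 hlip hp hL hker hop hsum t
  choose ψ hψm hψ using hψ
  set Ψ : (V → ℕ → ℕ → ℝ) → V → Bool := fun b o => ψ o b with hΨ
  have hΨm : Measurable Ψ := measurable_pi_lambda _ hψm
  have hΨae : ∀ᵐ ω ∂(PP μ ρ), Ψ (B ω) = ω.1 := by
    have h1 : ∀ᵐ ω ∂(PP μ ρ), ∀ o : V, ω.1 o = ψ o (B ω) := ae_all_iff.mpr hψ
    filter_upwards [h1] with ω hω
    ext o
    exact (hω o).symm
  -- transport
  obtain ⟨γ, hγm, hγ⟩ := Measure.exists_measurable_map_eq ν
  set Γ : (V → unitInterval) → V → ℕ → ℕ → ℝ := fun U v => γ (U v) with hΓ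
  have hΓm : Measurable Γ := measurable_pi_lambda _ fun v => hγm.comp (measurable_pi_apply v)
  have hΓlaw : (Measure.infinitePi fun _ : V => (volume : Measure unitInterval)).map Γ =
      (PP μ ρ).map B := by
    rw [hlaw]
    have h1 := Measure.infinitePi_map_pi (μ := fun _ : V => (volume : Measure unitInterval))
      (f := fun _ => γ) fun _ => hγm
    rw [hγ] at h1
    exact h1
  refine ⟨Ψ ∘ Γ, hΨm.comp hΓm, ?_, ?_⟩
  · intro g
    have hg := hinv g
    have hTh := measurePreserving_Th (ρ := ρ) (g : V ≃ V) hg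
    have hBT : ∀ᵐ ω ∂(PP μ ρ), B (Th (g : V ≃ V) ω) = fun v => B ω (g.symm v) := by
      have h1 : ∀ᵐ ω ∂(PP μ ρ), ∀ v j k, T v j k (Th (g : V ≃ V) ω) = T (g.symm v) j k ω :=
        ae_all_iff.mpr fun v => ae_all_iff.mpr fun j => ae_all_iff.mpr fun k =>
          T_Th hw hS (g : V ≃ V) hg v j k
      filter_upwards [h1] with ω hω
      ext v j k
      simp only [hBdef]
      rw [hω v j k]
      rfl
    have hgoal : ∀ᵐ ω ∂(PP μ ρ), Ψ (fun v => B ω (g.symm v)) = fun v => Ψ (B ω) (g.symm v) := by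
      have h2 := hTh.quasiMeasurePreserving.ae hΨae
      filter_upwards [hΨae, h2, hBT] with ω h3 h4 h5
      rw [← h5, h4, h3]
      rfl
    have hmeas : MeasurableSet {b : V → ℕ → ℕ → ℝ |
        Ψ (fun v => b (g.symm v)) = fun v => Ψ b (g.symm v)} := by
      have h6 : {b : V → ℕ → ℕ → ℝ | Ψ (fun v => b (g.symm v)) = fun v => Ψ b (g.symm v)} =
          ⋂ v : V, {b | Ψ (fun v => b (g.symm v)) v = Ψ b (g.symm v)} := by
        ext b
        simp [funext_iff]
      rw [h6]
      refine MeasurableSet.iInter fun v => measurableSet_eq_fun ?_ ?_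
      · exact (measurable_pi_apply v).comp (hΨm.comp
          (measurable_pi_lambda _ fun v => measurable_pi_apply (g.symm v)))
      · exact (measurable_pi_apply (g.symm v)).comp hΨm
    have h7 : ∀ᵐ b ∂((PP μ ρ).map B), Ψ (fun v => b (g.symm v)) = fun v => Ψ b (g.symm v) :=
      (ae_map_iff hB.aemeasurable hmeas).mpr hgoal
    rw [← hΓlaw] at h7
    exact ae_of_ae_map hΓm.aemeasurable h7
  · rw [← Measure.map_map hΨm hΓm, hΓlaw, Measure.map_map hΨm hB]
    have h8 : (Ψ ∘ B) =ᵐ[PP μ ρ] Prod.fst := hΨae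
    rw [Measure.map_congr h8]
    exact measurePreserving_fst.map_eq

end P161
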