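import Vale.Agent.P161.Basic
import Vale.Agent.P161.Leaf

/-!
# P161, module Ising : Lipschitz bound for the magnetization
-/

namespace P161

open MeasureTheory ProbabilityTheory
open scoped ENNReal

section Real

/-- effective field transmitted by an edge: `tanh (eff θ h) = θ tanh h` -/
noncomputable def eff (θ h : ℝ) : ℝ :=
  (Real.log (Real.cosh h + θ * Real.sinh h) - Real.log (Real.cosh h - θ * Real.sinh h)) / 2

theorem abs_sinh_lt_cosh (h : ℝ) : |Real.sinh h| < Real.cosh h := by
  have h1 : |Real.sinh h| ^ 2 < Real.cosh h ^ 2 := by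
    rw [sq_abs, Real.cosh_sq]; linarith
  exact lt_of_pow_lt_pow_left₀ 2 (Real.cosh_pos h).le h1

theorem cs_pos {θ : ℝ} (h0 : 0 ≤ θ) (h1 : θ < 1) (h : ℝ) :
    0 < Real.cosh h + θ * Real.sinh h ∧ 0 < Real.cosh h - θ * Real.sinh h := by
  have h2 : |θ * Real.sinh h| < Real.cosh h := by
    rw [abs_mul, abs_of_nonneg h0]
    have := abs_sinh_lt_cosh h
    nlinarith [abs_nonneg (Real.sinh h), Real.cosh_pos h]
  rw [abs_lt] at h2
  constructor <;> linarith [h2.1, h2.2]

theorem exp_eff {θ : ℝ} (h0 : 0 ≤ θ) (h1 : θ < 1) (h : ℝ) :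
    ∃ A : ℝ, 0 < A ∧ ∀ b : Bool, Real.cosh h + θ * spin b * Real.sinh h =
      A * Real.exp (eff θ h * spin b) := by
  obtain ⟨hp, hm⟩ := cs_pos h0 h1 h
  refine ⟨Real.exp ((Real.log (Real.cosh h + θ * Real.sinh h) +
    Real.log (Real.cosh h - θ * Real.sinh h)) / 2), Real.exp_pos _, fun b => ?_⟩
  rw [← Real.exp_add]
  cases b
  · have : (Real.log (Real.cosh h + θ * Real.sinh h) +
      Real.log (Real.cosh h - θ * Real.sinh h)) / 2 + eff θ h * spin false =
        Real.log (Real.cosh h - θ * Real.sinh h) := by
      simp only [eff, spin, Bool.false_eq_true, if_false]; ring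
    rw [this, Real.exp_log hm]
    simp [spin]; ring
  · have : (Real.log (Real.cosh h + θ * Real.sinh h) +
      Real.log (Real.cosh h - θ * Real.sinh h)) / 2 + eff θ h * spin true =
        Real.log (Real.cosh h + θ * Real.sinh h) := by
      simp only [eff, spin, if_true]; ring
    rw [this, Real.exp_log hp]
    simp [spin]

theorem tanh_eff {θ : ℝ} (h0 : 0 ≤ θ) (h1 : θ < 1) (h : ℝ) :
    Real.tanh (eff θ h) = θ * Real.tanh h := by
  obtain ⟨A, hA, hb⟩ := exp_eff h0 h1 h
  have ht := hb true
  have hf := hb false
  simp only [spin, if_true, Bool.false_eq_true, if_false, mul_one] at ht hf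
  have e1 : A * Real.cosh (eff θ h) = Real.cosh h := by
    rw [Real.cosh_eq]
    have : eff θ h * -1 = - eff θ h := by ring
    rw [this] at hf
    linarith
  have e2 : A * Real.sinh (eff θ h) = θ * Real.sinh h := by
    rw [Real.sinh_eq]
    have : eff θ h * -1 = - eff θ h := by ring
    rw [this] at hf
    linarith
  rw [Real.tanh_eq_sinh_div_cosh, Real.tanh_eq_sinh_div_cosh, ← mul_div_assoc, ← e1, ← e2,
    mul_div_mul_left _ _ hA.ne']

theorem hasDerivAt_eff {θ : ℝ} (h0 : 0 ≤ θ) (h1 : θ < 1) (h : ℝ) :
    HasDerivAt (eff θ) (θ / ((Real.cosh h + θ * Real.sinh h) *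
      (Real.cosh h - θ * Real.sinh h))) h := by
  obtain ⟨hp, hm⟩ := cs_pos h0 h1 h
  have d1 : HasDerivAt (fun h => Real.cosh h + θ * Real.sinh h)
      (Real.sinh h + θ * Real.cosh h) h :=
    (Real.hasDerivAt_cosh h).add ((Real.hasDerivAt_sinh h).const_mul θ)
  have d2 : HasDerivAt (fun h => Real.cosh h - θ * Real.sinh h)
      (Real.sinh h - θ * Real.cosh h) h :=
    (Real.hasDerivAt_cosh h).sub ((Real.hasDerivAt_sinh h).const_mul θ)
  have d3 := ((d1.log hp.ne').sub (d2.log hm.ne')).div_const 2
  refine d3.congr_deriv ?_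
  have hcs := Real.cosh_sq h
  have hp' := hp.ne'
  have hm' := hm.ne'
  rw [div_sub_div _ _ hp' hm', div_div, div_eq_div_iff (by positivity) (by positivity)]
  linear_combination (2 * θ * ((Real.cosh h + θ * Real.sinh h) *
      (Real.cosh h - θ * Real.sinh h))) * hcs

theorem eff_lip {θ : ℝ} (h0 : 0 ≤ θ) (h1 : θ < 1) (a b : ℝ) :
    |eff θ a - eff θ b| ≤ θ * |a - b| := by
  have := Convex.norm_image_sub_le_of_norm_hasDerivWithin_le (f := eff θ) (C := θ)
    (s := Set.univ) (x := b) (y := a) (fun x _ => (hasDerivAt_eff h0 h1 x).hasDerivWithinAt)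
    (fun x _ => ?_) convex_univ (Set.mem_univ _) (Set.mem_univ _)
  · simpa [Real.norm_eq_abs] using this
  · obtain ⟨hp, hm⟩ := cs_pos h0 h1 x
    rw [Real.norm_eq_abs, abs_of_nonneg (by positivity)]
    refine div_le_self h0 ?_
    have hcs := Real.cosh_sq x
    have : θ ^ 2 * Real.sinh x ^ 2 ≤ Real.sinh x ^ 2 := by
      have : θ ^ 2 ≤ 1 := by nlinarith
      nlinarith [sq_nonneg (Real.sinh x)]
    nlinarith

theorem tanh_lip (a b : ℝ) : |Real.tanh a - Real.tanh b| ≤ |a - b| := by
  have hd : ∀ x : ℝ, HasDerivAt Real.tanh (1 / Real.cosh x ^ 2) x := by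
    intro x
    have h1 := (Real.hasDerivAt_sinh x).div (Real.hasDerivAt_cosh x) (Real.cosh_pos x).ne'
    have h2 : Real.tanh = fun x => Real.sinh x / Real.cosh x := by
      ext x; exact Real.tanh_eq_sinh_div_cosh x
    rw [h2]
    refine h1.congr_deriv ?_
    have := Real.cosh_sq x
    congr 1
    linarith [this]
  have := Convex.norm_image_sub_le_of_norm_hasDerivWithin_le (f := Real.tanh) (C := 1)
    (s := Set.univ) (x := b) (y := a) (fun x _ => (hd x).hasDerivWithinAt)
    (fun x _ => ?_) convex_univ (Set.mem_univ _) (Set.mem_univ _)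
  · simpa [Real.norm_eq_abs] using this
  · rw [Real.norm_eq_abs, abs_of_nonneg (by positivity)]
    rw [div_le_one (by have := Real.cosh_pos x; positivity)]
    have := Real.one_le_cosh x
    nlinarith

end Real

section Measure

variable {V : Type*}

/-- the cylinder of the configurations that agree with `η` on `D` -/
def cyl (D : Finset V) (η : V → Bool) : Set (V → Bool) := {σ | ∀ v ∈ D, σ v = η v}

theorem measurableSet_cyl (D : Finset V) (η : V → Bool) : MeasurableSet (cyl D η) := by
  have : cyl D η = ⋂ v ∈ D, (fun σ : V → Bool => σ v) ⁻¹' {η v} := by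
    ext σ; simp [cyl]
  rw [this]
  exact Finset.measurableSet_biInter _ fun v _ => measurable_pi_apply v (by simp)

open Classical in
/-- extension by `false` -/
noncomputable def ext (D : Finset V) (η : D → Bool) : V → Bool :=
  fun v => if h : v ∈ D then η ⟨v, h⟩ else false

theorem ext_apply (D : Finset V) (η : D → Bool) (v : D) : ext D η v = η v := by
  simp [ext]

theorem integral_cyl [DecidableEq V] (μ : Measure (V → Bool)) (D : Finset V)
    {F : (V → Bool) → ℝ} (hF : Integrable F μ) :
    ∫ σ, F σ ∂μ = ∑ η : D → Bool, ∫ σ in cyl D (ext D η), F σ ∂μ := by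
  rw [← integral_iUnion_fintype (fun η => measurableSet_cyl D (ext D η)) ?_
    (fun η => hF.integrableOn)]
  · have : (⋃ η : D → Bool, cyl D (ext D η)) = Set.univ := by
      refine Set.eq_univ_of_forall fun σ => Set.mem_iUnion.mpr ⟨fun v => σ v, fun v hv => ?_⟩
      simp [ext, hv]
    rw [this, setIntegral_univ]
  · intro η η' hne
    refine Set.disjoint_left.mpr fun σ h1 h2 => hne ?_
    funext v
    rw [← ext_apply D η v, ← ext_apply D η' v, ← h1 v v.2, ← h2 v v.2]

end Measure

section Step

variable {V : Type*} {G : SimpleGraph V}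

theorem cyl_leaf (hG : G.IsTree) {θ : ℝ} (h0 : 0 ≤ θ)
    (h1 : θ < 1) {μ : Measure (V → Bool)} [IsProbabilityMeasure μ] (hμ : IsFreeIsing G θ μ)
    [DecidableEq V] {D : Finset V} (hD : (G.induce (D : Set V)).Connected) {u l : V} (hu : u ∈ D)
    (hl : l ∉ D) (hadj : G.Adj u l) (η : V → Bool) (s : Bool) :
    μ.real (cyl D η ∩ {σ | σ l = s}) = μ.real (cyl D η) * ((1 + θ * spin (η u) * spin s) / 2) := by
  classical
  have hD' := connected_insert hD hu hadj
  have hne : ∀ v ∈ D, v ≠ l := by
    rintro v hv rfl
    exact hl hv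
  have e1 : cyl D η ∩ {σ | σ l = s} = {σ | ∀ v ∈ insert l D, σ v = Function.update η l s v} := by
    ext σ
    simp only [cyl, Set.mem_inter_iff, Set.mem_ofPred_eq, Finset.mem_insert, forall_eq_or_imp,
      Function.update_self]
    constructor
    · rintro ⟨h1, h2⟩
      refine ⟨h2, fun v hv => ?_⟩
      rw [Function.update_of_ne (hne v hv), h1 v hv]
    · rintro ⟨h1, h2⟩
      refine ⟨fun v hv => ?_, h1⟩
      have := h2 v hv
      rwa [Function.update_of_ne (hne v hv)] at this
  have m1 := hμ (insert l D) hD' (Function.update η l s)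
  have m2 := hμ D hD η
  have e3 : (insert l D).sym2.filter (fun e => e ∈ G.edgeSet) =
      insert s(u, l) (D.sym2.filter (fun e => e ∈ G.edgeSet)) := by
    ext e
    induction e using Sym2.ind with
    | _ x y =>
      simp only [Finset.mem_filter, Finset.mk_mem_sym2_iff, Finset.mem_insert,
        SimpleGraph.mem_edgeSet, Sym2.eq_iff]
      constructor
      · rintro ⟨⟨hx, hy⟩, hxy⟩
        rcases hx with rfl | hx
        · rcases hy with rfl | hy
          · exact absurd hxy (G.loopless.irrefl _)
          · left; right
            exact ⟨rfl, leaf_unique hG hD hy hu hl hxy.symm hadj⟩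
        · rcases hy with rfl | hy
          · left; left
            exact ⟨leaf_unique hG hD hx hu hl hxy hadj, rfl⟩
          · right; exact ⟨⟨hx, hy⟩, hxy⟩
      · rintro ((⟨rfl, rfl⟩ | ⟨rfl, rfl⟩) | ⟨⟨hx, hy⟩, hxy⟩)
        · exact ⟨⟨Or.inr hu, Or.inl rfl⟩, hadj⟩
        · exact ⟨⟨Or.inl rfl, Or.inr hu⟩, hadj.symm⟩
        · exact ⟨⟨Or.inr hx, Or.inr hy⟩, hxy⟩
  have e4 : s(u, l) ∉ D.sym2.filter (fun e => e ∈ G.edgeSet) := by
    simp only [Finset.mem_filter, Finset.mk_mem_sym2_iff]
    exact fun h => hl h.1.2
  rw [e3, Finset.prod_insert e4] at m1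
  have e5 : edgeW θ (Function.update η l s) s(u, l) = (1 + θ * spin (η u) * spin s) / 2 := by
    show (1 + θ * spin (Function.update η l s u) * spin (Function.update η l s l)) / 2 = _
    rw [Function.update_self, Function.update_of_ne hadj.ne]
  have e6 : ∏ e ∈ D.sym2.filter (fun e => e ∈ G.edgeSet), edgeW θ (Function.update η l s) e =
      ∏ e ∈ D.sym2.filter (fun e => e ∈ G.edgeSet), edgeW θ η e := by
    refine Finset.prod_congr rfl fun e he => ?_
    induction e using Sym2.ind with
    | _ x y =>
      simp only [Finset.mem_filter, Finset.mk_mem_sym2_iff] at he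
      show (1 + θ * spin (Function.update η l s x) * spin (Function.update η l s y)) / 2 =
        (1 + θ * spin (η x) * spin (η y)) / 2
      rw [Function.update_of_ne (hne _ he.1.1), Function.update_of_ne (hne _ he.1.2)]
  have hnn : ∀ (a b : Bool), 0 ≤ (1 + θ * spin a * spin b) / 2 := by
    intro a b
    cases a <;> cases b <;> simp [spin] <;> linarith
  have hpnn : 0 ≤ ∏ e ∈ D.sym2.filter (fun e => e ∈ G.edgeSet), edgeW θ η e := by
    refine Finset.prod_nonneg fun e _ => ?_
    induction e using Sym2.ind with
    | _ x y => exact hnn _ _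
  rw [e5, e6] at m1
  rw [measureReal_def, measureReal_def, e1, m1]
  change _ = (μ (cyl D η)).toReal * _
  rw [show μ (cyl D η) = _ from m2]
  rw [ENNReal.toReal_ofReal, ENNReal.toReal_ofReal]
  · ring
  · positivity
  · have := hnn (η u) s
    positivity

/-- summing out a leaf -/
theorem integral_leaf (hG : G.IsTree) {θ : ℝ} (h0 : 0 ≤ θ)
    (h1 : θ < 1) {μ : Measure (V → Bool)} [IsProbabilityMeasure μ] (hμ : IsFreeIsing G θ μ)
    [DecidableEq V] {D : Finset V} (hD : (G.induce (D : Set V)).Connected) {u l : V} (hu : u ∈ D)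
    (hl : l ∉ D) (hadj : G.Adj u l) {g : (V → Bool) → ℝ} (hg : Integrable g μ)
    (hdep : ∀ σ σ', (∀ v ∈ D, σ v = σ' v) → g σ = g σ') (c : Bool → ℝ) :
    ∫ σ, g σ * c (σ l) ∂μ = ∫ σ, g σ * (c true * ((1 + θ * spin (σ u)) / 2) +
      c false * ((1 - θ * spin (σ u)) / 2)) ∂μ := by
  have hc : ∀ (f : (V → Bool) → ℝ), Measurable f → (∃ C, ∀ σ, |f σ| ≤ C) →
      Integrable (fun σ => g σ * f σ) μ := by
    rintro f hf ⟨C, hC⟩
    exact hg.mul_bdd hf.aestronglyMeasurable (Filter.Eventually.of_forall fun σ => by
      rw [Real.norm_eq_abs]; exact hC σ)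
  have i1 : Integrable (fun σ => g σ * c (σ l)) μ := by
    refine hc _ ((measurable_from_top (f := c)).comp (measurable_pi_apply l))
      ⟨|c true| + |c false|, fun σ => ?_⟩
    cases σ l
    · linarith [abs_nonneg (c true)]
    · linarith [abs_nonneg (c false)]
  have i2 : Integrable (fun σ : V → Bool => g σ * (c true * ((1 + θ * spin (σ u)) / 2) +
      c false * ((1 - θ * spin (σ u)) / 2))) μ := by
    refine hc _ ?_ ⟨|c true * ((1 + θ) / 2) + c false * ((1 - θ) / 2)| +
      |c true * ((1 - θ) / 2) + c false * ((1 + θ) / 2)|, fun σ => ?_⟩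
    · have := measurable_spin_eval u
      fun_prop
    · cases σ u
      · have : c true * ((1 + θ * spin false) / 2) + c false * ((1 - θ * spin false) / 2) =
          c true * ((1 - θ) / 2) + c false * ((1 + θ) / 2) := by
            simp only [spin, Bool.false_eq_true, if_false]; ring
        rw [this]
        linarith [abs_nonneg (c true * ((1 + θ) / 2) + c false * ((1 - θ) / 2))]
      · have : c true * ((1 + θ * spin true) / 2) + c false * ((1 - θ * spin true) / 2) =
          c true * ((1 + θ) / 2) + c false * ((1 - θ) / 2) := by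
            simp only [spin, if_true]; ring
        rw [this]
        linarith [abs_nonneg (c true * ((1 - θ) / 2) + c false * ((1 + θ) / 2))]
  rw [integral_cyl μ D i1, integral_cyl μ D i2]
  refine Finset.sum_congr rfl fun η _ => ?_
  set ζ := ext D η
  have hm := measurableSet_cyl D ζ
  have e1 : ∫ σ in cyl D ζ, g σ * c (σ l) ∂μ = ∫ σ in cyl D ζ, g ζ * c (σ l) ∂μ := by
    refine setIntegral_congr_fun hm fun σ hσ => ?_
    show g σ * c (σ l) = g ζ * c (σ l)
    rw [hdep σ ζ hσ]
  have e2 : ∫ σ in cyl D ζ, g σ * (c true * ((1 + θ * spin (σ u)) / 2) +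
      c false * ((1 - θ * spin (σ u)) / 2)) ∂μ =
      ∫ σ in cyl D ζ, g ζ * (c true * ((1 + θ * spin (ζ u)) / 2) +
      c false * ((1 - θ * spin (ζ u)) / 2)) ∂μ := by
    refine setIntegral_congr_fun hm fun σ hσ => ?_
    show g σ * _ = g ζ * _
    rw [hdep σ ζ hσ, hσ u hu]
  rw [e1, e2, integral_const_mul, setIntegral_const]
  have hms : ∀ s : Bool, MeasurableSet {σ : V → Bool | σ l = s} := by
    intro s
    exact measurableSet_eq_fun (measurable_pi_apply l) measurable_const
  have e3 : ∀ σ : V → Bool, c (σ l) = ({σ : V → Bool | σ l = true}.indicator (fun _ => c true) σ)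
      + ({σ : V → Bool | σ l = false}.indicator (fun _ => c false) σ) := by
    intro σ
    by_cases h : σ l = true
    · simp [Set.indicator, h]
    · have h' : σ l = false := by simpa using h
      simp [Set.indicator, h']
  simp_rw [e3]
  rw [integral_add, integral_indicator (hms _), integral_indicator (hms _), setIntegral_const,
    setIntegral_const, measureReal_restrict_apply (hms _), measureReal_restrict_apply (hms _),
    Set.inter_comm, cyl_leaf hG h0 h1 hμ hD hu hl hadj, Set.inter_comm,
    cyl_leaf hG h0 h1 hμ hD hu hl hadj]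
  · simp only [spin, if_true, Bool.false_eq_true, if_false, smul_eq_mul]
    ring
  · exact (integrable_const _).indicator (hms _)
  · exact (integrable_const _).indicator (hms _)

end Step

section Main

variable {V : Type*} {G : SimpleGraph V}

theorem field_insert [DecidableEq V] {D : Finset V} {l : V} (hl : l ∉ D) (x : V → ℝ)
    (σ : V → Bool) : field (insert l D) x σ = field D x σ * Real.exp (x l * spin (σ l)) := by
  unfold field
  rw [Finset.sum_insert hl, add_comm, Real.exp_add]

theorem field_dep (D : Finset V) (x : V → ℝ) (σ σ' : V → Bool) (h : ∀ v ∈ D, σ v = σ' v) :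
    field D x σ = field D x σ' := by
  unfold field
  congr 1
  exact Finset.sum_congr rfl fun v hv => by rw [h v hv]

theorem field_update [DecidableEq V] {D : Finset V} {u : V} (hu : u ∈ D) (x : V → ℝ) (a : ℝ)
    (σ : V → Bool) : field D (Function.update x u (x u + a)) σ =
      field D x σ * Real.exp (a * spin (σ u)) := by
  unfold field
  rw [← Real.exp_add]
  congr 1
  rw [← Finset.add_sum_erase _ _ hu, ← Finset.add_sum_erase D _ hu]
  have : ∑ v ∈ D.erase u, Function.update x u (x u + a) v * spin (σ v) =
      ∑ v ∈ D.erase u, x v * spin (σ v) :=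
    Finset.sum_congr rfl fun v hv => by
      rw [Function.update_of_ne (Finset.ne_of_mem_erase hv)]
  rw [this, Function.update_self]
  ring

theorem connected_single (v : V) : (G.induce (({v} : Finset V) : Set V)).Connected := by
  rw [Finset.coe_singleton]
  have : Subsingleton ({v} : Set V) := Set.subsingleton_singleton.coe_sort
  have : Nonempty ({v} : Set V) := ⟨⟨v, rfl⟩⟩
  exact SimpleGraph.Connected.mk fun a b => by
    rw [Subsingleton.elim a b]

theorem integral_single {θ : ℝ} {μ : Measure (V → Bool)} [IsProbabilityMeasure μ]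
    (hμ : IsFreeIsing G θ μ) (v : V) (c : Bool → ℝ) :
    ∫ σ, c (σ v) ∂μ = (c true + c false) / 2 := by
  classical
  have hms : ∀ s : Bool, MeasurableSet {σ : V → Bool | σ v = s} := by
    intro s
    exact measurableSet_eq_fun (measurable_pi_apply v) measurable_const
  have e3 : ∀ σ : V → Bool, c (σ v) = ({σ : V → Bool | σ v = true}.indicator (fun _ => c true) σ)
      + ({σ : V → Bool | σ v = false}.indicator (fun _ => c false) σ) := by
    intro σ
    by_cases h : σ v = true
    · simp [Set.indicator, h]
    · have h' : σ v = false := by simpa using h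
      simp [Set.indicator, h']
  have hm : ∀ s : Bool, μ.real {σ | σ v = s} = 1 / 2 := by
    intro s
    have h1 := hμ {v} (connected_single v) (fun _ => s)
    have h2 : ∏ e ∈ ({v} : Finset V).sym2.filter (fun e => e ∈ G.edgeSet),
        edgeW θ (fun _ => s) e = 1 := by
      refine Finset.prod_eq_one fun e he => ?_
      induction e using Sym2.ind with
      | _ x y =>
        simp only [Finset.mem_filter, Finset.mk_mem_sym2_iff, Finset.mem_singleton,
          SimpleGraph.mem_edgeSet] at he
        obtain ⟨⟨rfl, rfl⟩, h⟩ := he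
        exact absurd h (G.loopless.irrefl _)
    have h3 : {σ : V → Bool | ∀ u ∈ ({v} : Finset V), σ u = s} = {σ | σ v = s} := by
      ext σ; simp
    rw [measureReal_def, ← h3, h1]
    rw [show (∏ e ∈ ({v} : Finset V).sym2 with e ∈ G.edgeSet, edgeW θ (fun _ => s) e) = 1 from ?_]
    · rw [ENNReal.toReal_ofReal (by norm_num)]
      norm_num
    · convert h2
  simp_rw [e3]
  rw [integral_add, integral_indicator (hms _), integral_indicator (hms _), setIntegral_const,
    setIntegral_const, hm, hm]
  · simp only [smul_eq_mul]
    ring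
  · exact (integrable_const _).indicator (hms _)
  · exact (integrable_const _).indicator (hms _)

/-- the magnetization as a function of a Lipschitz effective field -/
theorem exists_eff (hG : G.IsTree) {θ : ℝ} (h0 : 0 ≤ θ)
    (h1 : θ < 1) {μ : Measure (V → Bool)} [IsProbabilityMeasure μ] (hμ : IsFreeIsing G θ μ)
    [DecidableEq V] : ∀ D : Finset V, (G.induce (D : Set V)).Connected → ∀ v ∈ D,
      ∃ H : (V → ℝ) → ℝ, (∀ x, mag μ D v x = Real.tanh (H x)) ∧
        ∀ x y, |H x - H y| ≤ ∑ u ∈ D, θ ^ G.dist v u * |x u - y u| := by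
  refine leaf_induction (G := G) ?_ ?_
  · intro v v' hv'
    rw [Finset.mem_singleton] at hv'
    subst hv'
    refine ⟨fun x => x v', fun x => ?_, fun x y => ?_⟩
    · unfold mag field
      simp only [Finset.sum_singleton]
      have i1 := integral_single hμ v' fun b => spin b * Real.exp (x v' * spin b)
      have i2 := integral_single hμ v' fun b => Real.exp (x v' * spin b)
      simp only [spin, if_true, Bool.false_eq_true, if_false, mul_one, one_mul] at i1 i2 ⊢
      rw [i1, i2, Real.tanh_eq_sinh_div_cosh, Real.sinh_eq, Real.cosh_eq]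
      congr 2
      · rw [show x v' * -1 = - x v' by ring]; ring
      · rw [show x v' * -1 = - x v' by ring]
    · simp
  · intro D u l hD hu hl hadj ih v hv
    have hfint : ∀ x, Integrable (field D x) μ := fun x => integrable_field μ D x
    have step : ∀ (g : (V → Bool) → ℝ) (x : V → ℝ), Integrable (fun σ => g σ * field D x σ) μ →
        (∀ σ σ', (∀ v ∈ D, σ v = σ' v) → g σ = g σ') → ∀ c : Bool → ℝ,
        ∫ σ, g σ * field D x σ * (c (σ l) * Real.exp (x l * spin (σ l))) ∂μ =
        ∫ σ, g σ * field D x σ * (c true * Real.exp (x l) * ((1 + θ * spin (σ u)) / 2) +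
          c false * Real.exp (- x l) * ((1 - θ * spin (σ u)) / 2)) ∂μ := by
      intro g x hgi hg c
      have := integral_leaf hG h0 h1 hμ hD hu hl hadj (g := fun σ => g σ * field D x σ) hgi
        (fun σ σ' h => by rw [hg σ σ' h, field_dep D x σ σ' h])
        (fun b => c b * Real.exp (x l * spin b))
      rw [this]
      simp only [spin, if_true, Bool.false_eq_true, if_false, mul_one]
      rw [show x l * -1 = - x l by ring]
    rcases Finset.mem_insert.mp hv with rfl | hvD
    · -- the new vertex
      obtain ⟨H, hH1, hH2⟩ := ih u hu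
      refine ⟨fun x => x v + eff θ (H x), fun x => ?_, fun x y => ?_⟩
      · have hZ := integral_field_pos μ D x
        set Z := ∫ σ, field D x σ ∂μ with hZdef
        have hN : ∫ σ, spin (σ u) * field D x σ ∂μ = Real.tanh (H x) * Z := by
          rw [← hH1 x, mag, div_mul_cancel₀ _ hZ.ne']
        have s1 := step (fun _ => 1) x (by simpa using hfint x) (fun _ _ _ => rfl) spin
        have s2 := step (fun _ => 1) x (by simpa using hfint x) (fun _ _ _ => rfl) (fun _ => 1)
        have n1 : ∫ σ, spin (σ v) * field (insert v D) x σ ∂μ =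
            Real.sinh (x v) * Z + θ * Real.cosh (x v) * (Real.tanh (H x) * Z) := by
          rw [← hN, hZdef, ← integral_const_mul, ← integral_const_mul, ← integral_add]
          · refine Eq.trans (integral_congr_ae (Filter.Eventually.of_forall fun σ => ?_))
              (s1.trans (integral_congr_ae (Filter.Eventually.of_forall fun σ => ?_)))
            · show spin (σ v) * field (insert v D) x σ = 1 * field D x σ * _
              rw [field_insert hl]; ring
            · show 1 * field D x σ * _ = Real.sinh (x v) * field D x σ + _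
              simp only [spin, if_true, Bool.false_eq_true, if_false]
              rw [Real.sinh_eq, Real.cosh_eq]; ring
          · exact (hfint x).const_mul _
          · exact (integrable_spin_field μ D u x).const_mul _
        have n2 : ∫ σ, field (insert v D) x σ ∂μ =
            Real.cosh (x v) * Z + θ * Real.sinh (x v) * (Real.tanh (H x) * Z) := by
          rw [← hN, hZdef, ← integral_const_mul, ← integral_const_mul, ← integral_add]
          · refine Eq.trans (integral_congr_ae (Filter.Eventually.of_forall fun σ => ?_))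
              (s2.trans (integral_congr_ae (Filter.Eventually.of_forall fun σ => ?_)))
            · show field (insert v D) x σ = 1 * field D x σ * _
              rw [field_insert hl]; ring
            · show 1 * field D x σ * _ = Real.cosh (x v) * field D x σ + _
              rw [Real.sinh_eq, Real.cosh_eq]; ring
          · exact (hfint x).const_mul _
          · exact (integrable_spin_field μ D u x).const_mul _
        have ht := tanh_eff h0 h1 (H x)
        rw [Real.tanh_eq_sinh_div_cosh] at ht
        have hce := Real.cosh_pos (eff θ (H x))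
        have ht' : θ * Real.tanh (H x) = Real.sinh (eff θ (H x)) / Real.cosh (eff θ (H x)) :=
          ht.symm
        show _ = Real.tanh (x v + eff θ (H x))
        rw [mag, n1, n2, Real.tanh_eq_sinh_div_cosh (x v + eff θ (H x)), Real.sinh_add,
          Real.cosh_add]
        have e1 : Real.sinh (x v) * Z + θ * Real.cosh (x v) * (Real.tanh (H x) * Z) =
            (Z / Real.cosh (eff θ (H x))) * (Real.sinh (x v) * Real.cosh (eff θ (H x)) +
              Real.cosh (x v) * Real.sinh (eff θ (H x))) := by
          have : θ * Real.cosh (x v) * (Real.tanh (H x) * Z) =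
            (θ * Real.tanh (H x)) * Real.cosh (x v) * Z := by ring
          rw [this, ht']
          field_simp
        have e2 : Real.cosh (x v) * Z + θ * Real.sinh (x v) * (Real.tanh (H x) * Z) =
            (Z / Real.cosh (eff θ (H x))) * (Real.cosh (x v) * Real.cosh (eff θ (H x)) +
              Real.sinh (x v) * Real.sinh (eff θ (H x))) := by
          have : θ * Real.sinh (x v) * (Real.tanh (H x) * Z) =
            (θ * Real.tanh (H x)) * Real.sinh (x v) * Z := by ring
          rw [this, ht']
          field_simp
        rw [e1, e2, mul_div_mul_left _ _ (by positivity)]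
      · rw [Finset.sum_insert hl, SimpleGraph.dist_self, pow_zero, one_mul]
        have t1 : |x v + eff θ (H x) - (y v + eff θ (H y))| ≤
            |x v - y v| + θ * |H x - H y| := by
          have := eff_lip h0 h1 (H x) (H y)
          calc |x v + eff θ (H x) - (y v + eff θ (H y))|
              = |(x v - y v) + (eff θ (H x) - eff θ (H y))| := by congr 1; ring
            _ ≤ |x v - y v| + |eff θ (H x) - eff θ (H y)| := abs_add_le _ _
            _ ≤ _ := by linarith
        refine t1.trans ?_
        have t2 : θ * |H x - H y| ≤ ∑ w ∈ D, θ ^ G.dist v w * |x w - y w| := by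
          calc θ * |H x - H y| ≤ θ * ∑ w ∈ D, θ ^ G.dist u w * |x w - y w| :=
                mul_le_mul_of_nonneg_left (hH2 x y) h0
            _ = ∑ w ∈ D, θ ^ G.dist v w * |x w - y w| := by
                rw [Finset.mul_sum]
                refine Finset.sum_congr rfl fun w hw => ?_
                rw [G.dist_comm (u := v), dist_leaf hG hD hu hl hadj hw, pow_succ,
                  G.dist_comm (u := u)]
                ring
        linarith
    · -- an old vertex
      obtain ⟨H, hH1, hH2⟩ := ih v hvD
      refine ⟨fun x => H (Function.update x u (x u + eff θ (x l))), fun x => ?_, fun x y => ?_⟩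
      · rw [← hH1]
        obtain ⟨A, hA, hAb⟩ := exp_eff h0 h1 (x l)
        have s1 := step (fun σ => spin (σ v)) x (integrable_spin_field μ D v x)
          (fun σ σ' h => by rw [h v hvD]) (fun _ => 1)
        have s2 := step (fun _ => 1) x (by simpa using hfint x) (fun _ _ _ => rfl) (fun _ => 1)
        have hx : ∀ σ : V → Bool, (1 * Real.exp (x l) * ((1 + θ * spin (σ u)) / 2) +
            1 * Real.exp (- x l) * ((1 - θ * spin (σ u)) / 2)) =
            A * Real.exp (eff θ (x l) * spin (σ u)) := by
          intro σ
          rw [← hAb, Real.cosh_eq, Real.sinh_eq]; ring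
        have n1 : ∫ σ, spin (σ v) * field (insert l D) x σ ∂μ =
            A * ∫ σ, spin (σ v) * field D (Function.update x u (x u + eff θ (x l))) σ ∂μ := by
          rw [← integral_const_mul]
          refine Eq.trans (integral_congr_ae (Filter.Eventually.of_forall fun σ => ?_))
              (s1.trans (integral_congr_ae (Filter.Eventually.of_forall fun σ => ?_)))
          · show spin (σ v) * field (insert l D) x σ = spin (σ v) * field D x σ * _
            rw [field_insert hl]; ring
          · show spin (σ v) * field D x σ * _ = A * (spin (σ v) *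
              field D (Function.update x u (x u + eff θ (x l))) σ)
            rw [hx σ, field_update hu]; ring
        have n2 : ∫ σ, field (insert l D) x σ ∂μ =
            A * ∫ σ, field D (Function.update x u (x u + eff θ (x l))) σ ∂μ := by
          rw [← integral_const_mul]
          refine Eq.trans (integral_congr_ae (Filter.Eventually.of_forall fun σ => ?_))
              (s2.trans (integral_congr_ae (Filter.Eventually.of_forall fun σ => ?_)))
          · show field (insert l D) x σ = 1 * field D x σ * _
            rw [field_insert hl]; ring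
          · show 1 * field D x σ * _ = A *
              field D (Function.update x u (x u + eff θ (x l))) σ
            rw [hx σ, field_update hu]; ring
        rw [mag, mag, n1, n2, mul_div_mul_left _ _ hA.ne']
      · refine (hH2 _ _).trans ?_
        rw [Finset.sum_insert hl, ← Finset.add_sum_erase _ _ hu, ← Finset.add_sum_erase D _ hu]
        have t1 : ∑ w ∈ D.erase u, θ ^ G.dist v w *
            |Function.update x u (x u + eff θ (x l)) w -
              Function.update y u (y u + eff θ (y l)) w| =
            ∑ w ∈ D.erase u, θ ^ G.dist v w * |x w - y w| :=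
          Finset.sum_congr rfl fun w hw => by
            rw [Function.update_of_ne (Finset.ne_of_mem_erase hw),
              Function.update_of_ne (Finset.ne_of_mem_erase hw)]
        rw [t1, Function.update_self, Function.update_self, dist_leaf hG hD hu hl hadj hvD,
          pow_succ]
        have t2 : |x u + eff θ (x l) - (y u + eff θ (y l))| ≤ |x u - y u| + θ * |x l - y l| := by
          have := eff_lip h0 h1 (x l) (y l)
          calc |x u + eff θ (x l) - (y u + eff θ (y l))|
              = |(x u - y u) + (eff θ (x l) - eff θ (y l))| := by congr 1; ring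
            _ ≤ |x u - y u| + |eff θ (x l) - eff θ (y l)| := abs_add_le _ _
            _ ≤ _ := by linarith
        have t3 := mul_le_mul_of_nonneg_left t2 (pow_nonneg h0 (G.dist v u))
        linarith

theorem mag_lip {V : Type*} {G : SimpleGraph V} (hG : G.IsTree) {θ : ℝ} (h0 : 0 ≤ θ)
    (h1 : θ < 1) {μ : Measure (V → Bool)} [IsProbabilityMeasure μ] (hμ : IsFreeIsing G θ μ)
    {D : Finset V} (hD : (G.induce (D : Set V)).Connected) {v : V} (hv : v ∈ D) (x y : V → ℝ) :
    |mag μ D v x - mag μ D v y| ≤ ∑ u ∈ D, θ ^ G.dist v u * |x u - y u| := by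
  classical
  obtain ⟨H, hH1, hH2⟩ := exists_eff hG h0 h1 hμ D hD v hv
  rw [hH1, hH1]
  exact (tanh_lip _ _).trans (hH2 x y)

end Main

end P161
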