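import Vale.Agent.P161.Basic
import Vale.Agent.P161.InnovDef
import Vale.Agent.P161.Bayes

/-!
# P161, module LawAux : the characteristic function of the innovation, one step
-/

namespace P161

open MeasureTheory ProbabilityTheory Filter Topology
open scoped ENNReal NNReal

/-- `e^{i x}` -/
noncomputable def ee (x : ℝ) : ℂ := Complex.exp (x * Complex.I)

theorem norm_ee (x : ℝ) : ‖ee x‖ = 1 := Complex.norm_exp_ofReal_mul_I x

theorem ee_add (x y : ℝ) : ee (x + y) = ee x * ee y := by
  unfold ee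
  rw [← Complex.exp_add]
  congr 1
  push_cast
  ring

theorem ee_zero : ee 0 = 1 := by simp [ee]

theorem continuous_ee : Continuous ee := by
  unfold ee
  fun_prop

theorem measurable_ee : Measurable ee := continuous_ee.measurable

theorem ee_eq (x : ℝ) : ee x = (Real.cos x : ℂ) + (Real.sin x : ℂ) * Complex.I := by
  unfold ee
  rw [Complex.exp_mul_I]
  push_cast
  rfl

theorem norm_ee_sub_one (x : ℝ) : ‖ee x - 1‖ ≤ |x| := by
  have h := Real.norm_exp_I_mul_ofReal_sub_one_le (x := x)
  rw [mul_comm] at h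
  exact h

theorem norm_ee_sub (x y : ℝ) : ‖ee x - ee y‖ ≤ |x - y| := by
  have h1 : ee x - ee y = ee y * (ee (x - y) - 1) := by
    rw [mul_sub, ← ee_add]
    congr 2
    · ring
    · ring
  rw [h1, norm_mul, norm_ee, one_mul]
  exact norm_ee_sub_one _

theorem norm_ee_sub_sub (x : ℝ) : ‖ee x - 1 - x * Complex.I‖ ≤ 3 * x ^ 2 := by
  have hn : ‖(x : ℂ) * Complex.I‖ = |x| := by simp
  by_cases hx : |x| ≤ 1
  · have h := Complex.norm_exp_sub_one_sub_id_le (x := (x : ℂ) * Complex.I) (by rw [hn]; exact hx)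
    rw [hn, sq_abs] at h
    have : (0 : ℝ) ≤ x ^ 2 := sq_nonneg x
    unfold ee
    linarith
  · push Not at hx
    have h1 : ‖ee x - 1 - x * Complex.I‖ ≤ ‖ee x‖ + 1 + |x| := by
      refine (norm_sub_le _ _).trans (add_le_add ((norm_sub_le _ _).trans ?_) hn.le)
      rw [norm_one]
    rw [norm_ee] at h1
    have h2 : x ^ 2 = |x| ^ 2 := (sq_abs x).symm
    rw [h2]
    nlinarith

section Split

variable {ι : Type*} [Fintype ι]

/-- splitting off the last increments -/
theorem measurePreserving_split (m : ℕ) (g : Measure ℝ) [IsProbabilityMeasure g] :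
    MeasurePreserving (fun (y : ι → Fin (m + 1) → ℝ) =>
      ((fun v => y v (Fin.last m), fun v l => y v l.castSucc) : (ι → ℝ) × (ι → Fin m → ℝ)))
      (Measure.pi fun _ : ι => Measure.pi fun _ : Fin (m + 1) => g)
      ((Measure.pi fun _ : ι => g).prod (Measure.pi fun _ : ι => Measure.pi fun _ : Fin m => g)) := by
  have h1 : MeasurePreserving (MeasurableEquiv.piFinSuccAbove (fun _ : Fin (m + 1) => ℝ) (Fin.last m))
      (Measure.pi fun _ : Fin (m + 1) => g) (g.prod (Measure.pi fun _ : Fin m => g)) :=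
    measurePreserving_piFinSuccAbove (fun _ : Fin (m + 1) => g) (Fin.last m)
  have h2 := measurePreserving_pi (fun _ : ι => Measure.pi fun _ : Fin (m + 1) => g)
    (fun _ : ι => g.prod (Measure.pi fun _ : Fin m => g)) (fun _ => h1)
  have h3 := measurePreserving_arrowProdEquivProdArrow ℝ (Fin m → ℝ) ι (fun _ => g)
    (fun _ => Measure.pi fun _ : Fin m => g)
  have h4 := h3.comp h2
  have h5 : (fun (y : ι → Fin (m + 1) → ℝ) =>
      ((fun v => y v (Fin.last m), fun v l => y v l.castSucc) : (ι → ℝ) × (ι → Fin m → ℝ))) =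
      (MeasurableEquiv.arrowProdEquivProdArrow ℝ (Fin m → ℝ) ι) ∘
        (fun (y : ι → Fin (m + 1) → ℝ) i =>
          MeasurableEquiv.piFinSuccAbove (fun _ : Fin (m + 1) => ℝ) (Fin.last m) (y i)) := by
    ext y v
    · rfl
    · rename_i l
      show y v l.castSucc = y v ((Fin.last m).succAbove l)
      rw [Fin.succAbove_last]
  rw [h5]
  exact h4

theorem integral_split (m : ℕ) (g : Measure ℝ) [IsProbabilityMeasure g]
    {F : (ι → Fin m → ℝ) → ℂ} {G : (ι → ℝ) → ℂ} (hF : Measurable F) (hG : Measurable G) :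
    ∫ y : ι → Fin (m + 1) → ℝ, F (fun v l => y v l.castSucc) * G (fun v => y v (Fin.last m))
      ∂(Measure.pi fun _ : ι => Measure.pi fun _ : Fin (m + 1) => g) =
    (∫ y, F y ∂(Measure.pi fun _ : ι => Measure.pi fun _ : Fin m => g)) *
      ∫ z, G z ∂(Measure.pi fun _ : ι => g) := by
  have h1 := measurePreserving_split (ι := ι) m g
  have h2 : Measurable fun p : (ι → ℝ) × (ι → Fin m → ℝ) => F p.2 * G p.1 :=
    (hF.comp measurable_snd).mul (hG.comp measurable_fst)
  have h3 := integral_map h1.measurable.aemeasurable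
    (h2.aestronglyMeasurable (μ := (Measure.pi fun _ : ι => Measure.pi fun _ : Fin (m + 1) => g).map
      (fun (y : ι → Fin (m + 1) → ℝ) =>
      ((fun v => y v (Fin.last m), fun v l => y v l.castSucc) : (ι → ℝ) × (ι → Fin m → ℝ)))))
  rw [h1.map_eq] at h3
  rw [← h3]
  have h4 : (fun p : (ι → ℝ) × (ι → Fin m → ℝ) => F p.2 * G p.1) = fun p => G p.1 * F p.2 := by
    ext p
    ring
  rw [h4, integral_prod_mul]
  ring

theorem integral_ee_gauss (a : ℝ) (s : ℝ≥0) :
    ∫ x, ee (a * x) ∂(gaussianReal 0 s) = Complex.exp (-(s * a ^ 2 / 2)) := by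
  have h := charFun_gaussianReal (μ := 0) (v := s) a
  rw [charFun_apply_real] at h
  unfold ee
  push_cast
  rw [h]
  congr 1
  push_cast
  ring

theorem integral_ee_pi (a : ι → ℝ) (s : ℝ≥0) :
    ∫ x : ι → ℝ, ee (∑ i, a i * x i) ∂(Measure.pi fun _ => gaussianReal 0 s) =
      Complex.exp (-(s / 2 * ∑ i, a i ^ 2 : ℝ)) := by
  have h1 : ∀ x : ι → ℝ, ee (∑ i, a i * x i) = ∏ i, ee (a i * x i) := by
    intro x
    unfold ee
    rw [← Complex.exp_sum]
    congr 1
    push_cast
    rw [Finset.sum_mul]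
  simp_rw [h1]
  rw [integral_fintype_prod_eq_prod (𝕜 := ℂ) (fun i x => ee (a i * x))]
  simp_rw [integral_ee_gauss]
  rw [← Complex.exp_sum]
  congr 1
  push_cast
  rw [Finset.mul_sum, ← Finset.sum_neg_distrib]
  refine Finset.sum_congr rfl fun i _ => ?_
  ring

end Split

section Proc

variable {V E : Type*} [MeasurableSpace E] {μ : Measure (V → Bool)} {ρ : Measure E}
  {w : ℕ → ℕ → E → ℝ}

/-- the increments of the noise -/
def inc (w : ℕ → ℕ → E → ℝ) (D : Finset V) (J k : ℕ) (N : V → E) (v : D) (l : Fin k) : ℝ :=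
  w J (l + 1) (N v.1) - w J l (N v.1)

theorem measurable_inc (hw : IsDyadicBM ρ w) (D : Finset V) (J k : ℕ) :
    Measurable (inc w D J k : (V → E) → D → Fin k → ℝ) :=
  measurable_pi_lambda _ fun v => measurable_pi_lambda _ fun l =>
    ((hw.meas J (l + 1)).comp (measurable_pi_apply v.1)).sub
      ((hw.meas J l).comp (measurable_pi_apply v.1))

theorem map_inc (hw : IsDyadicBM ρ w) (D : Finset V) (J k : ℕ) :
    (Measure.infinitePi fun _ : V => ρ).map (inc w D J k) =
      Measure.pi fun _ : D => Measure.pi fun _ : Fin k => gaussianReal 0 ((1 / 2) ^ J) := by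
  have := hw.prob
  have h1 : (inc w D J k : (V → E) → D → Fin k → ℝ) =
      (fun (x : D → E) (u : D) (i : Fin k) => w J (i + 1) (x u) - w J i (x u)) ∘ D.restrict := rfl
  have hf := measurable_incr hw J k
  rw [h1, ← Measure.map_map]
  · have hres := Measure.infinitePi_map_restrict (μ := fun _ : V => ρ) (I := D)
    have hpr : ∀ _ : D, IsProbabilityMeasure (ρ.map (fun e (i : Fin k) =>
        w J (i + 1) e - w J i e)) := fun _ => Measure.isProbabilityMeasure_map hf.aemeasurable
    have hpm := Measure.pi_map_pi (μ := fun _ : D => ρ) (f := fun (_ : D) e (i : Fin k) =>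
      w J (i + 1) e - w J i e) (fun _ => hf.aemeasurable)
    rw [hres, hpm]
    simp_rw [hw.law J k]
  · exact measurable_pi_lambda _ fun u => hf.comp (measurable_pi_apply u)
  · exact Finset.measurable_restrict D

/-- the phase as a function of the path of `X` -/
noncomputable def phx (μ : Measure (V → Bool)) (D : Finset V) (c : V → ℕ → ℝ) (J m : ℕ)
    (x : V → ℕ → ℝ) : ℝ :=
  ∑ v ∈ D, ∑ l ∈ Finset.range m,
    c v l * (x v (l + 1) - x v l - (1 / 2) ^ J * mag μ D v (fun u => x u l))

/-- the drift of the phase -/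
noncomputable def drx (μ : Measure (V → Bool)) (D : Finset V) (c : V → ℕ → ℝ) (m : ℕ)
    (σ : V → Bool) (x : V → ℕ → ℝ) : ℝ :=
  ∑ v ∈ D, c v m * (spin (σ v) - mag μ D v (fun u => x u m))

/-- the path of `X` -/
noncomputable def Xp (w : ℕ → ℕ → E → ℝ) (J : ℕ) (ω : Om V E) (v : V) (l : ℕ) : ℝ := X w v J l ω

theorem phx_congr (D : Finset V) (c : V → ℕ → ℝ) (J m : ℕ) {x y : V → ℕ → ℝ}
    (h : ∀ v ∈ D, ∀ l ≤ m, x v l = y v l) : phx μ D c J m x = phx μ D c J m y := by
  unfold phx
  refine Finset.sum_congr rfl fun v hv => Finset.sum_congr rfl fun l hl => ?_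
  have hl' := Finset.mem_range.mp hl
  rw [h v hv (l + 1) (by omega), h v hv l (by omega),
    mag_congr μ v (x := fun u => x u l) (y := fun u => y u l) (fun u hu => h u hu l (by omega))]

theorem drx_congr (D : Finset V) (c : V → ℕ → ℝ) (m : ℕ) (σ : V → Bool) {x y : V → ℕ → ℝ}
    (h : ∀ v ∈ D, ∀ l ≤ m, x v l = y v l) : drx μ D c m σ x = drx μ D c m σ y := by
  unfold drx
  refine Finset.sum_congr rfl fun v _ => ?_
  rw [mag_congr μ v (x := fun u => x u m) (y := fun u => y u m) (fun u hu => h u hu m le_rfl)]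

theorem measurable_coord (l : ℕ) : Measurable fun (x : V → ℕ → ℝ) u => x u l :=
  measurable_pi_lambda _ fun u => (measurable_pi_apply l).comp (measurable_pi_apply u)

theorem measurable_coord2 (v : V) (l : ℕ) : Measurable fun (x : V → ℕ → ℝ) => x v l :=
  (measurable_pi_apply l).comp (measurable_pi_apply v)

theorem measurable_phx [IsFiniteMeasure μ] (D : Finset V) (c : V → ℕ → ℝ) (J m : ℕ) :
    Measurable (phx μ D c J m) := by
  unfold phx
  refine Finset.measurable_sum _ fun v _ => Finset.measurable_sum _ fun l _ => ?_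
  exact (((measurable_coord2 v (l + 1)).sub (measurable_coord2 v l)).sub
    (((measurable_mag μ D v).comp (measurable_coord l)).const_mul _)).const_mul _

theorem measurable_drx [IsFiniteMeasure μ] (D : Finset V) (c : V → ℕ → ℝ) (m : ℕ) :
    Measurable fun p : (V → Bool) × (V → ℕ → ℝ) => drx μ D c m p.1 p.2 := by
  unfold drx
  refine Finset.measurable_sum _ fun v _ => ?_
  exact ((measurable_spin.comp ((measurable_pi_apply v).comp measurable_fst)).sub
    ((measurable_mag μ D v).comp ((measurable_coord m).comp measurable_snd))).const_mul _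

theorem measurable_Xp (hw : ∀ j k, Measurable (w j k)) (J : ℕ) :
    Measurable (Xp w J : Om V E → V → ℕ → ℝ) :=
  measurable_pi_lambda _ fun v => measurable_pi_lambda _ fun l => measurable_X hw v J l

/-- the path of `X` from the spins and the increments of the noise -/
noncomputable def pathy (D : Finset V) (J m : ℕ) (σ : V → Bool) (y : D → Fin m → ℝ) (v : V)
    (l : ℕ) : ℝ :=
  open Classical in l * (1 / 2) ^ J * spin (σ v) +
    if h : v ∈ D then ∑ i : Fin m, (if (i : ℕ) < l then y ⟨v, h⟩ i else 0) else 0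

theorem measurable_pathy (D : Finset V) (J m : ℕ) (σ : V → Bool) :
    Measurable (pathy D J m σ) := by
  refine measurable_pi_lambda _ fun v => measurable_pi_lambda _ fun l => ?_
  unfold pathy
  refine measurable_const.add ?_
  by_cases h : v ∈ D
  · simp only [h, dite_true]
    refine Finset.measurable_sum _ fun i _ => ?_
    by_cases hi : (i : ℕ) < l
    · simp only [hi, if_true]
      exact (measurable_pi_apply i).comp (measurable_pi_apply _)
    · simp only [hi, if_false]
      exact measurable_const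
  · simp only [h, dite_false]
    exact measurable_const

theorem pathy_inc (hw : IsDyadicBM ρ w) (D : Finset V) (J m : ℕ) (ω : Om V E) {v : V}
    (hv : v ∈ D) {l : ℕ} (hl : l ≤ m) : pathy D J m ω.1 (inc w D J m ω.2) v l = Xp w J ω v l := by
  unfold pathy Xp X inc
  rw [dif_pos hv]
  congr 1
  have h1 := Fin.sum_univ_eq_sum_range (fun i => if i < l then
    (w J (i + 1) (ω.2 v) - w J i (ω.2 v)) else 0) m
  rw [h1, ← Finset.sum_filter]
  have h2 : (Finset.range m).filter (fun i => i < l) = Finset.range l := by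
    ext i
    simp only [Finset.mem_filter, Finset.mem_range]
    omega
  rw [h2, Finset.sum_range_sub (fun i => w J i (ω.2 v)), hw.zero, sub_zero]

omit [MeasurableSpace E] in
theorem phx_succ (D : Finset V) (c : V → ℕ → ℝ) (J m : ℕ) (ω : Om V E) :
    phx μ D c J (m + 1) (Xp w J ω) = (phx μ D c J m (Xp w J ω) +
      (1 / 2) ^ J * drx μ D c m ω.1 (Xp w J ω)) +
      ∑ v ∈ D, c v m * (w J (m + 1) (ω.2 v) - w J m (ω.2 v)) := by
  unfold phx drx
  rw [Finset.mul_sum, ← Finset.sum_add_distrib, ← Finset.sum_add_distrib]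
  refine Finset.sum_congr rfl fun v _ => ?_
  rw [Finset.sum_range_succ]
  unfold Xp X
  push_cast
  ring

/-- the integrand of the first step -/
noncomputable def Aint (μ : Measure (V → Bool)) (w : ℕ → ℕ → E → ℝ) (D : Finset V)
    (c : V → ℕ → ℝ) (J m : ℕ) (ω : Om V E) : ℝ :=
  phx μ D c J m (Xp w J ω) + (1 / 2) ^ J * drx μ D c m ω.1 (Xp w J ω)

theorem measurable_Aint [IsFiniteMeasure μ] (hw : ∀ j k, Measurable (w j k)) (D : Finset V)
    (c : V → ℕ → ℝ) (J m : ℕ) : Measurable (Aint μ w D c J m : Om V E → ℝ) := by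
  unfold Aint
  exact ((measurable_phx D c J m).comp (measurable_Xp hw J)).add
    (((measurable_drx D c m).comp (measurable_fst.prodMk (measurable_Xp hw J))).const_mul _)

theorem measurable_lin (hw : ∀ j k, Measurable (w j k)) (D : Finset V) (a : V → ℝ) (J m : ℕ) :
    Measurable fun N : V → E => ∑ v ∈ D, a v * (w J (m + 1) (N v) - w J m (N v)) :=
  Finset.measurable_sum _ fun v _ => (((hw J (m + 1)).comp (measurable_pi_apply v)).sub
    ((hw J m).comp (measurable_pi_apply v))).const_mul _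

/-- the factor produced by the last increment of the noise -/
noncomputable def gam (D : Finset V) (J : ℕ) (a : V → ℝ) : ℂ :=
  Complex.exp (-((1 / 2) ^ J / 2 * ∑ v ∈ D, a v ^ 2 : ℝ))

theorem norm_gam_le (D : Finset V) (J : ℕ) (a : V → ℝ) : ‖gam D J a‖ ≤ 1 := by
  unfold gam
  rw [Complex.norm_exp]
  apply Real.exp_le_one_iff.mpr
  rw [Complex.neg_re, Complex.ofReal_re]
  have : 0 ≤ (1 / 2 : ℝ) ^ J / 2 * ∑ v ∈ D, a v ^ 2 :=
    mul_nonneg (by positivity) (Finset.sum_nonneg fun v _ => sq_nonneg _)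
  linarith

theorem integrable_ee {Ω : Type*} [MeasurableSpace Ω] {P : Measure Ω} [IsFiniteMeasure P]
    {f : Ω → ℝ} (hf : Measurable f) : Integrable (fun ω => ee (f ω)) P :=
  Integrable.of_bound (measurable_ee.comp hf).aestronglyMeasurable 1
    (Eventually.of_forall fun _ => (norm_ee _).le)

/-- independence of the last increment: noise part -/
theorem noise_split (hw : IsDyadicBM ρ w) (D : Finset V) (J m : ℕ) (a : V → ℝ)
    {F : (D → Fin m → ℝ) → ℂ} (hF : Measurable F) :
    ∫ N : V → E, F (inc w D J m N) * ee (∑ v ∈ D, a v * (w J (m + 1) (N v) - w J m (N v)))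
      ∂(Measure.infinitePi fun _ : V => ρ) =
    (∫ N, F (inc w D J m N) ∂(Measure.infinitePi fun _ : V => ρ)) * gam D J a := by
  have hG : Measurable fun z : D → ℝ => ee (∑ v : D, a v.1 * z v) :=
    measurable_ee.comp (Finset.measurable_sum _ fun v _ => (measurable_pi_apply v).const_mul _)
  have h1 := integral_split (ι := D) m (gaussianReal 0 ((1 / 2) ^ J)) hF hG
  have h2 : Measurable fun y : D → Fin (m + 1) → ℝ =>
      F (fun v l => y v l.castSucc) * ee (∑ v : D, a v.1 * y v (Fin.last m)) := by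
    refine (hF.comp ?_).mul (hG.comp ?_)
    · exact measurable_pi_lambda _ fun v => measurable_pi_lambda _ fun l =>
        (measurable_pi_apply _).comp (measurable_pi_apply v)
    · exact measurable_pi_lambda _ fun v => (measurable_pi_apply _).comp (measurable_pi_apply v)
  have h3 := integral_map (μ := Measure.infinitePi fun _ : V => ρ) (φ := inc w D J (m + 1))
    (measurable_inc hw D J (m + 1)).aemeasurable h2.aestronglyMeasurable
  have h4 := integral_map (μ := Measure.infinitePi fun _ : V => ρ) (φ := inc w D J m)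
    (measurable_inc hw D J m).aemeasurable hF.aestronglyMeasurable
  rw [map_inc hw D J (m + 1)] at h3
  rw [map_inc hw D J m] at h4
  rw [h1, h4] at h3
  have h5 : ∫ z : D → ℝ, ee (∑ v : D, a v.1 * z v)
      ∂(Measure.pi fun _ : D => gaussianReal 0 ((1 / 2) ^ J)) = gam D J a := by
    rw [integral_ee_pi]
    unfold gam
    congr 3
    rw [← Finset.sum_coe_sort D (fun v => a v ^ 2)]
    simp
  rw [h5] at h3
  rw [h3]
  refine integral_congr_ae (Eventually.of_forall fun N => ?_)
  show F (inc w D J m N) * ee (∑ v ∈ D, a v * (w J (m + 1) (N v) - w J m (N v))) =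
    F (fun v l => inc w D J (m + 1) N v l.castSucc) *
      ee (∑ v : D, a v.1 * inc w D J (m + 1) N v (Fin.last m))
  congr 2
  rw [← Finset.sum_coe_sort D (fun v => a v * (w J (m + 1) (N v) - w J m (N v)))]
  rfl

theorem step_indep [IsProbabilityMeasure μ] (hw : IsDyadicBM ρ w) (D : Finset V)
    (c : V → ℕ → ℝ) (J m : ℕ) :
    ∫ ω : Om V E, ee (phx μ D c J (m + 1) (Xp w J ω)) ∂(PP μ ρ) =
      (∫ ω : Om V E, ee (Aint μ w D c J m ω) ∂(PP μ ρ)) * gam D J (fun v => c v m) := by
  have := hw.prob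
  have hPP : IsProbabilityMeasure (PP μ ρ) := isProbabilityMeasure_PP
  have hL : Measurable fun ω : Om V E =>
      ∑ v ∈ D, c v m * (w J (m + 1) (ω.2 v) - w J m (ω.2 v)) :=
    (measurable_lin hw.meas D (fun v => c v m) J m).comp measurable_snd
  have hA := measurable_Aint (μ := μ) hw.meas D c J m
  have h1 : ∀ ω : Om V E, ee (phx μ D c J (m + 1) (Xp w J ω)) =
      ee (Aint μ w D c J m ω) * ee (∑ v ∈ D, c v m * (w J (m + 1) (ω.2 v) - w J m (ω.2 v))) := by
    intro ω
    rw [phx_succ, ee_add]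
    rfl
  simp_rw [h1]
  have hi1 : Integrable (fun ω : Om V E => ee (Aint μ w D c J m ω) *
      ee (∑ v ∈ D, c v m * (w J (m + 1) (ω.2 v) - w J m (ω.2 v))))
      (μ.prod (Measure.infinitePi fun _ => ρ)) := by
    have h2 := integrable_ee (P := PP μ ρ) (hA.add hL)
    refine h2.congr (Eventually.of_forall fun ω => ?_)
    exact ee_add _ _
  have hi2 : Integrable (fun ω : Om V E => ee (Aint μ w D c J m ω))
      (μ.prod (Measure.infinitePi fun _ => ρ)) := integrable_ee (P := PP μ ρ) hA
  unfold PP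
  rw [integral_prod _ hi1, integral_prod _ hi2, ← integral_mul_const]
  refine integral_congr_ae (Eventually.of_forall fun σ => ?_)
  show ∫ N, ee (Aint μ w D c J m (σ, N)) *
      ee (∑ v ∈ D, c v m * (w J (m + 1) (N v) - w J m (N v))) ∂(Measure.infinitePi fun _ => ρ) =
    (∫ N, ee (Aint μ w D c J m (σ, N)) ∂(Measure.infinitePi fun _ => ρ)) *
      gam D J (fun v => c v m)
  have hFm : Measurable fun y : D → Fin m → ℝ => ee (phx μ D c J m (pathy D J m σ y) +
      (1 / 2) ^ J * drx μ D c m σ (pathy D J m σ y)) := by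
    refine measurable_ee.comp (((measurable_phx D c J m).comp (measurable_pathy D J m σ)).add
      (((measurable_drx D c m).comp (measurable_const.prodMk
        (measurable_pathy D J m σ))).const_mul _))
  have h3 : ∀ N : V → E, ee (Aint μ w D c J m (σ, N)) =
      (fun y : D → Fin m → ℝ => ee (phx μ D c J m (pathy D J m σ y) +
      (1 / 2) ^ J * drx μ D c m σ (pathy D J m σ y))) (inc w D J m N) := by
    intro N
    have h4 : ∀ v ∈ D, ∀ l ≤ m, Xp w J (σ, N) v l = pathy D J m σ (inc w D J m N) v l :=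
      fun v hv l hl => (pathy_inc hw D J m (σ, N) hv hl).symm
    simp only
    unfold Aint
    rw [phx_congr D c J m h4, drx_congr D c m σ h4]
  simp_rw [h3]
  exact noise_split hw D J m (fun v => c v m) hFm

/-- extend a path from `D` and times `≤ m` by zero -/
noncomputable def extx (D : Finset V) (m : ℕ) (y : D → Fin (m + 1) → ℝ) (v : V) (l : ℕ) : ℝ :=
  open Classical in if h : v ∈ D then (if h' : l < m + 1 then y ⟨v, h⟩ ⟨l, h'⟩ else 0) else 0

theorem measurable_extx (D : Finset V) (m : ℕ) : Measurable (extx D m) := by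
  refine measurable_pi_lambda _ fun v => measurable_pi_lambda _ fun l => ?_
  unfold extx
  by_cases h : v ∈ D
  · by_cases h' : l < m + 1
    · simp only [h, h', dite_true]
      exact (measurable_pi_apply _).comp (measurable_pi_apply _)
    · simp only [h, h', dite_true, dite_false]
      exact measurable_const
  · simp only [h, dite_false]
    exact measurable_const

theorem extx_apply (D : Finset V) (m : ℕ) (x : V → ℕ → ℝ) {v : V} (hv : v ∈ D) {l : ℕ}
    (hl : l ≤ m) : extx D m (fun (u : D) (i : Fin (m + 1)) => x u i) v l = x v l := by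
  unfold extx
  rw [dif_pos hv, dif_pos (by omega)]

theorem bayes_real [IsProbabilityMeasure μ] (hw : IsDyadicBM ρ w) (D : Finset V)
    (c : V → ℕ → ℝ) (J m : ℕ) {v : V} (hv : v ∈ D) {f : ℝ → ℝ} (hf : Measurable f)
    (hf1 : ∀ x, |f x| ≤ 1) :
    ∫ ω : Om V E, f (phx μ D c J m (Xp w J ω)) * (spin (ω.1 v) - M μ w D v J m ω)
      ∂(PP μ ρ) = 0 := by
  have h1 := bayes (μ := μ) hw D hv J m (fun x => f (phx μ D c J m (extx D m x)))
    (hf.comp ((measurable_phx D c J m).comp (measurable_extx D m))) (C := 1) (fun x => hf1 _)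
  rw [← h1]
  refine integral_congr_ae (Eventually.of_forall fun ω => ?_)
  show f (phx μ D c J m (Xp w J ω)) * (spin (ω.1 v) - M μ w D v J m ω) =
    f (phx μ D c J m (extx D m (fun (u : D) (l : Fin (m + 1)) => X w u.1 J l ω))) *
      (spin (ω.1 v) - M μ w D v J m ω)
  congr 2
  refine phx_congr D c J m fun u hu l hl => ?_
  exact (extx_apply D m (Xp w J ω) hu hl).symm

theorem bayes_ee [IsProbabilityMeasure μ] (hw : IsDyadicBM ρ w) (D : Finset V)
    (c : V → ℕ → ℝ) (J m : ℕ) {v : V} (hv : v ∈ D) :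
    ∫ ω : Om V E, ee (phx μ D c J m (Xp w J ω)) * ((spin (ω.1 v) - M μ w D v J m ω : ℝ) : ℂ)
      ∂(PP μ ρ) = 0 := by
  have := hw.prob
  have hPP : IsProbabilityMeasure (PP μ ρ) := isProbabilityMeasure_PP
  have hp : Measurable fun ω : Om V E => phx μ D c J m (Xp w J ω) :=
    (measurable_phx D c J m).comp (measurable_Xp hw.meas J)
  have hd : Measurable fun ω : Om V E => spin (ω.1 v) - M μ w D v J m ω :=
    (measurable_spin.comp ((measurable_pi_apply v).comp measurable_fst)).sub
      (measurable_M hw.meas D v J m)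
  have hb : ∀ ω : Om V E, |spin (ω.1 v) - M μ w D v J m ω| ≤ 2 := by
    intro ω
    refine (abs_sub _ _).trans ?_
    rw [abs_spin]
    linarith [abs_M_le_one (μ := μ) (w := w) D v J m ω]
  have hint : ∀ f : ℝ → ℝ, Measurable f → (∀ x, |f x| ≤ 1) → Integrable (fun ω : Om V E =>
      ((f (phx μ D c J m (Xp w J ω)) * (spin (ω.1 v) - M μ w D v J m ω) : ℝ) : ℂ)) (PP μ ρ) := by
    intro f hf hf1
    refine Integrable.ofReal (Integrable.of_bound ((hf.comp hp).mul hd).aestronglyMeasurable 2
      (Eventually.of_forall fun ω => ?_))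
    show |f (phx μ D c J m (Xp w J ω)) * (spin (ω.1 v) - M μ w D v J m ω)| ≤ 2
    rw [abs_mul]
    calc _ ≤ 1 * 2 := mul_le_mul (hf1 _) (hb ω) (abs_nonneg _) (by norm_num)
      _ = 2 := by norm_num
  have h1 := bayes_real (μ := μ) hw D c J m hv Real.measurable_cos Real.abs_cos_le_one
  have h2 := bayes_real (μ := μ) hw D c J m hv Real.measurable_sin Real.abs_sin_le_one
  have h3 : ∀ ω : Om V E, ee (phx μ D c J m (Xp w J ω)) *
      ((spin (ω.1 v) - M μ w D v J m ω : ℝ) : ℂ) =
      ((Real.cos (phx μ D c J m (Xp w J ω)) * (spin (ω.1 v) - M μ w D v J m ω) : ℝ) : ℂ) +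
      ((Real.sin (phx μ D c J m (Xp w J ω)) * (spin (ω.1 v) - M μ w D v J m ω) : ℝ) : ℂ) *
        Complex.I := by
    intro ω
    rw [ee_eq]
    push_cast
    ring
  simp_rw [h3]
  rw [integral_add (hint _ Real.measurable_cos Real.abs_cos_le_one)
    ((hint _ Real.measurable_sin Real.abs_sin_le_one).mul_const _), integral_mul_const,
    integral_complex_ofReal, integral_complex_ofReal, h1, h2]
  simp

theorem step_bayes [IsProbabilityMeasure μ] (hw : IsDyadicBM ρ w) (D : Finset V)
    (c : V → ℕ → ℝ) (J m : ℕ) :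
    ‖∫ ω : Om V E, ee (Aint μ w D c J m ω) ∂(PP μ ρ) -
      ∫ ω : Om V E, ee (phx μ D c J m (Xp w J ω)) ∂(PP μ ρ)‖ ≤
      12 * ((1 / 2) ^ J * ∑ v ∈ D, |c v m|) ^ 2 := by
  have := hw.prob
  have hPP : IsProbabilityMeasure (PP μ ρ) := isProbabilityMeasure_PP
  have hp : Measurable fun ω : Om V E => phx μ D c J m (Xp w J ω) :=
    (measurable_phx D c J m).comp (measurable_Xp hw.meas J)
  have hA := measurable_Aint (μ := μ) hw.meas D c J m
  set dr : Om V E → ℝ := fun ω => (1 / 2) ^ J * drx μ D c m ω.1 (Xp w J ω) with hdr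
  have hdrm : Measurable dr :=
    ((measurable_drx D c m).comp (measurable_fst.prodMk (measurable_Xp hw.meas J))).const_mul _
  have hdrb : ∀ ω, |dr ω| ≤ 2 * ((1 / 2) ^ J * ∑ v ∈ D, |c v m|) := by
    intro ω
    simp only [hdr]
    rw [abs_mul, abs_of_nonneg (by positivity : (0 : ℝ) ≤ (1 / 2) ^ J)]
    have h1 : |drx μ D c m ω.1 (Xp w J ω)| ≤ 2 * ∑ v ∈ D, |c v m| := by
      unfold drx
      rw [Finset.mul_sum]
      refine (Finset.abs_sum_le_sum_abs _ _).trans (Finset.sum_le_sum fun v _ => ?_)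
      rw [abs_mul]
      have h2 : |spin (ω.1 v) - mag μ D v (fun u => Xp w J ω u m)| ≤ 2 := by
        refine (abs_sub _ _).trans ?_
        rw [abs_spin]
        linarith [abs_mag_le_one μ D v (fun u => Xp w J ω u m)]
      calc |c v m| * _ ≤ |c v m| * 2 := mul_le_mul_of_nonneg_left h2 (abs_nonneg _)
        _ = 2 * |c v m| := by ring
    calc _ ≤ (1 / 2 : ℝ) ^ J * (2 * ∑ v ∈ D, |c v m|) :=
          mul_le_mul_of_nonneg_left h1 (by positivity)
      _ = _ := by ring
  have hiA := integrable_ee (P := PP μ ρ) hA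
  have hip := integrable_ee (P := PP μ ρ) hp
  -- the linear term has integral zero
  have hlin_int : Integrable (fun ω : Om V E => ee (phx μ D c J m (Xp w J ω)) *
      ((dr ω : ℂ) * Complex.I)) (PP μ ρ) := by
    refine Integrable.of_bound ((measurable_ee.comp hp).mul
      ((Complex.measurable_ofReal.comp hdrm).mul_const _)).aestronglyMeasurable
      (2 * ((1 / 2) ^ J * ∑ v ∈ D, |c v m|)) (Eventually.of_forall fun ω => ?_)
    rw [norm_mul, norm_ee, one_mul, norm_mul, Complex.norm_I, mul_one, Complex.norm_real]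
    exact hdrb ω
  have hlin : ∫ ω : Om V E, ee (phx μ D c J m (Xp w J ω)) * ((dr ω : ℂ) * Complex.I)
      ∂(PP μ ρ) = 0 := by
    have h1 : ∀ ω : Om V E, ee (phx μ D c J m (Xp w J ω)) * ((dr ω : ℂ) * Complex.I) =
        ∑ v ∈ D, (ee (phx μ D c J m (Xp w J ω)) *
          ((spin (ω.1 v) - M μ w D v J m ω : ℝ) : ℂ)) *
          (((1 / 2) ^ J * c v m : ℝ) * Complex.I) := by
      intro ω
      simp only [hdr]
      unfold drx
      push_cast
      rw [Finset.mul_sum, Finset.sum_mul, Finset.mul_sum]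
      refine Finset.sum_congr rfl fun v _ => ?_
      unfold M Xp
      ring
    simp_rw [h1]
    rw [integral_finsetSum]
    · refine Finset.sum_eq_zero fun v hv => ?_
      rw [integral_mul_const, bayes_ee hw D c J m hv, zero_mul]
    · intro v _
      refine Integrable.mul_const ?_ _
      have hd : Measurable fun ω : Om V E => spin (ω.1 v) - M μ w D v J m ω :=
        (measurable_spin.comp ((measurable_pi_apply v).comp measurable_fst)).sub
          (measurable_M hw.meas D v J m)
      refine Integrable.of_bound ((measurable_ee.comp hp).mul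
        (Complex.measurable_ofReal.comp hd)).aestronglyMeasurable 2
        (Eventually.of_forall fun ω => ?_)
      rw [norm_mul, norm_ee, one_mul, Complex.norm_real, Real.norm_eq_abs]
      refine (abs_sub _ _).trans ?_
      rw [abs_spin]
      linarith [abs_M_le_one (μ := μ) (w := w) D v J m ω]
  have hkey : ∫ ω : Om V E, ee (Aint μ w D c J m ω) ∂(PP μ ρ) -
      ∫ ω : Om V E, ee (phx μ D c J m (Xp w J ω)) ∂(PP μ ρ) =
      ∫ ω : Om V E, ee (phx μ D c J m (Xp w J ω)) *
        (ee (dr ω) - 1 - (dr ω : ℂ) * Complex.I) ∂(PP μ ρ) := by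
    have h1 : ∀ ω : Om V E, ee (phx μ D c J m (Xp w J ω)) *
        (ee (dr ω) - 1 - (dr ω : ℂ) * Complex.I) = (ee (Aint μ w D c J m ω) -
        ee (phx μ D c J m (Xp w J ω))) -
        ee (phx μ D c J m (Xp w J ω)) * ((dr ω : ℂ) * Complex.I) := by
      intro ω
      have h2 : ee (Aint μ w D c J m ω) = ee (phx μ D c J m (Xp w J ω)) * ee (dr ω) := by
        rw [← ee_add]
        rfl
      rw [h2]
      ring
    simp_rw [h1]
    have e1 := integral_sub (hiA.sub hip) hlin_int
    have e2 := integral_sub hiA hip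
    simp only [Pi.sub_apply] at e1
    rw [e1, hlin, sub_zero, e2]
  rw [hkey]
  have hbd : ∀ ω : Om V E, ‖ee (phx μ D c J m (Xp w J ω)) *
      (ee (dr ω) - 1 - (dr ω : ℂ) * Complex.I)‖ ≤
      12 * ((1 / 2) ^ J * ∑ v ∈ D, |c v m|) ^ 2 := by
    intro ω
    rw [norm_mul, norm_ee, one_mul]
    refine (norm_ee_sub_sub _).trans ?_
    have h1 := hdrb ω
    have h2 : dr ω ^ 2 ≤ (2 * ((1 / 2) ^ J * ∑ v ∈ D, |c v m|)) ^ 2 := by
      rw [← sq_abs]
      exact pow_le_pow_left₀ (abs_nonneg _) h1 2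
    nlinarith
  have h1 := norm_integral_le_of_norm_le_const (μ := PP μ ρ) (Eventually.of_forall hbd)
  simpa using h1

/-- one step of the telescoping -/
theorem one_step [IsProbabilityMeasure μ] (hw : IsDyadicBM ρ w) (D : Finset V)
    (c : V → ℕ → ℝ) (J m : ℕ) :
    ‖∫ ω : Om V E, ee (phx μ D c J (m + 1) (Xp w J ω)) ∂(PP μ ρ) -
      (∫ ω : Om V E, ee (phx μ D c J m (Xp w J ω)) ∂(PP μ ρ)) * gam D J (fun v => c v m)‖ ≤
      12 * ((1 / 2) ^ J * ∑ v ∈ D, |c v m|) ^ 2 := by
  rw [step_indep hw, ← sub_mul, norm_mul]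
  calc _ ≤ 12 * ((1 / 2) ^ J * ∑ v ∈ D, |c v m|) ^ 2 * 1 :=
        mul_le_mul (step_bayes hw D c J m) (norm_gam_le D J _) (norm_nonneg _) (by positivity)
    _ = _ := mul_one _

/-- the phase of the noise -/
noncomputable def phn (w : ℕ → ℕ → E → ℝ) (D : Finset V) (c : V → ℕ → ℝ) (J m : ℕ)
    (N : V → E) : ℝ :=
  ∑ v ∈ D, ∑ l ∈ Finset.range m, c v l * (w J (l + 1) (N v) - w J l (N v))

omit [MeasurableSpace E] in
theorem phn_succ (D : Finset V) (c : V → ℕ → ℝ) (J m : ℕ) (N : V → E) :
    phn w D c J (m + 1) N = phn w D c J m N +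
      ∑ v ∈ D, c v m * (w J (m + 1) (N v) - w J m (N v)) := by
  unfold phn
  rw [← Finset.sum_add_distrib]
  refine Finset.sum_congr rfl fun v _ => ?_
  rw [Finset.sum_range_succ]

theorem noise_step (hw : IsDyadicBM ρ w) (D : Finset V) (c : V → ℕ → ℝ) (J m : ℕ) :
    ∫ N : V → E, ee (phn w D c J (m + 1) N) ∂(Measure.infinitePi fun _ : V => ρ) =
      (∫ N : V → E, ee (phn w D c J m N) ∂(Measure.infinitePi fun _ : V => ρ)) *
        gam D J (fun v => c v m) := by
  have hF : Measurable fun y : D → Fin m → ℝ => ee (∑ v : D, ∑ l : Fin m, c v.1 l * y v l) :=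
    measurable_ee.comp (Finset.measurable_sum _ fun v _ => Finset.measurable_sum _ fun l _ =>
      ((measurable_pi_apply l).comp (measurable_pi_apply v) :
        Measurable fun y : D → Fin m → ℝ => y v l).const_mul _)
  have h1 := noise_split hw D J m (fun v => c v m) hF
  have h2 : ∀ N : V → E, ee (∑ v : D, ∑ l : Fin m, c v.1 l * inc w D J m N v l) =
      ee (phn w D c J m N) := by
    intro N
    congr 1
    unfold phn inc
    rw [← Finset.sum_coe_sort D]
    refine Finset.sum_congr rfl fun v _ => ?_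
    exact Fin.sum_univ_eq_sum_range (fun l => c v.1 l * (w J (l + 1) (N v.1) - w J l (N v.1))) m
  simp only [h2] at h1
  rw [← h1]
  refine integral_congr_ae (Eventually.of_forall fun N => ?_)
  show ee (phn w D c J (m + 1) N) = ee (phn w D c J m N) * _
  rw [phn_succ, ee_add]

theorem telescope [IsProbabilityMeasure μ] (hw : IsDyadicBM ρ w) (D : Finset V)
    (c : V → ℕ → ℝ) {Λ : ℝ} (J m : ℕ) (hc : ∀ l < m, ∑ v ∈ D, |c v l| ≤ Λ) :
    ‖∫ ω : Om V E, ee (phx μ D c J m (Xp w J ω)) ∂(PP μ ρ) -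
      ∫ N : V → E, ee (phn w D c J m N) ∂(Measure.infinitePi fun _ : V => ρ)‖ ≤
      m * (12 * ((1 / 2) ^ J * Λ) ^ 2) := by
  have := hw.prob
  have hPP : IsProbabilityMeasure (PP μ ρ) := isProbabilityMeasure_PP
  induction m with
  | zero =>
    have h1 : ∀ ω : Om V E, ee (phx μ D c J 0 (Xp w J ω)) = 1 := fun ω => by
      simp [phx, ee_zero]
    have h2 : ∀ N : V → E, ee (phn w D c J 0 N) = 1 := fun N => by simp [phn, ee_zero]
    simp_rw [h1, h2]
    simp
  | succ m ih =>
    have ih' := ih fun l hl => hc l (by omega)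
    have h1 := one_step (μ := μ) hw D c J m
    rw [noise_step hw]
    set a := ∫ ω : Om V E, ee (phx μ D c J (m + 1) (Xp w J ω)) ∂(PP μ ρ)
    set b := ∫ ω : Om V E, ee (phx μ D c J m (Xp w J ω)) ∂(PP μ ρ)
    set b' := ∫ N : V → E, ee (phn w D c J m N) ∂(Measure.infinitePi fun _ : V => ρ)
    set g := gam D J (fun v => c v m)
    have h2 : a - b' * g = (a - b * g) + (b - b') * g := by ring
    rw [h2]
    have h3 : ‖(b - b') * g‖ ≤ m * (12 * ((1 / 2) ^ J * Λ) ^ 2) := by
      rw [norm_mul]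
      calc _ ≤ (m * (12 * ((1 / 2) ^ J * Λ) ^ 2)) * 1 :=
            mul_le_mul ih' (norm_gam_le D J _) (norm_nonneg _) (by positivity)
        _ = _ := mul_one _
    have h4 : 12 * ((1 / 2 : ℝ) ^ J * ∑ v ∈ D, |c v m|) ^ 2 ≤ 12 * ((1 / 2) ^ J * Λ) ^ 2 := by
      have h5 : 0 ≤ ∑ v ∈ D, |c v m| := Finset.sum_nonneg fun v _ => abs_nonneg _
      have h6 := hc m (by omega)
      gcongr
    refine (norm_add_le _ _).trans ?_
    push_cast
    linarith

end Proc

end P161
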