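import Mathlib

/-!
# P161 : growth of a regular tree and the kernel inequality
-/

namespace P161

open Finset

variable {V : Type*} {G : SimpleGraph V}

/-- a vertex at distance `n + 1` from `w` has a neighbour at distance `n` -/
theorem exists_pred (hG : G.Connected) {w v : V} {n : ℕ} (h : G.dist w v = n + 1) :
    ∃ u, G.Adj v u ∧ G.dist w u = n := by
  obtain ⟨p, hp⟩ := hG.exists_walk_length_eq_dist v w
  rw [G.dist_comm] at h
  rw [h] at hp
  cases p with
  | nil => simp at hp
  | cons hadj q =>
    rename_i u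
    refine ⟨u, hadj, ?_⟩
    rw [SimpleGraph.Walk.length_cons] at hp
    have h1 : G.dist u w ≤ n := by
      have := SimpleGraph.dist_le q
      omega
    have h2 : G.dist v w ≤ G.dist v u + G.dist u w := hG.dist_triangle
    have h3 : G.dist v u = 1 := SimpleGraph.dist_eq_one_iff_adj.mpr hadj
    rw [G.dist_comm]
    omega

/-- number of vertices at distance `n + 1` -/
theorem sphere_card [G.LocallyFinite] {d : ℕ} (hG : G.Connected)
    (hreg : G.IsRegularOfDegree d) (w : V) (n : ℕ) : ∀ D : Finset V,
      (∀ v ∈ D, G.dist w v = n + 1) → D.card ≤ d * (d - 1) ^ n := by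
  classical
  induction n with
  | zero =>
    intro D hD
    have hsub : D ⊆ G.neighborFinset w := by
      intro v hv
      rw [SimpleGraph.mem_neighborFinset]
      exact SimpleGraph.dist_eq_one_iff_adj.mp (hD v hv)
    calc D.card ≤ (G.neighborFinset w).card := card_le_card hsub
      _ = d := hreg w
      _ = d * (d - 1) ^ 0 := by simp
  | succ n ih =>
    intro D hD
    have hpred : ∀ v : V, ∃ u, v ∈ D → (G.Adj v u ∧ G.dist w u = n + 1) := by
      intro v
      by_cases hv : v ∈ D
      · obtain ⟨u, hu⟩ := exists_pred hG (hD v hv)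
        exact ⟨u, fun _ => hu⟩
      · exact ⟨v, fun h => absurd h hv⟩
    choose π hπ using hpred
    have h1 : (D.image π).card ≤ d * (d - 1) ^ n := by
      apply ih
      intro u hu
      obtain ⟨v, hv, rfl⟩ := mem_image.mp hu
      exact (hπ v hv).2
    have h2 : D.card ≤ (d - 1) * (D.image π).card := by
      apply card_le_mul_card_image
      intro u hu
      obtain ⟨v, hv, rfl⟩ := mem_image.mp hu
      obtain ⟨x, hx1, hx2⟩ := exists_pred hG (hπ v hv).2
      have hsub : {a ∈ D | π a = π v} ⊆ (G.neighborFinset (π v)).erase x := by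
        intro y hy
        rw [mem_filter] at hy
        rw [mem_erase, SimpleGraph.mem_neighborFinset]
        constructor
        · rintro rfl
          have := hD y hy.1
          omega
        · rw [← hy.2]
          exact (hπ y hy.1).1.symm
      calc #{a ∈ D | π a = π v} ≤ ((G.neighborFinset (π v)).erase x).card := card_le_card hsub
        _ = (G.neighborFinset (π v)).card - 1 := by
            rw [card_erase_of_mem]
            rw [SimpleGraph.mem_neighborFinset]
            exact hx1
        _ = d - 1 := by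
            have : (G.neighborFinset (π v)).card = d := hreg (π v)
            rw [this]
    calc D.card ≤ (d - 1) * (D.image π).card := h2
      _ ≤ (d - 1) * (d * (d - 1) ^ n) := Nat.mul_le_mul_left _ h1
      _ = d * (d - 1) ^ (n + 1) := by ring

theorem growth [G.LocallyFinite] {d : ℕ} (hd : 2 ≤ d) (hG : G.IsTree)
    (hreg : G.IsRegularOfDegree d) {b : ℝ} (hb0 : 0 ≤ b) (hb : ((d : ℝ) - 1) * b < 1) (w : V)
    (D : Finset V) : ∑ v ∈ D, b ^ G.dist w v ≤ (1 + b) / (1 - ((d : ℝ) - 1) * b) := by
  classical
  set N := D.sup (fun v => G.dist w v) + 1 with hN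
  have hmem : ∀ v ∈ D, G.dist w v ∈ range N := by
    intro v hv
    rw [mem_range, hN]
    exact Nat.lt_succ_of_le (le_sup (f := fun v => G.dist w v) hv)
  have hd1 : (((d - 1 : ℕ) : ℝ)) = (d : ℝ) - 1 := by
    rw [Nat.cast_sub (by omega)]
    simp
  have hd1' : 1 ≤ (d : ℝ) - 1 := by
    have : (2 : ℝ) ≤ d := by exact_mod_cast hd
    linarith
  have hfib : ∀ n, ∑ v ∈ D with G.dist w v = n + 1, b ^ G.dist w v ≤
      d * b * (((d : ℝ) - 1) * b) ^ n := by
    intro n
    have hc := sphere_card hG.connected hreg w n (D.filter (fun v => G.dist w v = n + 1))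
      (fun v hv => (mem_filter.mp hv).2)
    calc ∑ v ∈ D with G.dist w v = n + 1, b ^ G.dist w v
        = ∑ v ∈ D with G.dist w v = n + 1, b ^ (n + 1) :=
          sum_congr rfl (fun v hv => by rw [(mem_filter.mp hv).2])
      _ = (D.filter (fun v => G.dist w v = n + 1)).card * b ^ (n + 1) := by
          rw [sum_const, nsmul_eq_mul]
      _ ≤ ((d * (d - 1) ^ n : ℕ) : ℝ) * b ^ (n + 1) := by
          apply mul_le_mul_of_nonneg_right _ (by positivity)
          exact_mod_cast hc
      _ = d * b * (((d : ℝ) - 1) * b) ^ n := by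
          push_cast
          rw [hd1, mul_pow]
          ring
  have hfib0 : ∑ v ∈ D with G.dist w v = 0, b ^ G.dist w v ≤ 1 := by
    have hsub : D.filter (fun v => G.dist w v = 0) ⊆ {w} := by
      intro v hv
      have := (mem_filter.mp hv).2
      rw [hG.connected.dist_eq_zero_iff] at this
      simp [this]
    calc ∑ v ∈ D with G.dist w v = 0, b ^ G.dist w v
        ≤ ∑ v ∈ ({w} : Finset V), b ^ G.dist w v :=
          sum_le_sum_of_subset_of_nonneg hsub (fun _ _ _ => by positivity)
      _ = 1 := by simp
  have hdb : 0 ≤ ((d : ℝ) - 1) * b := by positivity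
  have hgeo : ∀ m, ∑ n ∈ range m, d * b * (((d : ℝ) - 1) * b) ^ n ≤
      d * b / (1 - ((d : ℝ) - 1) * b) := by
    intro m
    rw [← mul_sum, div_eq_mul_inv]
    apply mul_le_mul_of_nonneg_left _ (by positivity)
    have h := Summable.sum_le_tsum (range m) (fun n _ => pow_nonneg hdb n)
      (summable_geometric_of_lt_one hdb hb)
    rwa [tsum_geometric_of_lt_one hdb hb] at h
  calc ∑ v ∈ D, b ^ G.dist w v
      = ∑ n ∈ range N, ∑ v ∈ D with G.dist w v = n, b ^ G.dist w v :=
        (sum_fiberwise_of_maps_to hmem _).symm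
    _ = ∑ n ∈ range (D.sup (fun v => G.dist w v)),
          (∑ v ∈ D with G.dist w v = n + 1, b ^ G.dist w v) +
          ∑ v ∈ D with G.dist w v = 0, b ^ G.dist w v := by
        rw [hN, sum_range_succ']
    _ ≤ ∑ n ∈ range (D.sup (fun v => G.dist w v)), d * b * (((d : ℝ) - 1) * b) ^ n + 1 :=
        add_le_add (sum_le_sum fun n _ => hfib n) hfib0
    _ ≤ d * b / (1 - ((d : ℝ) - 1) * b) + 1 := by
        linarith [hgeo (D.sup (fun v => G.dist w v))]
    _ = (1 + b) / (1 - ((d : ℝ) - 1) * b) := by
        have h0 : 1 - ((d : ℝ) - 1) * b ≠ 0 := by linarith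
        rw [div_add_one h0]
        congr 1
        ring

/-- in a tree, if the edge `w w'` leads from `w` towards `o` and away from `v`, then `w` lies on the
geodesic from `o` to `v` -/
theorem dist_add_of_edge (hG : G.IsTree) {o w w' v : V} (hadj : G.Adj w' w)
    (h1 : G.dist o w = G.dist o w' + 1) (h2 : G.dist v w' = G.dist v w + 1) :
    G.dist o v = G.dist o w + G.dist w v := by
  classical
  obtain ⟨p1, hp1⟩ := hG.connected.exists_walk_length_eq_dist w' o
  obtain ⟨p2, hp2⟩ := hG.connected.exists_walk_length_eq_dist v w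
  obtain ⟨p, hp⟩ := hG.connected.exists_walk_length_eq_dist o v
  have hbr : G.IsBridge s(w', w) :=
    SimpleGraph.isAcyclic_iff_forall_adj_isBridge.mp hG.isAcyclic hadj
  have hw1 : s(w', w) ∉ p1.edges := by
    intro he
    have hs := p1.snd_mem_support_of_mem_edges he
    have h3 : G.dist w o ≤ (p1.dropUntil w hs).length := SimpleGraph.dist_le _
    have h4 := p1.length_dropUntil_le_length hs
    rw [G.dist_comm] at h3
    rw [SimpleGraph.dist_comm (u := w') (v := o)] at hp1
    omega
  have hw2 : s(w', w) ∉ p2.edges := by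
    intro he
    have hs := p2.fst_mem_support_of_mem_edges he
    have h3 : G.dist v w' ≤ (p2.takeUntil w' hs).length := SimpleGraph.dist_le _
    have h4 := p2.length_takeUntil_le_length hs
    omega
  have hall := SimpleGraph.isBridge_iff_forall_walk_mem_edges.mp hbr ((p1.append p).append p2)
  rw [SimpleGraph.Walk.edges_append, SimpleGraph.Walk.edges_append, List.mem_append,
    List.mem_append] at hall
  have hpe : s(w', w) ∈ p.edges := by
    rcases hall with (h | h) | h
    · exact absurd h hw1
    · exact h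
    · exact absurd h hw2
  have hs := p.snd_mem_support_of_mem_edges hpe
  have h3 : G.dist o w ≤ (p.takeUntil w hs).length := SimpleGraph.dist_le _
  have h4 : G.dist w v ≤ (p.dropUntil w hs).length := SimpleGraph.dist_le _
  have h5 : (p.takeUntil w hs).length + (p.dropUntil w hs).length = p.length := by
    rw [← SimpleGraph.Walk.length_append, SimpleGraph.Walk.take_spec]
  have h6 : G.dist o v ≤ G.dist o w + G.dist w v := hG.connected.dist_triangle
  omega

theorem kernel [G.LocallyFinite] {d : ℕ} (hd : 2 ≤ d) (hG : G.IsTree)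
    (hreg : G.IsRegularOfDegree d) {a θ : ℝ} (h0 : 0 ≤ θ) (ha : θ < a)
    (hb : ((d : ℝ) - 1) * (θ * a) < 1) (o w : V) (D : Finset V) :
    ∑ v ∈ D, a ^ G.dist o v * θ ^ G.dist v w ≤
      (1 + θ * a) / (1 - ((d : ℝ) - 1) * (θ * a)) / (1 - θ / a) * a ^ G.dist o w := by
  have ha0 : 0 < a := lt_of_le_of_lt h0 ha
  set C : ℝ := (1 + θ * a) / (1 - ((d : ℝ) - 1) * (θ * a)) with hC
  have hC0 : 0 ≤ C := by
    apply div_nonneg (by positivity)
    linarith
  have hr : 0 < 1 - θ / a := by
    rw [sub_pos, div_lt_one ha0]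
    exact ha
  have hr1 : 1 - θ / a ≤ 1 := by
    have : 0 ≤ θ / a := by positivity
    linarith
  set B : ℝ := C / (1 - θ / a) with hB
  have hCB : C ≤ B := by
    rw [hB, le_div_iff₀ hr]
    nlinarith
  have hBC : B * (θ / a) + C = B := by
    have h1 : B * (1 - θ / a) = C := by
      rw [hB, div_mul_cancel₀ _ hr.ne']
    linarith
  have key : ∀ n, ∀ w : V, G.dist o w = n → ∑ v ∈ D, a ^ G.dist o v * θ ^ G.dist v w ≤ B * a ^ n := by
    intro n
    induction n with
    | zero =>
      intro w hw
      have hwo : o = w := hG.connected.dist_eq_zero_iff.mp hw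
      subst hwo
      have hg := growth hd hG hreg (b := θ * a) (by positivity) hb o D
      rw [pow_zero, mul_one]
      refine le_trans (le_of_eq ?_) (hg.trans hCB)
      refine sum_congr rfl fun v _ => ?_
      rw [SimpleGraph.dist_comm (u := v) (v := o), mul_pow]
      ring
    | succ n ih =>
      intro w hw
      obtain ⟨w', hadj, hw'⟩ := exists_pred hG.connected hw
      have hpt : ∀ v ∈ D, a ^ G.dist o v * θ ^ G.dist v w ≤
          θ * (a ^ G.dist o v * θ ^ G.dist v w') + a ^ (n + 1) * (θ * a) ^ G.dist w v := by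
        intro v _
        rcases hG.dist_eq_dist_add_one_of_adj v hadj with h | h
        · rw [h, pow_succ]
          have : 0 ≤ a ^ (n + 1) * (θ * a) ^ G.dist w v := by positivity
          nlinarith
        · have hd2 := dist_add_of_edge hG (o := o) hadj.symm (by omega) h
          rw [hd2, hw, pow_add, mul_pow, SimpleGraph.dist_comm (u := v) (v := w)]
          have h3 : 0 ≤ θ * (a ^ (n + 1) * a ^ G.dist w v * θ ^ G.dist v w') := by positivity
          nlinarith
      have hg := growth hd hG hreg (b := θ * a) (by positivity) hb w D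
      have hi := ih w' hw'
      calc ∑ v ∈ D, a ^ G.dist o v * θ ^ G.dist v w
          ≤ ∑ v ∈ D, (θ * (a ^ G.dist o v * θ ^ G.dist v w') +
              a ^ (n + 1) * (θ * a) ^ G.dist w v) := sum_le_sum hpt
        _ = θ * ∑ v ∈ D, a ^ G.dist o v * θ ^ G.dist v w' +
              a ^ (n + 1) * ∑ v ∈ D, (θ * a) ^ G.dist w v := by
            rw [sum_add_distrib, mul_sum, mul_sum]
        _ ≤ θ * (B * a ^ n) + a ^ (n + 1) * C :=
            add_le_add (mul_le_mul_of_nonneg_left hi h0)
              (mul_le_mul_of_nonneg_left hg (by positivity))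
        _ = (B * (θ / a) + C) * a ^ (n + 1) := by
            rw [pow_succ]
            field_simp
        _ = B * a ^ (n + 1) := by rw [hBC]
  exact key _ w rfl

end P161
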