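import Vale.Agent.P161.Exist

/-!
# P161, module Uniq : the free Ising measure is unique, a probability measure and invariant
-/

namespace P161

open MeasureTheory ProbabilityTheory
open scoped ENNReal



theorem connected_singleton {V : Type*} (G : SimpleGraph V) (o : V) :
    (G.induce (({o} : Finset V) : Set V)).Connected := by
  rw [Finset.coe_singleton]
  have : Nonempty ({o} : Set V) := ⟨⟨o, rfl⟩⟩
  refine ⟨fun a b => ?_⟩
  rw [Subsingleton.elim a b]

theorem isProb {V : Type*} [Nonempty V] {G : SimpleGraph V} {θ : ℝ}
    {μ : Measure (V → Bool)} (hμ : IsFreeIsing G θ μ) : IsProbabilityMeasure μ := by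
  obtain ⟨o⟩ := (inferInstance : Nonempty V)
  have h : ∀ b : Bool, μ {σ | σ o = b} = ENNReal.ofReal (1 / 2) := by
    intro b
    have h1 := hμ {o} (connected_singleton G o) (fun _ => b)
    have h2 : μ {σ | ∀ v ∈ ({o} : Finset V), σ v = b} =
        ENNReal.ofReal (1 / 2 * Wt G θ {o} (fun _ => b)) := h1
    rw [Wt_singleton, mul_one] at h2
    rw [← h2]
    congr 1
    ext σ
    simp
  have hm : MeasurableSet {σ : V → Bool | σ o = false} := by
    have h3 : MeasurableSet ((fun σ : V → Bool => σ o) ⁻¹' {false}) :=
      (measurable_pi_apply o) (measurableSet_singleton false)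
    exact h3
  have hu : (Set.univ : Set (V → Bool)) = {σ | σ o = true} ∪ {σ | σ o = false} := by
    ext σ
    simp only [Set.mem_univ, Set.mem_union, Set.mem_ofPred_eq, true_iff]
    cases σ o <;> simp
  refine ⟨?_⟩
  rw [hu, measure_union ?_ hm, h, h, ← ENNReal.ofReal_add (by norm_num) (by norm_num)]
  · norm_num
  · rw [Set.disjoint_left]
    intro σ h1 h2
    rw [Set.mem_ofPred_eq] at h1 h2
    rw [h1] at h2
    exact absurd h2 (by decide)

theorem uniq {V : Type*} {G : SimpleGraph V} (hG : G.Connected) {θ : ℝ} {μ μ' : Measure (V → Bool)}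
    (hμ : IsFreeIsing G θ μ) (hμ' : IsFreeIsing G θ μ') : μ = μ' := by
  have := hG.nonempty
  have h1 := isProb hμ
  have h2 := isProb hμ'
  have key : ∀ D : Finset V, μ.map D.restrict = μ'.map D.restrict := by
    intro D
    obtain ⟨D', hss, hD'⟩ := exists_superset hG D
    have hD : μ.map D'.restrict = μ'.map D'.restrict := by
      refine Measure.ext_of_singleton fun x => ?_
      classical
      obtain ⟨v0⟩ := hG.nonempty
      set η : V → Bool := fun v => if h : v ∈ D' then x ⟨v, h⟩ else true with hη
      have hpre : (D'.restrict : (V → Bool) → (D' → Bool)) ⁻¹' {x} =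
          {σ : V → Bool | ∀ v ∈ D', σ v = η v} := by
        ext σ
        rw [Set.mem_preimage, Set.mem_singleton_iff, Set.mem_ofPred_eq, funext_iff]
        constructor
        · intro h v hv
          rw [hη]
          simp only [hv, dite_true]
          exact h ⟨v, hv⟩
        · intro h v
          have h3 := h v.1 v.2
          rw [hη] at h3
          simp only [v.2, dite_true] at h3
          exact h3
      rw [Measure.map_apply (Finset.measurable_restrict D') (measurableSet_singleton x),
        Measure.map_apply (Finset.measurable_restrict D') (measurableSet_singleton x), hpre,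
        hμ D' hD' η, hμ' D' hD' η]
    have hr : (D.restrict : (V → Bool) → (D → Bool)) =
        Finset.restrict₂ hss ∘ D'.restrict := rfl
    rw [hr, ← Measure.map_map (Finset.measurable_restrict₂ hss) (Finset.measurable_restrict D'),
      ← Measure.map_map (Finset.measurable_restrict₂ hss) (Finset.measurable_restrict D'), hD]
  have hfin : ∀ D : Finset V, IsFiniteMeasure (μ'.map (D.restrict : (V → Bool) → (D → Bool))) :=
    fun D => inferInstance
  exact IsProjectiveLimit.unique (P := fun D : Finset V => μ'.map D.restrict)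
    (fun D => key D) (fun D => rfl)

theorem invariant {V : Type*} {G : SimpleGraph V} (hG : G.Connected) {θ : ℝ}
    {μ : Measure (V → Bool)} (hμ : IsFreeIsing G θ μ) (g : G ≃g G) :
    μ.map (fun σ v => σ (g.symm v)) = μ := by
  refine uniq hG ?_ hμ
  intro D hD η
  classical
  have hmf : Measurable fun (σ : V → Bool) v => σ (g.symm v) :=
    measurable_pi_lambda _ fun v => measurable_pi_apply _
  have hms : MeasurableSet {σ : V → Bool | ∀ v ∈ D, σ v = η v} := by
    have h : {σ : V → Bool | ∀ v ∈ D, σ v = η v} = (D : Set V).pi fun v => {η v} := by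
      ext σ; simp [Set.mem_pi]
    rw [h]
    exact MeasurableSet.pi D.countable_toSet fun v _ => measurableSet_singleton _
  rw [Measure.map_apply hmf hms]
  set D' : Finset V := D.map g.symm.toEquiv.toEmbedding with hD'
  have hmem : ∀ v, v ∈ D' ↔ g v ∈ D := by
    intro v
    rw [hD', Finset.mem_map]
    constructor
    · rintro ⟨u, hu, rfl⟩
      simpa using hu
    · intro h
      exact ⟨g v, h, by simp⟩
  have hpre : (fun (σ : V → Bool) v => σ (g.symm v)) ⁻¹' {σ : V → Bool | ∀ v ∈ D, σ v = η v} =
      {σ : V → Bool | ∀ v ∈ D', σ v = η (g v)} := by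
    ext σ
    rw [Set.mem_preimage, Set.mem_ofPred_eq, Set.mem_ofPred_eq]
    constructor
    · intro h v hv
      have h3 := h (g v) ((hmem v).mp hv)
      simpa using h3
    · intro h v hv
      have h3 := h (g.symm v) ((hmem _).mpr (by simpa using hv))
      simpa using h3
  rw [hpre]
  have hcoe : (D' : Set V) = g.symm '' (D : Set V) := by
    rw [hD', Finset.coe_map]
    rfl
  have hconn : (G.induce (D' : Set V)).Connected := by
    rw [hcoe]
    have e : G.induce (D : Set V) ≃g G.induce (g.symm '' (D : Set V)) := by
      refine ⟨g.symm.toEquiv.image (D : Set V), ?_⟩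
      intro a b
      show G.Adj (g.symm a.1) (g.symm b.1) ↔ G.Adj a.1 b.1
      exact g.symm.map_adj_iff
    exact e.connected_iff.mp hD
  rw [hμ D' hconn (fun v => η (g v))]
  congr 2
  refine (Finset.prod_bij (fun e _ => Sym2.map g.symm e) ?_ ?_ ?_ ?_).symm
  · intro e he
    rw [Finset.mem_filter] at he ⊢
    induction e using Sym2.ind with
    | h a b =>
      rw [Finset.mk_mem_sym2_iff, SimpleGraph.mem_edgeSet] at he
      rw [Sym2.map_mk, Finset.mk_mem_sym2_iff, SimpleGraph.mem_edgeSet, hmem, hmem]
      simp only [RelIso.apply_symm_apply]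
      exact ⟨he.1, g.symm.map_adj_iff.mpr he.2⟩
  · intro e1 _ e2 _ h
    exact Sym2.map.injective g.symm.injective h
  · intro e he
    refine ⟨Sym2.map g e, ?_, ?_⟩
    · rw [Finset.mem_filter] at he ⊢
      induction e using Sym2.ind with
      | h a b =>
        rw [Finset.mk_mem_sym2_iff, SimpleGraph.mem_edgeSet, hmem, hmem] at he
        rw [Sym2.map_mk, Finset.mk_mem_sym2_iff, SimpleGraph.mem_edgeSet]
        exact ⟨he.1, g.map_adj_iff.mpr he.2⟩
    · rw [Sym2.map_map]
      have : (g.symm ∘ g : V → V) = id := by ext v; simp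
      rw [this, Sym2.map_id, id]
  · intro e _
    induction e using Sym2.ind with
    | h a b =>
      rw [Sym2.map_mk, edgeW_mk, edgeW_mk]
      simp

end P161
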