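import Vale.Agent.P161.Final
import Vale.Agent.P161.Tree
import Vale.Agent.P161.Uniq
import Vale.Agent.P161.Leaf
import Vale.Agent.P161.Ising

/-!
# P161, module Main : assembly
-/

namespace P161

open MeasureTheory ProbabilityTheory Filter Topology

theorem main {V : Type*} {G : SimpleGraph V} [G.LocallyFinite] {d : ℕ} (hd : 3 ≤ d)
    (hG : G.IsTree) (hreg : G.IsRegularOfDegree d) {θ : ℝ} (h0 : 0 ≤ θ)
    (h1 : θ * √((d : ℝ) - 1) < 1) {μ : Measure (V → Bool)} (hμ : IsFreeIsing G θ μ) :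
    IsFactorOfIID G μ := by
  have hd2 : (2 : ℝ) ≤ (d : ℝ) - 1 := by
    have : (3 : ℝ) ≤ (d : ℝ) := by exact_mod_cast hd
    linarith
  have hs : 0 < √((d : ℝ) - 1) := Real.sqrt_pos.mpr (by linarith)
  have hss : √((d : ℝ) - 1) * √((d : ℝ) - 1) = (d : ℝ) - 1 := Real.mul_self_sqrt (by linarith)
  have hs1 : 1 < √((d : ℝ) - 1) := by
    rw [Real.lt_sqrt (by norm_num)]
    linarith
  have hθ1 : θ < 1 := by nlinarith
  have hne : Nonempty V := hG.connected.nonempty
  have hcount : Countable V := countable_of_connected hG.connected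
  have hprob : IsProbabilityMeasure μ := isProb hμ
  -- choose `a` between `θ` and `(d-1)^{-1/2}`
  obtain ⟨a, ha1, ha2⟩ : ∃ a, θ < a ∧ a < 1 / √((d : ℝ) - 1) :=
    exists_between ((lt_div_iff₀ hs).mpr h1)
  have ha0 : 0 < a := lt_of_le_of_lt h0 ha1
  have ha3 : a * √((d : ℝ) - 1) < 1 := (lt_div_iff₀ hs).mp ha2
  have haa : ((d : ℝ) - 1) * (a ^ 2) < 1 := by
    have : (a * √((d : ℝ) - 1)) ^ 2 < 1 := by
      have h5 : 0 ≤ a * √((d : ℝ) - 1) := by positivity
      nlinarith
    calc ((d : ℝ) - 1) * (a ^ 2) = a ^ 2 * (√((d : ℝ) - 1) * √((d : ℝ) - 1)) := by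
          rw [hss]; ring
      _ = (a * √((d : ℝ) - 1)) ^ 2 := by ring
      _ < 1 := this
  have hθa : ((d : ℝ) - 1) * (θ * a) < 1 := by
    refine lt_of_le_of_lt ?_ haa
    refine mul_le_mul_of_nonneg_left ?_ (by linarith)
    nlinarith
  refine final (fun g => invariant hG.connected hμ g) fun o => ?_
  obtain ⟨D, hmono, hconn, ho, hexh⟩ := exhaustion hG.connected o
  refine ⟨D, fun v u => θ ^ G.dist v u, fun u => a ^ G.dist o u,
    (1 + θ * a) / (1 - ((d : ℝ) - 1) * (θ * a)) / (1 - θ / a), hmono, ho, hexh, ?_, ?_, ?_, ?_,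
    ?_, ?_, ?_⟩
  · intro u v
    positivity
  · intro n v hv x y
    exact mag_lip hG h0 hθ1 hμ (hconn n) hv x y
  · intro u
    positivity
  · have h3 : 0 < 1 - ((d : ℝ) - 1) * (θ * a) := by linarith
    have h4 : 0 < 1 - θ / a := by
      rw [sub_pos, div_lt_one ha0]
      exact ha1
    positivity
  · intro n u _
    exact kernel (by omega) hG hreg h0 ha1 hθa o u (D n)
  · intro u
    exact pow_le_pow_left₀ h0 ha1.le _
  · refine summable_of_sum_le (c := (1 + a ^ 2) / (1 - ((d : ℝ) - 1) * a ^ 2))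
      (fun u => by positivity) fun s => ?_
    have := growth (by omega) hG hreg (b := a ^ 2) (by positivity) haa o s
    refine le_trans (le_of_eq ?_) this
    refine Finset.sum_congr rfl fun v _ => ?_
    rw [← pow_mul, ← pow_mul, mul_comm]

end P161
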