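import Mathlib

/-!
# P161 : the definitions used in the statement

The free zero-field Ising measure on a tree, and factors of i.i.d.
-/

namespace P161

open MeasureTheory ProbabilityTheory
open scoped ENNReal

section Statement

variable {V : Type*}

/-- the value `±1` of a spin -/
def spin (b : Bool) : ℝ := if b then 1 else -1

/-- the factor `(1 + θ η_u η_v) / 2` of the edge `{u, v}` -/
noncomputable def edgeW (θ : ℝ) (η : V → Bool) : Sym2 V → ℝ :=
  Sym2.lift ⟨fun u v => (1 + θ * spin (η u) * spin (η v)) / 2, fun u v => by ring⟩

open Classical in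
/-- `μ` is the free zero-field Ising measure on `G` with parameter `θ`: for every finite connected
set `D` of vertices and every spin configuration `η`, the probability that the spins agree with
`η` on `D` is `1/2 ∏ (1 + θ η_u η_v) / 2`, the product being over the edges of `G` inside `D`. -/
def IsFreeIsing (G : SimpleGraph V) (θ : ℝ) (μ : Measure (V → Bool)) : Prop :=
  ∀ D : Finset V, (G.induce (D : Set V)).Connected → ∀ η : V → Bool,
    μ {σ | ∀ v ∈ D, σ v = η v} =
      ENNReal.ofReal (1 / 2 * ∏ e ∈ D.sym2.filter (fun e => e ∈ G.edgeSet), edgeW θ η e)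

/-- `ν` is a factor of i.i.d.: it is the law of `Φ(U)`, where the labels `U_v` are i.i.d. uniform
on `[0, 1]`, the map `Φ` is measurable, and `Φ(g U) = g Φ(U)` almost surely for every
automorphism `g` of `G`, where `(g x)_v = x_{g⁻¹ v}`. -/
def IsFactorOfIID (G : SimpleGraph V) (ν : Measure (V → Bool)) : Prop :=
  ∃ Φ : (V → unitInterval) → V → Bool, Measurable Φ ∧
    (∀ g : G ≃g G, ∀ᵐ U ∂(Measure.infinitePi fun _ : V => (volume : Measure unitInterval)),
      Φ (fun v => U (g.symm v)) = fun v => Φ U (g.symm v)) ∧
    (Measure.infinitePi fun _ : V => (volume : Measure unitInterval)).map Φ = ν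

end Statement

end P161
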